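import Mathlib

namespace Vale.Agent.P256

open MvPolynomial

/-- `p` is a homogeneous polynomial, `p(e) > 0`, and for every real `x` all complex roots of
`t ↦ p(t e - x)` are real. -/
def IsHyperbolic {n : ℕ} (p : MvPolynomial (Fin n) ℝ) (e : Fin n → ℝ) : Prop :=
  (∃ d : ℕ, p.IsHomogeneous d) ∧ 0 < eval e p ∧
    ∀ (x : Fin n → ℝ) (z : ℂ), aeval (fun i => z * (e i : ℂ) - (x i : ℂ)) p = 0 → z.im = 0

/-- The closed hyperbolicity cone: all roots of `t ↦ p(t e - x)` are nonnegative. -/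
def hypCone {n : ℕ} (p : MvPolynomial (Fin n) ℝ) (e : Fin n → ℝ) : Set (Fin n → ℝ) :=
  {x | ∀ t : ℝ, eval (t • e - x) p = 0 → 0 ≤ t}

/-- `K` is the solution set of a linear matrix inequality with real symmetric matrices. -/
def IsSpectrahedron {n : ℕ} (K : Set (Fin n → ℝ)) : Prop :=
  ∃ (N : ℕ) (A₀ : Matrix (Fin N) (Fin N) ℝ) (A : Fin n → Matrix (Fin N) (Fin N) ℝ),
    A₀.IsSymm ∧ (∀ i, (A i).IsSymm) ∧ K = {x | (A₀ + ∑ i, x i • A i).PosSemidef}

end Vale.Agent.P256
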