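import Mathlib
import Vale.Agent.P256.GDefs

namespace Vale.Agent.P256

/-- `K` is a spectrahedral shadow: the projection, along `a` extra variables `u`, of the solution
set of a linear matrix inequality with real symmetric matrices of one finite size `N`. -/
def IsShadow {n : ℕ} (K : Set (Fin n → ℝ)) : Prop :=
  ∃ (N a : ℕ) (A₀ : Matrix (Fin N) (Fin N) ℝ) (A : Fin n → Matrix (Fin N) (Fin N) ℝ)
    (B : Fin a → Matrix (Fin N) (Fin N) ℝ),
    A₀.IsSymm ∧ (∀ i, (A i).IsSymm) ∧ (∀ j, (B j).IsSymm) ∧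
      K = {x | ∃ u : Fin a → ℝ, (A₀ + ∑ i, x i • A i + ∑ j, u j • B j).PosSemidef}

end Vale.Agent.P256
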