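import Mathlib

/-!
A closedness property of ranges at a point of maximal rank.
-/

open Filter Topology

namespace Vale.Agent.P256

/-- If the rank of a continuous family of linear maps is maximal at `0`, then limits of vectors
in the ranges lie in the range at `0`. -/
theorem range_limit {V W : Type*} [AddCommGroup V] [Module ℝ V] [NormedAddCommGroup W]
    [NormedSpace ℝ W] [FiniteDimensional ℝ W] (L : ℝ → V →ₗ[ℝ] W)
    (hL : ∀ v, Continuous fun t => L t v)
    (hr : ∀ t, Module.finrank ℝ (LinearMap.range (L t)) ≤ Module.finrank ℝ (LinearMap.range (L 0)))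
    (z : ℝ → W) (hz : Continuous z) (hzr : ∀ t, t ≠ 0 → z t ∈ LinearMap.range (L t)) :
    z 0 ∈ LinearMap.range (L 0) := by
  by_contra hn
  set ρ := Module.finrank ℝ (LinearMap.range (L 0)) with hρ
  let b := Module.finBasis ℝ (LinearMap.range (L 0))
  have hv : ∀ i : Fin ρ, ∃ v, L 0 v = (b i : W) := fun i => (b i).2
  choose v hv using hv
  let f : ℝ → Option (Fin ρ) → W := fun t o => Option.casesOn' o (z t) fun i => L t (v i)
  have hf : Continuous f := by
    refine continuous_pi fun o => ?_
    cases o with
    | none => exact hz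
    | some i => exact hL (v i)
  have h0 : LinearIndependent ℝ (f 0) := by
    have hb : LinearIndependent ℝ fun i : Fin ρ => L 0 (v i) := by
      have := b.linearIndependent.map' (LinearMap.range (L 0)).subtype (Submodule.ker_subtype _)
      have he : (fun i : Fin ρ => L 0 (v i)) = (LinearMap.range (L 0)).subtype ∘ b :=
        funext fun i => hv i
      rw [he]
      exact this
    refine LinearIndependent.option hb ?_
    intro hmem
    apply hn
    refine (Submodule.span_le.2 ?_) hmem
    rintro _ ⟨i, rfl⟩
    exact ⟨v i, rfl⟩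
  have hev : ∀ᶠ t in 𝓝 (0 : ℝ), LinearIndependent ℝ (f t) :=
    hf.continuousAt.eventually (isOpen_setOfPred_linearIndependent.mem_nhds h0)
  obtain ⟨t, ht, ht0⟩ := ((hev.filter_mono nhdsWithin_le_nhds).and
    (self_mem_nhdsWithin : {(0 : ℝ)}ᶜ ∈ 𝓝[≠] (0 : ℝ))).exists
  have hmem : ∀ o, f t o ∈ LinearMap.range (L t) := by
    intro o
    cases o with
    | none => exact hzr t ht0
    | some i => exact ⟨v i, rfl⟩
  have hli : LinearIndependent ℝ fun o => (⟨f t o, hmem o⟩ : LinearMap.range (L t)) :=
    LinearIndependent.of_comp (LinearMap.range (L t)).subtype ht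
  have hc := hli.fintype_card_le_finrank
  have := hr t
  simp only [Fintype.card_option, Fintype.card_fin] at hc
  omega

/-- A family of linear maps into a finite-dimensional space has a member of maximal rank. -/
theorem exists_max_rank {A V W : Type*} [Nonempty A] [AddCommGroup V] [Module ℝ V]
    [AddCommGroup W] [Module ℝ W] [FiniteDimensional ℝ W] (L : A → V →ₗ[ℝ] W) :
    ∃ a, ∀ a', Module.finrank ℝ (LinearMap.range (L a')) ≤
      Module.finrank ℝ (LinearMap.range (L a)) := by
  have hb : BddAbove (Set.range fun a => Module.finrank ℝ (LinearMap.range (L a))) :=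
    ⟨Module.finrank ℝ W, by rintro _ ⟨a, rfl⟩; exact Submodule.finrank_le _⟩
  obtain ⟨a, ha⟩ := Nat.sSup_mem (Set.range_nonempty _) hb
  exact ⟨a, fun a' => by
    have := le_csSup hb ⟨a', rfl⟩
    simpa [← ha] using this⟩

end Vale.Agent.P256
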