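import Mathlib
import Vale.Agent.P256.GRank

/-!
Blowing up a linear pencil that describes the epigraph of a matrix-valued quadratic map.
-/

open Matrix

namespace Vale.Agent.P256

variable {n : Type*} [Fintype n]

theorem psd_iff {A : Matrix n n ℝ} : A.PosSemidef ↔ A.IsSymm ∧ ∀ v, 0 ≤ v ⬝ᵥ A *ᵥ v := by
  rw [posSemidef_iff_dotProduct_mulVec]
  simp [IsHermitian, IsSymm]

open scoped MatrixOrder in
theorem psd_factor {A : Matrix n n ℝ} (hA : A.PosSemidef) : ∃ S : Matrix n n ℝ, A = Sᵀ * S := by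
  classical
  obtain ⟨B, hB⟩ := CStarAlgebra.nonneg_iff_eq_star_mul_self.mp hA.nonneg
  exact ⟨B, by simpa [star_eq_conjTranspose] using hB⟩

theorem psd_zero {A : Matrix n n ℝ} (hA : A.PosSemidef) {v : n → ℝ} (h : v ⬝ᵥ A *ᵥ v = 0) :
    A *ᵥ v = 0 := (hA.dotProduct_mulVec_zero_iff v).1 (by simpa using h)

theorem dot_symm {X : Matrix n n ℝ} (hX : X.IsSymm) (u v : n → ℝ) :
    u ⬝ᵥ X *ᵥ v = (X *ᵥ u) ⬝ᵥ v := by
  rw [dotProduct_mulVec, ← mulVec_transpose, hX.eq]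

theorem dot_tmul {m : Type*} [Fintype m] (S : Matrix m n ℝ) (u v : n → ℝ) :
    u ⬝ᵥ (Sᵀ * S) *ᵥ v = (S *ᵥ u) ⬝ᵥ (S *ᵥ v) := by
  rw [← mulVec_mulVec, dotProduct_mulVec, vecMul_transpose]

theorem dot_self_nonneg (v : n → ℝ) : 0 ≤ v ⬝ᵥ v :=
  Finset.sum_nonneg fun i _ => mul_self_nonneg (v i)

theorem exists_dom (Y : Matrix n n ℝ) : ∃ c > 0, ∀ v, v ⬝ᵥ Y *ᵥ v ≤ c * (v ⬝ᵥ v) := by
  refine ⟨1 + ∑ i, ∑ j, |Y i j|, by positivity, fun v => ?_⟩
  have h1 : ∀ i, v i * v i ≤ v ⬝ᵥ v := fun i =>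
    Finset.single_le_sum (f := fun i => v i * v i) (fun i _ => mul_self_nonneg (v i))
      (Finset.mem_univ i)
  have h2 : v ⬝ᵥ Y *ᵥ v ≤ ∑ i, ∑ j, |Y i j| * (v ⬝ᵥ v) := by
    simp only [dotProduct, mulVec, Finset.mul_sum]
    refine Finset.sum_le_sum fun i _ => ?_
    rw [← Finset.sum_congr rfl fun j _ => Finset.mul_sum _ _ |Y i j|]
    refine Finset.sum_le_sum fun j _ => ?_
    have h3 : |v i * v j| ≤ v ⬝ᵥ v := by
      rw [abs_le]
      constructor <;> nlinarith [h1 i, h1 j, sq_nonneg (v i + v j), sq_nonneg (v i - v j)]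
    calc v i * (Y i j * v j) = Y i j * (v i * v j) := by ring
      _ ≤ |Y i j * (v i * v j)| := le_abs_self _
      _ = |Y i j| * |v i * v j| := abs_mul _ _
      _ ≤ |Y i j| * (v ⬝ᵥ v) := mul_le_mul_of_nonneg_left h3 (abs_nonneg _)
  have h4 := dot_self_nonneg v
  simp only [← Finset.sum_mul] at h2
  nlinarith

theorem exists_ginv (M : Matrix n n ℝ) :
    ∃ g : Matrix n n ℝ, ∀ v, M *ᵥ (g *ᵥ (M *ᵥ v)) = M *ᵥ v := by
  classical
  let f := toLin' M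
  obtain ⟨r, hr⟩ := f.rangeRestrict.exists_rightInverse_of_surjective f.range_rangeRestrict
  obtain ⟨g, hg⟩ := LinearMap.exists_extend r
  refine ⟨LinearMap.toMatrix' g, fun v => ?_⟩
  have h1 := LinearMap.congr_fun hg ⟨f v, v, rfl⟩
  have h2 := congrArg Subtype.val (LinearMap.congr_fun hr ⟨f v, v, rfl⟩)
  rw [LinearMap.toMatrix'_mulVec]
  simp only [LinearMap.comp_apply, Submodule.subtype_apply] at h1
  simp only [LinearMap.comp_apply, LinearMap.id_apply] at h2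
  rw [← h1] at h2
  exact h2

theorem exists_eps {M G : Matrix n n ℝ} (hM : M.PosSemidef) (hG : G.IsSymm)
    (h : ∀ v, M *ᵥ v = 0 → G *ᵥ v = 0) : ∃ ε : ℝ, 0 < ε ∧ (M - ε • G).PosSemidef := by
  obtain ⟨S, hS⟩ := psd_factor hM
  obtain ⟨g, hg⟩ := exists_ginv M
  obtain ⟨c, hc, hd⟩ := exists_dom ((g * Sᵀ)ᵀ * G * (g * Sᵀ))
  refine ⟨c⁻¹, inv_pos.2 hc, psd_iff.2 ⟨(psd_iff.1 hM).1.sub (hG.smul _), fun v => ?_⟩⟩
  set w := g *ᵥ (M *ᵥ v) with hw
  have h1 : G *ᵥ v = G *ᵥ w := by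
    have := h (v - w) (by rw [mulVec_sub, hw, hg, sub_self])
    rwa [mulVec_sub, sub_eq_zero] at this
  have h2 : v ⬝ᵥ G *ᵥ v = w ⬝ᵥ G *ᵥ w := by
    rw [h1, dot_symm hG, h1, ← dot_symm hG]
  have h3 : w = (g * Sᵀ) *ᵥ (S *ᵥ v) := by
    rw [hw, hS]
    simp only [mulVec_mulVec, Matrix.mul_assoc]
  have h4 := hd (S *ᵥ v)
  rw [← mulVec_mulVec, ← mulVec_mulVec, dotProduct_mulVec, vecMul_transpose, ← h3, ← h2,
    ← dot_tmul, ← hS] at h4
  rw [sub_mulVec, dotProduct_sub, smul_mulVec, dotProduct_smul, smul_eq_mul, sub_nonneg,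
    inv_mul_le_iff₀ hc]
  exact h4

theorem blowup {W : Type*} [AddCommGroup W] [Module ℝ W] {ι : Type*} [Fintype ι] [DecidableEq ι]
    (Φ : W →ₗ[ℝ] W →ₗ[ℝ] Matrix ι ι ℝ) (hΦ : ∀ w, (Φ w w).IsSymm)
    (A : Matrix n n ℝ) (B : W →ₗ[ℝ] Matrix n n ℝ) (C : Matrix ι ι ℝ →ₗ[ℝ] Matrix n n ℝ)
    (hB : ∀ w, (B w).IsSymm) (hC : ∀ T, (C T).IsSymm)
    (H : ∀ w T, T.IsSymm → ((T - Φ w w).PosSemidef ↔ (A + B w + C T).PosSemidef)) :
    ∃ (M : Submodule ℝ (n → ℝ)) (ℓ : W →ₗ[ℝ] M →ₗ[ℝ] (n → ℝ)),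
      (∀ w m, ℓ w m ⬝ᵥ ℓ w m = (m : n → ℝ) ⬝ᵥ C (Φ w w) *ᵥ (m : n → ℝ)) ∧
      ∀ (P : Matrix ι ι ℝ) (η : ι → ℝ), P.PosSemidef → η ≠ 0 → P *ᵥ η = 0 →
        ∃ m : M, (m : n → ℝ) ⬝ᵥ C P *ᵥ (m : n → ℝ) = 0 ∧
          (m : n → ℝ) ⬝ᵥ C 1 *ᵥ (m : n → ℝ) ≠ 0 := by
  classical
  obtain ⟨a, ha⟩ := exists_max_rank fun w : W => toLin' (A + B w + C (Φ w w))
  set A' := A + B a + C (Φ a a) with hA'
  let B' : W →ₗ[ℝ] Matrix n n ℝ := B + C ∘ₗ (Φ a + Φ.flip a)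
  have hB' : ∀ w, B' w = B w + C (Φ a w + Φ w a) := fun w => rfl
  have hB's : ∀ w, (B' w).IsSymm := fun w => (hB w).add (hC _)
  have H' : ∀ T, T.IsSymm → (T.PosSemidef ↔ (A' + C T).PosSemidef) := by
    intro T hT
    have := H a (T + Φ a a) (hT.add (hΦ a))
    rw [add_sub_cancel_right, map_add] at this
    rw [this, hA', add_assoc (A + B a), add_comm (C T)]
  have hAp : A'.PosSemidef := by
    have := (H' 0 isSymm_zero).1 PosSemidef.zero
    rwa [map_zero, add_zero] at this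
  have hAs : A'.IsSymm := (psd_iff.1 hAp).1
  obtain ⟨S, hS⟩ := psd_factor hAp
  obtain ⟨g, hg⟩ := exists_ginv A'
  let M := LinearMap.ker (toLin' A')
  have hM : ∀ m : M, A' *ᵥ (m : n → ℝ) = 0 := fun m => m.2
  let ℓ : W →ₗ[ℝ] M →ₗ[ℝ] (n → ℝ) := LinearMap.mk₂ ℝ
    (fun w m => S *ᵥ (g *ᵥ (B' w *ᵥ (m : n → ℝ))))
    (fun w w' m => by simp only [map_add, add_mulVec, mulVec_add])
    (fun c w m => by simp only [map_smul, smul_mulVec, mulVec_smul])
    (fun w m m' => by simp only [Submodule.coe_add, mulVec_add])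
    (fun c w m => by simp only [Submodule.coe_smul, mulVec_smul])
  have hℓ : ∀ w m, ℓ w m = S *ᵥ (g *ᵥ (B' w *ᵥ (m : n → ℝ))) := fun w m => rfl
  refine ⟨M, ℓ, fun w m => ?_, fun P η hP hη hPη => ?_⟩
  · set C' := C (Φ w w) with hC'
    let L : ℝ → (n → ℝ) →ₗ[ℝ] (n → ℝ) := fun t => toLin' (A' + t • B' w + t ^ 2 • C')
    have hL : ∀ t v, L t v = A' *ᵥ v + t • B' w *ᵥ v + t ^ 2 • C' *ᵥ v := by
      intro t v
      simp only [L, toLin'_apply, add_mulVec, smul_mulVec]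
    have hLc : ∀ v, Continuous fun t => L t v := fun v => by simp only [hL]; fun_prop
    have hL0 : L 0 = toLin' A' := by simp [L]
    have hr : ∀ t, Module.finrank ℝ (LinearMap.range (L t)) ≤
        Module.finrank ℝ (LinearMap.range (L 0)) := by
      intro t
      have h1 : A' + t • B' w + t ^ 2 • C' =
          A + B (a + t • w) + C (Φ (a + t • w) (a + t • w)) := by
        simp only [hA', hB', hC', map_add, map_smul, LinearMap.add_apply, LinearMap.smul_apply]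
        module
      have h2 : L t = toLin' (A + B (a + t • w) + C (Φ (a + t • w) (a + t • w))) :=
        congrArg toLin' h1
      rw [hL0, h2]
      exact ha _
    have h1 := range_limit L hLc hr (fun t => B' w *ᵥ m + t • C' *ᵥ m) (by fun_prop)
      (fun t ht => ⟨t⁻¹ • (m : n → ℝ), by
        rw [map_smul, hL, hM, zero_add, smul_add, smul_smul, smul_smul, inv_mul_cancel₀ ht,
          one_smul]
        congr 2
        field_simp⟩)
    rw [hL0, zero_smul, add_zero] at h1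
    obtain ⟨n₀, hn₀⟩ := h1
    rw [toLin'_apply] at hn₀
    set ν := g *ᵥ (B' w *ᵥ (m : n → ℝ)) with hν
    have h2 : A' *ᵥ ν = B' w *ᵥ m := by rw [hν, ← hn₀, hg]
    have h3 := range_limit L hLc hr (fun t => C' *ᵥ m - B' w *ᵥ ν - t • C' *ᵥ ν) (by fun_prop)
      (fun t ht => ⟨(t ^ 2)⁻¹ • ((m : n → ℝ) - t • ν), by
        have h4 : L t ((m : n → ℝ) - t • ν) =
            t ^ 2 • (C' *ᵥ m - B' w *ᵥ ν - t • C' *ᵥ ν) := by
          rw [hL]
          simp only [mulVec_sub, mulVec_smul, hM, h2]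
          module
        rw [map_smul, h4, smul_smul, inv_mul_cancel₀ (pow_ne_zero 2 ht), one_smul]⟩)
    rw [hL0, zero_smul, sub_zero] at h3
    obtain ⟨n₁, hn₁⟩ := h3
    rw [toLin'_apply] at hn₁
    have h5 := congrArg (fun x => (m : n → ℝ) ⬝ᵥ x) hn₁
    simp only [dotProduct_sub] at h5
    rw [dot_symm hAs, hM, zero_dotProduct, dot_symm (hB's w), ← h2, ← dot_symm hAs] at h5
    rw [hℓ, ← hν, ← dot_tmul, ← hS]
    linarith
  · have hCp : ∀ T : Matrix ι ι ℝ, T.PosSemidef → (C T).PosSemidef := by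
      intro T hT
      refine psd_iff.2 ⟨hC T, fun v => ?_⟩
      by_contra hneg
      push Not at hneg
      set c := v ⬝ᵥ C T *ᵥ v with hc
      have ha0 := (psd_iff.1 hAp).2 v
      have hl : 0 ≤ (v ⬝ᵥ A' *ᵥ v + 1) / (-c) := div_nonneg (by linarith) (by linarith)
      have h1 := (psd_iff.1 ((H' _ ((psd_iff.1 hT).1.smul _)).1 (hT.smul hl))).2 v
      rw [map_smul, add_mulVec, dotProduct_add, smul_mulVec, dotProduct_smul, ← hc, smul_eq_mul,
        div_neg, neg_mul, div_mul_cancel₀ _ hneg.ne] at h1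
      linarith
    by_contra hcon
    push Not at hcon
    have hCP := hCp P hP
    have hC1 := hCp 1 PosSemidef.one
    obtain ⟨ε, hε, hp⟩ := exists_eps (hAp.add hCP) (hC 1) (fun v hv => by
      have h1 := congrArg (fun x => v ⬝ᵥ x) hv
      simp only [add_mulVec, dotProduct_add, dotProduct_zero] at h1
      have h2 := (psd_iff.1 hAp).2 v
      have h3 := (psd_iff.1 hCP).2 v
      have h4 : A' *ᵥ v = 0 := psd_zero hAp (by linarith)
      exact psd_zero hC1 (hcon ⟨v, h4⟩ (by simp only; linarith)))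
    have h5 : A' + C P - ε • C 1 = A' + C (P - ε • 1) := by
      rw [map_sub, map_smul, add_sub_assoc]
    rw [h5] at hp
    have h6 := (psd_iff.1 ((H' _ ((psd_iff.1 hP).1.sub (isSymm_one.smul ε))).2 hp)).2 η
    rw [sub_mulVec, hPη, smul_mulVec, one_mulVec, zero_sub, dotProduct_neg, dotProduct_smul,
      smul_eq_mul] at h6
    have h7 : 0 < η ⬝ᵥ η :=
      lt_of_le_of_ne (dot_self_nonneg η) fun h => hη (dotProduct_self_eq_zero.1 h.symm)
    nlinarith [mul_pos hε h7]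

end Vale.Agent.P256
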