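import Mathlib
import Vale.Agent.P256.GRank

/-!
The quaternionic rigidity argument.
-/

open Quaternion Matrix

namespace Vale.Agent.P256

/-- The biquadratic form `|y|²|e|² - |⟨y,e⟩|²`-like form on quaternionic planes. -/
noncomputable def qf (y₁ y₂ e₁ e₂ : ℍ[ℝ]) : ℝ :=
  normSq y₁ * normSq e₂ + normSq y₂ * normSq e₁ - 2 * (star e₂ * (y₂ * star y₁ * e₁)).re

theorem qf_line (x a e₁ e₂ : ℍ[ℝ]) : qf x (a * x) e₁ e₂ = normSq x * normSq (e₂ - a * e₁) := by
  have h1 : a * x * star x * e₁ = (normSq x : ℝ) • (a * e₁) := by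
    rw [mul_assoc a, self_mul_star, mul_assoc, coe_mul_eq_smul, mul_smul_comm]
  have h2 : normSq (e₂ - a * e₁) =
      normSq e₂ + normSq a * normSq e₁ - 2 * (star e₂ * (a * e₁)).re := by
    rw [← map_mul normSq]
    generalize a * e₁ = b
    simp [normSq_def']
    ring
  rw [qf, h1, h2, map_mul normSq, mul_smul_comm, re_smul, smul_eq_mul]
  ring

/-- A quaternion from its coordinates. -/
def mkq (a b c d : ℝ) : ℍ[ℝ] := ⟨a, b, c, d⟩

@[simp] theorem mkq_re (a b c d : ℝ) : (mkq a b c d).re = a := rfl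
@[simp] theorem mkq_imI (a b c d : ℝ) : (mkq a b c d).imI = b := rfl
@[simp] theorem mkq_imJ (a b c d : ℝ) : (mkq a b c d).imJ = c := rfl
@[simp] theorem mkq_imK (a b c d : ℝ) : (mkq a b c d).imK = d := rfl

theorem qf_zero_one (e₁ e₂ : ℍ[ℝ]) : qf 0 1 e₁ e₂ = normSq e₁ := by simp [qf]

theorem indep_of_mult {E : Type*} [AddCommGroup E] [Module ℝ E] (u : ℕ → E) (hu : ∀ s, u s ≠ 0)
    (f : ℕ → ℝ) (hf : Function.Injective f)
    (key : ∀ (S : Finset ℕ) (g : ℕ → ℝ), ∑ s ∈ S, g s • u s = 0 →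
      ∑ s ∈ S, (g s * f s) • u s = 0) : LinearIndependent ℝ u := by
  rw [linearIndependent_iff']
  intro S
  induction S using Finset.induction_on with
  | empty => simp
  | insert a S ha ih =>
    intro g hg
    have h2 := key _ g hg
    have h3 : ∑ s ∈ S, (g s * (f s - f a)) • u s = 0 := by
      rw [Finset.sum_insert ha] at hg h2
      have : ∑ s ∈ S, (g s * (f s - f a)) • u s =
          ((g a * f a) • u a + ∑ s ∈ S, (g s * f s) • u s) -
            f a • (g a • u a + ∑ s ∈ S, g s • u s) := by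
        rw [smul_add, Finset.smul_sum, smul_smul, mul_comm (f a), add_sub_add_left_eq_sub,
          ← Finset.sum_sub_distrib]
        refine Finset.sum_congr rfl fun s _ => ?_
        rw [smul_smul, ← sub_smul]
        congr 1
        ring
      rw [this, hg, h2, smul_zero, sub_zero]
    have h4 : ∀ s ∈ S, g s = 0 := by
      intro s hs
      have := ih (fun s => g s * (f s - f a)) h3 s hs
      rcases mul_eq_zero.1 this with h | h
      · exact h
      · exact absurd (hf (sub_eq_zero.1 h)) (by rintro rfl; exact ha hs)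
    intro s hs
    rcases Finset.mem_insert.1 hs with rfl | hs
    · rw [Finset.sum_insert ha, Finset.sum_eq_zero (fun s hs => by rw [h4 s hs, zero_smul]),
        add_zero] at hg
      exact (smul_eq_zero.1 hg).resolve_right (hu _)
    · exact h4 s hs

theorem core {M : Type*} [AddCommGroup M] [Module ℝ M] {N : Type*} [Fintype N]
    (μ₁ μ₂ : M →ₗ[ℝ] (N → ℍ[ℝ])) (ℓ : (ℍ[ℝ] × ℍ[ℝ]) →ₗ[ℝ] M →ₗ[ℝ] (N → ℝ))
    (hℓ : ∀ y m, ℓ y m ⬝ᵥ ℓ y m = ∑ k, qf y.1 y.2 (μ₁ m k) (μ₂ m k))
    (hη : ∀ e₁ e₂ : ℍ[ℝ], e₁ ≠ 0 → ∃ m, ∃ u : N → ℝ, u ≠ 0 ∧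
      ∀ k, μ₁ m k = u k • e₁ ∧ μ₂ m k = u k • e₂) : False := by
  classical
  let Mq : ℍ[ℝ] → M →ₗ[ℝ] (N → ℍ[ℝ]) := fun a =>
    μ₂ - ((LinearMap.mulLeft ℝ a).compLeft N).comp μ₁
  have hMq : ∀ a m k, Mq a m k = μ₂ m k - a * μ₁ m k := fun a m k => rfl
  obtain ⟨a₀, ha₀⟩ := exists_max_rank Mq
  have hnorm : ∀ x b m, ℓ (x, b * x) m ⬝ᵥ ℓ (x, b * x) m = normSq x * ∑ k, normSq (Mq b m k) := by
    intro x b m
    rw [hℓ, Finset.mul_sum]
    exact Finset.sum_congr rfl fun k _ => qf_line _ _ _ _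
  have hker : ∀ x m, Mq a₀ m = 0 → ℓ (x, a₀ * x) m = 0 := by
    intro x m hm
    apply dotProduct_self_eq_zero.1
    rw [hnorm, hm]
    simp
  have htan : ∀ m, Mq a₀ m = 0 → ∀ a : ℍ[ℝ], ∃ m', ∀ k, Mq a₀ m' k = a * μ₁ m k := by
    intro m hm a
    have h := range_limit (fun t : ℝ => Mq (a₀ + t • a))
      (fun v => continuous_pi fun k => by simp only [hMq]; fun_prop)
      (fun t => by
        have e : a₀ + (0 : ℝ) • a = a₀ := by simp
        rw [e]
        exact ha₀ (a₀ + t • a)) (fun _ => fun k => a * μ₁ m k) continuous_const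
      (fun t ht => ⟨(-t⁻¹) • m, by
        funext k
        have h0 : μ₂ m k = a₀ * μ₁ m k := sub_eq_zero.1 (by rw [← hMq, hm]; rfl)
        rw [map_smul, Pi.smul_apply, hMq, h0, add_mul, smul_mul_assoc, sub_add_cancel_left,
          smul_neg, neg_smul, neg_neg, smul_smul, inv_mul_cancel₀ ht, one_smul]⟩)
    obtain ⟨m', hm'⟩ := h
    refine ⟨m', fun k => ?_⟩
    have := congrFun hm' k
    simpa using this
  have hhess : ∀ m m' (a x : ℍ[ℝ]), Mq a₀ m = 0 → (∀ k, Mq a₀ m' k = a * μ₁ m k) →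
      ℓ (x, a₀ * x) m' + ℓ (0, a * x) m = 0 := by
    intro m m' a x hm hm'
    set v := ℓ (x, a₀ * x) m' + ℓ (0, a * x) m with hv
    set v' := ℓ (0, a * x) m' with hv'
    set K := normSq x * ∑ k, normSq (a * μ₁ m' k) with hK
    have ht : ∀ t : ℝ, t ^ 2 * (v ⬝ᵥ v) + t ^ 3 * (2 * (v ⬝ᵥ v')) + t ^ 4 * (v' ⬝ᵥ v') =
        t ^ 4 * K := by
      intro t
      have h1 := hnorm x (a₀ + t • a) (m + t • m')
      have h2 : ℓ (x, (a₀ + t • a) * x) (m + t • m') = t • v + t ^ 2 • v' := by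
        have : ((x, (a₀ + t • a) * x) : ℍ[ℝ] × ℍ[ℝ]) = (x, a₀ * x) + t • (0, a * x) := by
          ext1 <;> simp [add_mul]
        rw [this, ℓ.map_add, ℓ.map_smul, LinearMap.add_apply, LinearMap.smul_apply, map_add,
          map_add, map_smul, map_smul, hker x m hm, hv, hv']
        module
      have h3 : ∀ k, Mq (a₀ + t • a) (m + t • m') k = (-t ^ 2) • (a * μ₁ m' k) := by
        intro k
        have h0 : μ₂ m k = a₀ * μ₁ m k := sub_eq_zero.1 (by rw [← hMq, hm]; rfl)
        have h0' : μ₂ m' k = a₀ * μ₁ m' k + a * μ₁ m k := by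
          rw [← hm' k, hMq]; abel
        rw [hMq, map_add, map_add, map_smul, map_smul, Pi.add_apply, Pi.add_apply, Pi.smul_apply,
          Pi.smul_apply, h0, h0']
        simp only [add_mul, mul_add, smul_mul_assoc, mul_smul_comm]
        module
      rw [h2] at h1
      simp only [h3, normSq_smul] at h1
      rw [← Finset.mul_sum] at h1
      simp only [add_dotProduct, dotProduct_add, smul_dotProduct, dotProduct_smul,
        smul_eq_mul] at h1
      rw [dotProduct_comm v' v] at h1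
      rw [hK]
      linear_combination h1
    apply dotProduct_self_eq_zero.1
    have e1 := ht 1
    have e2 := ht (-1)
    have e3 := ht 2
    linarith
  let η : ℕ → ℍ[ℝ] := fun s => mkq 1 s 0 0
  let f : ℕ → ℝ := fun s => (1 + (s : ℝ) ^ 2)⁻¹
  let θ : ℕ → ℍ[ℝ] := fun s => mkq (f s) (-(s * f s)) 0 0
  have hpos : ∀ s : ℕ, (1 + (s : ℝ) ^ 2) ≠ 0 := fun s => by positivity
  have hθη : ∀ s, θ s * η s = 1 := by
    intro s
    have := hpos s
    ext <;> simp [θ, η, f]
    · field_simp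
    · ring
  have hη0 : ∀ s, η s ≠ 0 := fun s h => by simpa [η] using congrArg QuaternionAlgebra.re h
  choose m u hu hm using fun s => hη (η s) (a₀ * η s) (hη0 s)
  have hm0 : ∀ s, Mq a₀ (m s) = 0 := by
    intro s
    funext k
    rw [hMq, (hm s k).1, (hm s k).2, mul_smul_comm, sub_self]
    rfl
  have hf : Function.Injective f := by
    intro s s' h
    have h1 : (1 + (s : ℝ) ^ 2) = 1 + (s' : ℝ) ^ 2 := inv_injective h
    have h2 : (s : ℝ) = s' := by
      have h3 : (s : ℝ) ^ 2 = (s' : ℝ) ^ 2 := by linarith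
      exact (sq_eq_sq₀ (Nat.cast_nonneg s) (Nat.cast_nonneg s')).1 h3
    exact_mod_cast h2
  have hli : LinearIndependent ℝ u := by
    refine indep_of_mult u hu f hf fun S g hg => ?_
    have hcx : ∀ c x : ℍ[ℝ], ∑ s ∈ S, g s • ℓ (0, c * θ s * x) (m s) = 0 := by
      intro c x
      choose m' hm' using fun s => htan (m s) (hm0 s) (c * θ s)
      have h1 : Mq a₀ (∑ s ∈ S, g s • m' s) = 0 := by
        funext k
        have hk := congrFun hg k
        simp only [Finset.sum_apply, Pi.smul_apply, smul_eq_mul, Pi.zero_apply] at hk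
        rw [map_sum, Finset.sum_apply]
        simp only [map_smul, Pi.smul_apply, hm', (hm _ k).1, mul_smul_comm, mul_assoc, hθη,
          mul_one, smul_smul]
        rw [← Finset.sum_smul, hk, zero_smul]
        rfl
      have h2 := hker x _ h1
      rw [map_sum] at h2
      have h3 : ∀ s, ℓ (0, c * θ s * x) (m s) = -ℓ (x, a₀ * x) (m' s) := fun s =>
        eq_neg_of_add_eq_zero_right (hhess (m s) (m' s) (c * θ s) x (hm0 s) (hm' s))
      simp only [h3, smul_neg, Finset.sum_neg_distrib, neg_eq_zero]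
      simpa only [map_smul] using h2
    let j : ℍ[ℝ] := mkq 0 0 1 0
    have h4 : ℓ (0, 1) (∑ s ∈ S, (g s * f s) • m s) = 0 := by
      have h5 : ∀ s, ℓ (0, 1 * θ s * 1) (m s) + ℓ (0, j * θ s * (-j)) (m s) =
          (2 * f s) • ℓ (0, 1) (m s) := by
        intro s
        rw [← LinearMap.add_apply, ← map_add, ← LinearMap.smul_apply, ← map_smul]
        congr 2
        ext <;> simp [θ, j]
        ring
      have h6 : ∑ s ∈ S, g s • ((2 * f s) • ℓ (0, 1) (m s)) = 0 := by
        simp only [← h5, smul_add, Finset.sum_add_distrib, hcx, add_zero]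
      have h7 : (2 : ℝ) • ℓ (0, 1) (∑ s ∈ S, (g s * f s) • m s) = 0 := by
        rw [← h6, map_sum, Finset.smul_sum]
        refine Finset.sum_congr rfl fun s _ => ?_
        rw [map_smul, smul_smul, smul_smul]
        congr 1
        ring
      exact (smul_eq_zero.1 h7).resolve_left two_ne_zero
    have h8 := hℓ (0, 1) (∑ s ∈ S, (g s * f s) • m s)
    rw [h4, dotProduct_zero] at h8
    simp only [qf_zero_one] at h8
    funext k
    have h9 := (Finset.sum_eq_zero_iff_of_nonneg (fun k _ => normSq_nonneg)).1 h8.symm k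
      (Finset.mem_univ k)
    rw [normSq_eq_zero, map_sum, Finset.sum_apply] at h9
    simp only [map_smul, Pi.smul_apply, (hm _ k).1, smul_smul] at h9
    let reL : ℍ[ℝ] →ₗ[ℝ] ℝ := ⟨⟨fun q => q.re, fun _ _ => rfl⟩, fun _ _ => rfl⟩
    have h10 := congrArg reL h9
    rw [map_sum, map_zero] at h10
    simp only [Finset.sum_apply, Pi.smul_apply, smul_eq_mul, Pi.zero_apply]
    rw [← h10]
    refine Finset.sum_congr rfl fun s _ => ?_
    have : reL (η s) = 1 := rfl
    rw [map_smul, this, smul_eq_mul, mul_one]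
  exact Module.Finite.not_linearIndependent_of_infinite u hli

end Vale.Agent.P256
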