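import Mathlib
import Vale.Agent.P256.GBlow

/-!
The hyperbolic polynomial `det (s T - Φ(w))` attached to a positive semidefinite
matrix-valued quadratic map `Φ`.
-/

open Matrix MvPolynomial

namespace Vale.Agent.P256

variable {ι κ : Type} [Fintype ι] [DecidableEq ι] [Fintype κ] [DecidableEq κ]

noncomputable def hmat (Φ : (κ → ℝ) →ₗ[ℝ] (κ → ℝ) →ₗ[ℝ] Matrix ι ι ℝ) :
    Matrix ι ι (MvPolynomial (Option (κ ⊕ ι × ι)) ℝ) := Matrix.of fun a b =>
  X none * (C (1 / 2) * (X (some (Sum.inr (a, b))) + X (some (Sum.inr (b, a))))) -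
    ∑ c, ∑ d, C (Φ (Pi.single c 1) (Pi.single d 1) a b) *
      (X (some (Sum.inl c)) * X (some (Sum.inl d)))

noncomputable def hpoly (Φ : (κ → ℝ) →ₗ[ℝ] (κ → ℝ) →ₗ[ℝ] Matrix ι ι ℝ) :
    MvPolynomial (Option (κ ⊕ ι × ι)) ℝ := (hmat Φ).det

def hdir (κ ι : Type) [DecidableEq ι] : Option (κ ⊕ ι × ι) → ℝ
  | none => 1
  | some (Sum.inl _) => 0
  | some (Sum.inr q) => if q.1 = q.2 then 1 else 0

noncomputable def symT (x : Option (κ ⊕ ι × ι) → ℝ) : Matrix ι ι ℝ := Matrix.of fun a b =>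
  (1 / 2) * (x (some (Sum.inr (a, b))) + x (some (Sum.inr (b, a))))

def wOf (x : Option (κ ⊕ ι × ι) → ℝ) : κ → ℝ := fun c => x (some (Sum.inl c))

omit [Fintype ι] [DecidableEq ι] [Fintype κ] [DecidableEq κ] in
theorem symT_symm (x : Option (κ ⊕ ι × ι) → ℝ) : (symT x).IsSymm := by
  ext a b
  simp [symT, add_comm]

omit [Fintype ι] [DecidableEq ι] in
theorem Phi_expand (Φ : (κ → ℝ) →ₗ[ℝ] (κ → ℝ) →ₗ[ℝ] Matrix ι ι ℝ) (w : κ → ℝ) (a b : ι) :
    Φ w w a b = ∑ c, ∑ d, Φ (Pi.single c 1) (Pi.single d 1) a b * (w c * w d) := by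
  have h : w = ∑ c, w c • (Pi.single c 1 : κ → ℝ) := by
    ext i
    simp [Finset.sum_apply, Pi.single_apply]
  conv_lhs => rw [h]
  simp only [map_sum, map_smul, LinearMap.sum_apply, LinearMap.smul_apply, Matrix.sum_apply,
    Matrix.smul_apply, smul_eq_mul, Finset.mul_sum]
  rw [Finset.sum_comm]
  refine Finset.sum_congr rfl fun c _ => Finset.sum_congr rfl fun d _ => ?_
  ring

theorem hpoly_homog (Φ : (κ → ℝ) →ₗ[ℝ] (κ → ℝ) →ₗ[ℝ] Matrix ι ι ℝ) :
    (hpoly Φ).IsHomogeneous (∑ _i : ι, 2) := by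
  have h : ∀ a b, (hmat Φ a b).IsHomogeneous 2 := by
    intro a b
    refine IsHomogeneous.sub ?_ (IsHomogeneous.sum _ _ _ fun c _ => IsHomogeneous.sum _ _ _
      fun d _ => ?_)
    · exact (isHomogeneous_X ℝ _).mul
        (((isHomogeneous_X ℝ _).add (isHomogeneous_X ℝ _)).C_mul _)
    · exact ((isHomogeneous_X ℝ _).mul (isHomogeneous_X ℝ _)).C_mul _
  rw [hpoly, det_apply']
  refine IsHomogeneous.sum _ _ _ fun s _ => ?_
  have h2 := IsHomogeneous.prod Finset.univ (fun i => hmat Φ (s i) i) (fun _ => 2)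
    (fun i _ => h _ _)
  have h3 := h2.C_mul (((Equiv.Perm.sign s : ℤˣ) : ℤ) : ℝ)
  simpa using h3

theorem aeval_hpoly (Φ : (κ → ℝ) →ₗ[ℝ] (κ → ℝ) →ₗ[ℝ] Matrix ι ι ℝ) {R : Type} [CommRing R]
    [Algebra ℝ R] (z : R) (x : Option (κ ⊕ ι × ι) → ℝ) :
    aeval (fun i => z * algebraMap ℝ R (hdir κ ι i) - algebraMap ℝ R (x i)) (hpoly Φ) =
      ((z - algebraMap ℝ R (x none)) • (z • (1 : Matrix ι ι R) - (symT x).map (algebraMap ℝ R)) -
        (Φ (wOf x) (wOf x)).map (algebraMap ℝ R)).det := by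
  rw [hpoly, AlgHom.map_det]
  congr 1
  ext a b
  have h2 : algebraMap ℝ R (1 / 2) * 2 = 1 := by
    rw [← map_ofNat (algebraMap ℝ R) 2, ← map_mul]
    norm_num
  simp only [AlgHom.mapMatrix_apply, Matrix.map_apply, hmat, of_apply, map_sub, map_mul, map_add,
    map_sum, aeval_X, aeval_C, hdir, Matrix.sub_apply, Matrix.smul_apply, smul_eq_mul, symT,
    Phi_expand Φ (wOf x), wOf, map_one, map_zero, mul_zero, zero_sub, neg_mul_neg, mul_one,
    Matrix.one_apply]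
  congr 2
  by_cases hab : a = b
  · subst hab
    simp only [if_true, map_one]
    linear_combination z * h2
  · simp only [hab, Ne.symm hab, if_false, map_zero]
    ring

theorem eval_hpoly (Φ : (κ → ℝ) →ₗ[ℝ] (κ → ℝ) →ₗ[ℝ] Matrix ι ι ℝ) (t : ℝ)
    (x : Option (κ ⊕ ι × ι) → ℝ) :
    eval (t • hdir κ ι - x) (hpoly Φ) =
      ((t - x none) • (t • (1 : Matrix ι ι ℝ) - symT x) - Φ (wOf x) (wOf x)).det := by
  have := aeval_hpoly Φ t x
  simp only [Algebra.algebraMap_self, RingHom.id_apply, RingHom.coe_id, Matrix.map_id] at this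
  rw [← this, ← coe_aeval_eq_eval]
  rfl

theorem hpoly_dir (Φ : (κ → ℝ) →ₗ[ℝ] (κ → ℝ) →ₗ[ℝ] Matrix ι ι ℝ) :
    eval (hdir κ ι) (hpoly Φ) = 1 := by
  have := eval_hpoly Φ 1 0
  have h1 : symT (0 : Option (κ ⊕ ι × ι) → ℝ) = 0 := by ext a b; simp [symT]
  have h2 : wOf (0 : Option (κ ⊕ ι × ι) → ℝ) = 0 := rfl
  simpa [h1, h2] using this

omit [DecidableEq ι] in
theorem cdot (Y : Matrix ι ι ℝ) (hY : Y.IsSymm) (v : ι → ℂ) :
    star v ⬝ᵥ Y.map (algebraMap ℝ ℂ) *ᵥ v =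
      (((fun i => (v i).re) ⬝ᵥ Y *ᵥ (fun i => (v i).re) +
        (fun i => (v i).im) ⬝ᵥ Y *ᵥ (fun i => (v i).im) : ℝ) : ℂ) := by
  have h := dot_symm hY (fun i => (v i).re) (fun i => (v i).im)
  rw [dotProduct_comm (Y *ᵥ _)] at h
  apply Complex.ext
  · simp [dotProduct, mulVec, Finset.mul_sum, Finset.sum_add_distrib]
  · simp only [dotProduct, mulVec, Finset.mul_sum] at h
    simp [dotProduct, mulVec, Finset.mul_sum, Finset.sum_add_distrib, h]

theorem hpoly_real (Φ : (κ → ℝ) →ₗ[ℝ] (κ → ℝ) →ₗ[ℝ] Matrix ι ι ℝ) (hΦ : ∀ w, (Φ w w).PosSemidef)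
    (x : Option (κ ⊕ ι × ι) → ℝ) (z : ℂ)
    (h : aeval (fun i => z * (hdir κ ι i : ℂ) - (x i : ℂ)) (hpoly Φ) = 0) : z.im = 0 := by
  have h1 := aeval_hpoly Φ z x
  rw [show (fun i => z * algebraMap ℝ ℂ (hdir κ ι i) - algebraMap ℝ ℂ (x i)) =
    fun i => z * (hdir κ ι i : ℂ) - (x i : ℂ) from rfl, h] at h1
  obtain ⟨v, hv, hMv⟩ := Matrix.exists_mulVec_eq_zero_iff.2 h1.symm
  have h2 := congrArg (fun u => star v ⬝ᵥ u) hMv
  have h3 : (1 : Matrix ι ι ℂ) = (1 : Matrix ι ι ℝ).map (algebraMap ℝ ℂ) := by simp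
  simp only [sub_mulVec, smul_mulVec, dotProduct_sub, dotProduct_smul, dotProduct_zero] at h2
  rw [h3, cdot _ isSymm_one, cdot _ (symT_symm x), cdot _ (psd_iff.1 (hΦ _)).1] at h2
  set r : ι → ℝ := fun i => (v i).re with hr
  set j : ι → ℝ := fun i => (v i).im with hj
  have hπ : 0 ≤ r ⬝ᵥ Φ (wOf x) (wOf x) *ᵥ r + j ⬝ᵥ Φ (wOf x) (wOf x) *ᵥ j :=
    add_nonneg ((psd_iff.1 (hΦ _)).2 _) ((psd_iff.1 (hΦ _)).2 _)
  have hn : 0 < r ⬝ᵥ (1 : Matrix ι ι ℝ) *ᵥ r + j ⬝ᵥ (1 : Matrix ι ι ℝ) *ᵥ j := by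
    rw [one_mulVec, one_mulVec]
    have a1 := dot_self_nonneg r
    have a2 := dot_self_nonneg j
    by_contra hc
    apply hv
    have b1 : r = 0 := dotProduct_self_eq_zero.1 (by linarith)
    have b2 : j = 0 := dotProduct_self_eq_zero.1 (by linarith)
    funext i
    exact Complex.ext (congrFun b1 i) (congrFun b2 i)
  generalize r ⬝ᵥ Φ (wOf x) (wOf x) *ᵥ r + j ⬝ᵥ Φ (wOf x) (wOf x) *ᵥ j = π at h2 hπ
  generalize r ⬝ᵥ (1 : Matrix ι ι ℝ) *ᵥ r + j ⬝ᵥ (1 : Matrix ι ι ℝ) *ᵥ j = N at h2 hn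
  generalize r ⬝ᵥ symT x *ᵥ r + j ⬝ᵥ symT x *ᵥ j = τ at h2
  have e1 := congrArg Complex.re h2
  have e2 := congrArg Complex.im h2
  simp at e1 e2
  by_contra hz
  have e3 : z.re * N - τ = -(N * (z.re - x none)) := by
    have : z.im * (z.re * N - τ + N * (z.re - x none)) = 0 := by linarith
    have := (mul_eq_zero.1 this).resolve_left hz
    linarith
  rw [e3] at e1
  have : 0 < N * (z.im * z.im) := mul_pos hn (mul_self_pos.2 hz)
  nlinarith [mul_nonneg hn.le (mul_self_nonneg (z.re - x none))]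

theorem hcone_slice (Φ : (κ → ℝ) →ₗ[ℝ] (κ → ℝ) →ₗ[ℝ] Matrix ι ι ℝ)
    (hΦ : ∀ w, (Φ w w).PosSemidef) (x : Option (κ ⊕ ι × ι) → ℝ) (hx : x none = 1) :
    (∀ t : ℝ, eval (t • hdir κ ι - x) (hpoly Φ) = 0 → 0 ≤ t) ↔
      (symT x - Φ (wOf x) (wOf x)).PosSemidef := by
  simp only [eval_hpoly, hx]
  set T := symT x with hT
  set P := Φ (wOf x) (wOf x) with hP
  have hTs : T.IsSymm := symT_symm x
  have hPp : P.PosSemidef := hΦ _
  constructor
  · intro h
    obtain ⟨S, hS⟩ := psd_factor hPp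
    let Q : Matrix (ι ⊕ ι) (ι ⊕ ι) ℝ := fromBlocks T Sᵀ S 1
    have hQ : Q.IsHermitian := by
      simp only [Q, IsHermitian, conjTranspose_eq_transpose_of_trivial, fromBlocks_transpose,
        transpose_transpose, transpose_one, hTs.eq]
    have hQp : Q.PosSemidef := by
      rw [hQ.posSemidef_iff_eigenvalues_nonneg]
      intro i
      by_contra hneg
      simp only [Pi.zero_apply, not_le] at hneg
      set l := hQ.eigenvalues i with hl
      have h1 := hQ.mulVec_eigenvectorBasis i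
      rw [← hl] at h1
      have h0 : (⇑(hQ.eigenvectorBasis i) : ι ⊕ ι → ℝ) ≠ 0 := by
        intro h0
        have := hQ.eigenvectorBasis.orthonormal.ne_zero i
        apply this
        ext k
        exact congrFun h0 k
      generalize (⇑(hQ.eigenvectorBasis i) : ι ⊕ ι → ℝ) = y at h1 h0
      have hy : y = Sum.elim (y ∘ Sum.inl) (y ∘ Sum.inr) := by ext (k | k) <;> rfl
      set v := y ∘ Sum.inl with hv
      set u := y ∘ Sum.inr with hu
      rw [hy, fromBlocks_mulVec] at h1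
      simp only [Sum.elim_comp_inl, Sum.elim_comp_inr, one_mulVec] at h1
      have a1 : T *ᵥ v + Sᵀ *ᵥ u = l • v := funext fun k => congrFun h1 (Sum.inl k)
      have a2 : S *ᵥ v + u = l • u := funext fun k => congrFun h1 (Sum.inr k)
      have a3 : S *ᵥ v = (l - 1) • u := by rw [sub_smul, ← a2]; simp
      have hv0 : v ≠ 0 := by
        intro hv0
        rw [hv0, mulVec_zero] at a3
        have hu0 : u = 0 := (smul_eq_zero.1 a3.symm).resolve_left (by linarith)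
        apply h0
        rw [hy, hv0, hu0]
        simp
      have := h l (Matrix.exists_mulVec_eq_zero_iff.1 ⟨v, hv0, by
        rw [sub_mulVec, smul_mulVec, sub_mulVec, smul_mulVec, one_mulVec, hS, ← mulVec_mulVec, a3,
          mulVec_smul, ← a1]
        simp⟩)
      linarith
    refine psd_iff.2 ⟨hTs.sub (psd_iff.1 hPp).1, fun v => ?_⟩
    have h2 := (psd_iff.1 hQp).2 (Sum.elim v (-(S *ᵥ v)))
    rw [fromBlocks_mulVec, sumElim_dotProduct_sumElim] at h2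
    simp only [Sum.elim_comp_inl, Sum.elim_comp_inr, one_mulVec, add_neg_cancel, dotProduct_zero,
      add_zero] at h2
    rw [mulVec_neg, mulVec_mulVec, ← hS] at h2
    rwa [sub_mulVec, sub_eq_add_neg]
  · intro h t ht
    obtain ⟨v, hv, hMv⟩ := Matrix.exists_mulVec_eq_zero_iff.2 ht
    have h2 := congrArg (fun u => v ⬝ᵥ u) hMv
    simp only [sub_mulVec, smul_mulVec, one_mulVec, dotProduct_sub, dotProduct_smul,
      dotProduct_zero, smul_eq_mul] at h2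
    have h3 := (psd_iff.1 h).2 v
    rw [sub_mulVec, dotProduct_sub] at h3
    have h4 := (psd_iff.1 hPp).2 v
    have h5 : 0 < v ⬝ᵥ v :=
      lt_of_le_of_ne (dot_self_nonneg v) fun h => hv (dotProduct_self_eq_zero.1 h.symm)
    by_contra hneg
    push Not at hneg
    have h6 : 0 < -t * (v ⬝ᵥ v) := mul_pos (by linarith) h5
    nlinarith [mul_nonneg (neg_nonneg.2 hneg.le) (le_trans h4 (sub_nonneg.1 h3)),
      mul_pos (neg_pos.2 hneg) h6]

end Vale.Agent.P256
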