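import Mathlib
import Vale.Agent.P256.GCore
import Vale.Agent.P256.GBlow

/-!
The quaternionic matrix-valued quadratic map whose epigraph is not a spectrahedron.
-/

open Matrix Quaternion

namespace Vale.Agent.P256

abbrev I8 := Fin 4 ⊕ Fin 4

def toH : (Fin 4 → ℝ) →ₗ[ℝ] ℍ[ℝ] where
  toFun v := mkq (v 0) (v 1) (v 2) (v 3)
  map_add' u v := by ext <;> simp
  map_smul' c v := by ext <;> simp [re_smul]

def ofH : ℍ[ℝ] →ₗ[ℝ] (Fin 4 → ℝ) where
  toFun q := ![q.re, q.imI, q.imJ, q.imK]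
  map_add' u v := by ext i; fin_cases i <;> simp
  map_smul' c v := by ext i; fin_cases i <;> simp [re_smul]

theorem toH_apply (v : Fin 4 → ℝ) : toH v = mkq (v 0) (v 1) (v 2) (v 3) := rfl

theorem toH_ofH (q : ℍ[ℝ]) : toH (ofH q) = q := rfl

def Lm : ℍ[ℝ] →ₗ[ℝ] Matrix (Fin 4) (Fin 4) ℝ where
  toFun c := !![c.re, -c.imI, -c.imJ, -c.imK; c.imI, c.re, -c.imK, c.imJ;
    c.imJ, c.imK, c.re, -c.imI; c.imK, -c.imJ, c.imI, c.re]
  map_add' u v := by ext i j; fin_cases i <;> fin_cases j <;> simp <;> ring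
  map_smul' c v := by ext i j; fin_cases i <;> fin_cases j <;> simp [re_smul]

theorem Lm_dot (c : ℍ[ℝ]) (u v : Fin 4 → ℝ) :
    u ⬝ᵥ Lm c *ᵥ v = (star (toH u) * (c * toH v)).re := by
  simp [Lm, toH_apply, dotProduct, mulVec, Fin.sum_univ_four]
  ring

theorem normSq_toH (u : Fin 4 → ℝ) : normSq (toH u) = u ⬝ᵥ u := by
  simp [toH_apply, normSq_def', dotProduct, Fin.sum_univ_four]
  ring

noncomputable def Psi : (I8 → ℝ) →ₗ[ℝ] (I8 → ℝ) →ₗ[ℝ] Matrix I8 I8 ℝ := LinearMap.mk₂ ℝ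
  (fun y y' => fromBlocks (((y ∘ Sum.inr) ⬝ᵥ (y' ∘ Sum.inr)) • (1 : Matrix (Fin 4) (Fin 4) ℝ))
    (-(Lm (toH (y ∘ Sum.inr) * star (toH (y' ∘ Sum.inl))))ᵀ)
    (-(Lm (toH (y ∘ Sum.inr) * star (toH (y' ∘ Sum.inl)))))
    (((y ∘ Sum.inl) ⬝ᵥ (y' ∘ Sum.inl)) • (1 : Matrix (Fin 4) (Fin 4) ℝ)))
  (fun a b y => by
    simp only [Pi.add_comp, add_dotProduct, add_smul, map_add, add_mul, transpose_add, neg_add,
      fromBlocks_add])
  (fun c a y => by
    simp only [Pi.smul_comp, smul_dotProduct, smul_assoc, map_smul, smul_mul_assoc,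
      transpose_smul, fromBlocks_smul, smul_neg])
  (fun y a b => by
    simp only [Pi.add_comp, dotProduct_add, add_smul, map_add, star_add, mul_add, transpose_add,
      neg_add, fromBlocks_add])
  (fun c y a => by
    simp only [Pi.smul_comp, dotProduct_smul, smul_assoc, map_smul, Quaternion.star_smul,
      mul_smul_comm, transpose_smul, fromBlocks_smul, smul_neg])

theorem Psi_apply (y y' : I8 → ℝ) : Psi y y' =
    fromBlocks (((y ∘ Sum.inr) ⬝ᵥ (y' ∘ Sum.inr)) • (1 : Matrix (Fin 4) (Fin 4) ℝ))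
    (-(Lm (toH (y ∘ Sum.inr) * star (toH (y' ∘ Sum.inl))))ᵀ)
    (-(Lm (toH (y ∘ Sum.inr) * star (toH (y' ∘ Sum.inl)))))
    (((y ∘ Sum.inl) ⬝ᵥ (y' ∘ Sum.inl)) • (1 : Matrix (Fin 4) (Fin 4) ℝ)) := rfl

theorem Psi_symm (y y' : I8 → ℝ) : (Psi y y').IsSymm := by
  rw [Psi_apply, IsSymm, fromBlocks_transpose]
  simp

theorem Psi_dot (y η : I8 → ℝ) : η ⬝ᵥ Psi y y *ᵥ η =
    qf (toH (y ∘ Sum.inl)) (toH (y ∘ Sum.inr)) (toH (η ∘ Sum.inl)) (toH (η ∘ Sum.inr)) := by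
  have hη : η = Sum.elim (η ∘ Sum.inl) (η ∘ Sum.inr) := by ext (i | i) <;> rfl
  conv_lhs => rw [hη]
  rw [Psi_apply, fromBlocks_mulVec, sumElim_dotProduct_sumElim]
  simp only [Sum.elim_comp_inl, Sum.elim_comp_inr, dotProduct_add, neg_mulVec, dotProduct_neg,
    smul_mulVec, one_mulVec, dotProduct_smul, smul_eq_mul]
  rw [dotProduct_mulVec _ (Lm _)ᵀ, vecMul_transpose, dotProduct_comm (Lm _ *ᵥ _), Lm_dot, qf]
  simp only [normSq_toH]
  ring

theorem qf_nonneg (y₁ y₂ e₁ e₂ : ℍ[ℝ]) : 0 ≤ qf y₁ y₂ e₁ e₂ := by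
  by_cases h : y₁ = 0
  · subst h
    simp only [qf, map_zero, zero_mul, star_zero, mul_zero, re_zero, zero_add, sub_zero]
    exact mul_nonneg normSq_nonneg normSq_nonneg
  · have : y₂ = y₂ * y₁⁻¹ * y₁ := by rw [mul_assoc, inv_mul_cancel₀ h, mul_one]
    rw [this, qf_line]
    exact mul_nonneg normSq_nonneg normSq_nonneg

noncomputable def Phi : (I8 ⊕ I8 → ℝ) →ₗ[ℝ] (I8 ⊕ I8 → ℝ) →ₗ[ℝ] Matrix I8 I8 ℝ := LinearMap.mk₂ ℝ
  (fun w w' => Psi (w ∘ Sum.inl) (w' ∘ Sum.inl) + vecMulVec (w ∘ Sum.inr) (w' ∘ Sum.inr))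
  (fun a b y => by
    simp only [Pi.add_comp, map_add, LinearMap.add_apply, add_vecMulVec]; abel)
  (fun c a y => by
    simp only [Pi.smul_comp, map_smul, LinearMap.smul_apply, smul_vecMulVec, smul_add])
  (fun y a b => by
    simp only [Pi.add_comp, map_add, vecMulVec_add]; abel)
  (fun c y a => by
    simp only [Pi.smul_comp, map_smul, vecMulVec_smul, smul_add])

theorem Phi_apply (w w' : I8 ⊕ I8 → ℝ) : Phi w w' =
    Psi (w ∘ Sum.inl) (w' ∘ Sum.inl) + vecMulVec (w ∘ Sum.inr) (w' ∘ Sum.inr) := rfl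

theorem dot_vv {ι : Type*} [Fintype ι] (t η : ι → ℝ) :
    η ⬝ᵥ vecMulVec t t *ᵥ η = (t ⬝ᵥ η) * (t ⬝ᵥ η) := by
  rw [vecMulVec_mulVec, dotProduct_smul, dotProduct_comm η t]
  simp

theorem vv_symm {ι : Type*} (t : ι → ℝ) : (vecMulVec t t).IsSymm := by
  ext i j
  simp [vecMulVec_apply, mul_comm]

theorem Phi_psd (w : I8 ⊕ I8 → ℝ) : (Phi w w).PosSemidef := by
  refine psd_iff.2 ⟨(Psi_symm _ _).add (vv_symm _), fun η => ?_⟩
  rw [Phi_apply, add_mulVec, dotProduct_add, Psi_dot, dot_vv]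
  exact add_nonneg (qf_nonneg _ _ _ _) (mul_self_nonneg _)

theorem symm_span {ι : Type*} [Fintype ι] [DecidableEq ι] (F : Matrix ι ι ℝ →ₗ[ℝ] ℝ)
    (h : ∀ t, F (vecMulVec t t) = 0) (T : Matrix ι ι ℝ) (hT : T.IsSymm) : F T = 0 := by
  have h1 : ∀ s t, F (vecMulVec s t) + F (vecMulVec t s) = 0 := by
    intro s t
    have := h (s + t)
    simp only [add_vecMulVec, vecMulVec_add, map_add, h] at this
    linarith
  have h2 : T = ∑ i, ∑ j, T i j • vecMulVec (Pi.single i 1) (Pi.single j 1) := by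
    ext a b
    simp [Matrix.sum_apply, vecMulVec_apply, Pi.single_apply]
  have h3 : F T = ∑ i, ∑ j, T i j * F (vecMulVec (Pi.single i 1) (Pi.single j 1)) := by
    conv_lhs => rw [h2]
    simp only [map_sum, map_smul, smul_eq_mul]
  have h4 : F T = ∑ i, ∑ j, T i j * F (vecMulVec (Pi.single j 1) (Pi.single i 1)) := by
    rw [h3, Finset.sum_comm]
    refine Finset.sum_congr rfl fun i _ => Finset.sum_congr rfl fun j _ => ?_
    rw [hT.apply]
  have h5 : F T + F T = 0 := by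
    nth_rewrite 1 [h3]
    rw [h4, ← Finset.sum_add_distrib]
    refine Finset.sum_eq_zero fun i _ => ?_
    rw [← Finset.sum_add_distrib]
    refine Finset.sum_eq_zero fun j _ => ?_
    rw [← mul_add, h1, mul_zero]
  linarith

theorem no_pencil {n : Type*} [Fintype n] (A : Matrix n n ℝ)
    (B : (I8 ⊕ I8 → ℝ) →ₗ[ℝ] Matrix n n ℝ) (C : Matrix I8 I8 ℝ →ₗ[ℝ] Matrix n n ℝ)
    (hB : ∀ w, (B w).IsSymm) (hC : ∀ T, (C T).IsSymm)
    (H : ∀ w T, T.IsSymm → ((T - Phi w w).PosSemidef ↔ (A + B w + C T).PosSemidef)) : False := by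
  classical
  obtain ⟨M, ℓ, hℓ, hP⟩ := blowup Phi (fun w => (psd_iff.1 (Phi_psd w)).1) A B C hB hC H
  let ι : M → n → I8 → ℝ := fun m k i => ℓ (Pi.single (Sum.inr i) 1) m k
  have hCq : ∀ (m : M) (T : Matrix I8 I8 ℝ), T.IsSymm →
      (m : n → ℝ) ⬝ᵥ C T *ᵥ (m : n → ℝ) = ∑ k, ι m k ⬝ᵥ T *ᵥ ι m k := by
    intro m T hT
    let F : Matrix I8 I8 ℝ →ₗ[ℝ] ℝ :=
      { toFun := fun T => (m : n → ℝ) ⬝ᵥ C T *ᵥ (m : n → ℝ) - ∑ k, ι m k ⬝ᵥ T *ᵥ ι m k
        map_add' := fun X Y => by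
          simp only [map_add, add_mulVec, dotProduct_add, Finset.sum_add_distrib]; ring
        map_smul' := fun c X => by
          simp only [map_smul, smul_mulVec, dotProduct_smul, smul_eq_mul, RingHom.id_apply,
            ← Finset.mul_sum]; ring }
    have := symm_span F (fun t => by
      have h1 : Phi (Sum.elim 0 t) (Sum.elim 0 t) = vecMulVec t t := by
        rw [Phi_apply]
        simp
      have h2 : (Sum.elim 0 t : I8 ⊕ I8 → ℝ) =
          ∑ i, t i • (Pi.single (Sum.inr i) 1 : I8 ⊕ I8 → ℝ) := by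
        ext (a | a) <;> simp [Finset.sum_apply, Pi.single_apply]
      have h3 : ∀ k, ℓ (Sum.elim 0 t) m k = t ⬝ᵥ ι m k := by
        intro k
        rw [h2, map_sum, LinearMap.sum_apply, Finset.sum_apply]
        simp [dotProduct, ι]
      have h4 := hℓ (Sum.elim 0 t) m
      rw [h1] at h4
      change (m : n → ℝ) ⬝ᵥ C (vecMulVec t t) *ᵥ (m : n → ℝ) -
        ∑ k, ι m k ⬝ᵥ vecMulVec t t *ᵥ ι m k = 0
      rw [← h4, sub_eq_zero]
      simp only [dot_vv, ← h3]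
      rfl) T hT
    exact sub_eq_zero.1 this
  let μ : (Fin 4 → I8) → M →ₗ[ℝ] (n → ℍ[ℝ]) := fun e => LinearMap.pi fun k => toH ∘ₗ
    LinearMap.pi fun j => LinearMap.proj k ∘ₗ ℓ (Pi.single (Sum.inr (e j)) 1)
  have hμ : ∀ e m k, μ e m k = toH (ι m k ∘ e) := fun e m k => rfl
  let emb : (ℍ[ℝ] × ℍ[ℝ]) →ₗ[ℝ] (I8 ⊕ I8 → ℝ) :=
    { toFun := fun y => Sum.elim (Sum.elim (ofH y.1) (ofH y.2)) 0
      map_add' := fun x y => by ext ((a | a) | a) <;> simp
      map_smul' := fun c x => by ext ((a | a) | a) <;> simp }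
  refine core (μ Sum.inl) (μ Sum.inr) (ℓ ∘ₗ emb) (fun y m => ?_) (fun e₁ e₂ he => ?_)
  · have h1 : Phi (emb y) (emb y) =
        Psi (Sum.elim (ofH y.1) (ofH y.2)) (Sum.elim (ofH y.1) (ofH y.2)) := by
      rw [Phi_apply]
      simp [emb]
    rw [LinearMap.comp_apply, hℓ, h1, hCq _ _ (Psi_symm _ _)]
    refine Finset.sum_congr rfl fun k _ => ?_
    rw [Psi_dot, hμ, hμ]
    rfl
  · let η : I8 → ℝ := Sum.elim (ofH e₁) (ofH e₂)
    have hη : η ≠ 0 := by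
      intro h
      apply he
      rw [← toH_ofH e₁]
      have : ofH e₁ = 0 := funext fun i => congrFun h (Sum.inl i)
      rw [this, map_zero]
    have hpos : 0 < η ⬝ᵥ η :=
      lt_of_le_of_ne (dot_self_nonneg η) fun h => hη (dotProduct_self_eq_zero.1 h.symm)
    let P : Matrix I8 I8 ℝ := (η ⬝ᵥ η) • (1 : Matrix I8 I8 ℝ) - vecMulVec η η
    have hPv : ∀ v, P *ᵥ v = (η ⬝ᵥ η) • v - (η ⬝ᵥ v) • η := by
      intro v
      simp only [P, sub_mulVec, smul_mulVec, one_mulVec, vecMulVec_mulVec]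
      simp
    have hPp : P.PosSemidef := by
      refine psd_iff.2 ⟨(isSymm_one.smul _).sub (vv_symm η), fun v => ?_⟩
      rw [hPv, dotProduct_sub, dotProduct_smul, dotProduct_smul, dotProduct_comm v η,
        smul_eq_mul, smul_eq_mul, sub_nonneg]
      have := Finset.sum_mul_sq_le_sq_mul_sq Finset.univ η v
      simpa only [dotProduct, sq] using this
    obtain ⟨m, hm0, hm1⟩ := hP P η hPp hη (by rw [hPv, sub_self])
    rw [hCq _ _ (psd_iff.1 hPp).1] at hm0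
    rw [hCq _ _ isSymm_one] at hm1
    have h1 : ∀ k, ι m k = ((η ⬝ᵥ ι m k) / (η ⬝ᵥ η)) • η := by
      intro k
      have h2 := psd_zero hPp ((Finset.sum_eq_zero_iff_of_nonneg
        (fun k _ => (psd_iff.1 hPp).2 (ι m k))).1 hm0 k (Finset.mem_univ k))
      rw [hPv, sub_eq_zero] at h2
      rw [div_eq_inv_mul, mul_smul, ← h2, smul_smul, inv_mul_cancel₀ hpos.ne', one_smul]
    refine ⟨m, fun k => (η ⬝ᵥ ι m k) / (η ⬝ᵥ η), fun hu => hm1 ?_, fun k => ?_⟩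
    · refine Finset.sum_eq_zero fun k _ => ?_
      have := congrFun hu k
      simp only [Pi.zero_apply] at this
      rw [h1 k, this]
      simp
    · constructor
      · rw [hμ, h1 k, Pi.smul_comp, map_smul]
        rfl
      · rw [hμ, h1 k, Pi.smul_comp, map_smul]
        rfl

end Vale.Agent.P256
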