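import Mathlib
import Vale.Agent.P256.GDefs
import Vale.Agent.P256.GHyp
import Vale.Agent.P256.GQuat

/-!
A hyperbolicity cone that is not a spectrahedron.
-/

open Matrix MvPolynomial

namespace Vale.Agent.P256

abbrev Var := Option ((I8 ⊕ I8) ⊕ I8 × I8)

theorem not_spectrahedral {n : Type} [Fintype n] (A₀ : Matrix n n ℝ) (A : Var → Matrix n n ℝ)
    (hA : ∀ i, (A i).IsSymm)
    (H : ∀ x : Var → ℝ, (∀ t : ℝ, eval (t • hdir (I8 ⊕ I8) I8 - x) (hpoly Phi) = 0 → 0 ≤ t) ↔
      (A₀ + ∑ i, x i • A i).PosSemidef) : False := by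
  let B : (I8 ⊕ I8 → ℝ) →ₗ[ℝ] Matrix n n ℝ :=
    { toFun := fun w => ∑ c, w c • A (some (Sum.inl c))
      map_add' := fun u v => by simp only [Pi.add_apply, add_smul, Finset.sum_add_distrib]
      map_smul' := fun c v => by
        simp only [Pi.smul_apply, smul_eq_mul, mul_smul, RingHom.id_apply, Finset.smul_sum] }
  let C : Matrix I8 I8 ℝ →ₗ[ℝ] Matrix n n ℝ :=
    { toFun := fun T => ∑ q : I8 × I8, T q.1 q.2 • A (some (Sum.inr q))
      map_add' := fun u v => by simp only [Matrix.add_apply, add_smul, Finset.sum_add_distrib]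
      map_smul' := fun c v => by
        simp only [Matrix.smul_apply, smul_eq_mul, mul_smul, RingHom.id_apply, Finset.smul_sum] }
  have hsum : ∀ {α : Type} [Fintype α] (f : α → ℝ) (g : α → Var),
      (∑ a, f a • A (g a)).IsSymm := by
    intro α _ f g
    simp only [IsSymm, transpose_sum, transpose_smul, (hA _).eq]
  refine no_pencil (A₀ + A none) B C (fun w => hsum w fun c => some (Sum.inl c))
    (fun T => hsum (fun q : I8 × I8 => T q.1 q.2) fun q => some (Sum.inr q)) fun w T hT => ?_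
  let x : Var → ℝ := fun i => i.elim 1 (Sum.elim w fun q => T q.1 q.2)
  have h1 : symT x = T := by
    ext a b
    have := hT.apply a b
    simp only [symT, of_apply, x, Option.elim_some, Sum.elim_inr, this]
    ring
  have h2 : wOf x = w := rfl
  have h3 := hcone_slice Phi Phi_psd x rfl
  rw [h1, h2, H] at h3
  rw [← h3, Fintype.sum_option, Fintype.sum_sum_type]
  simp only [x, Option.elim_none, one_smul, Option.elim_some, Sum.elim_inl, Sum.elim_inr]
  rw [add_assoc, add_assoc]
  rfl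

theorem gen_lax_false : ∃ (n : ℕ) (p : MvPolynomial (Fin n) ℝ) (e : Fin n → ℝ),
    IsHyperbolic p e ∧ ¬ IsSpectrahedron (hypCone p e) := by
  let f : Var ≃ Fin (Fintype.card Var) := Fintype.equivFin Var
  refine ⟨Fintype.card Var, rename f (hpoly Phi), hdir (I8 ⊕ I8) I8 ∘ f.symm,
    ⟨⟨_, (hpoly_homog Phi).rename_isHomogeneous⟩, ?_, fun x z h => ?_⟩, ?_⟩
  · rw [eval_rename]
    have : (hdir (I8 ⊕ I8) I8 ∘ f.symm) ∘ f = hdir (I8 ⊕ I8) I8 := by ext i; simp
    rw [this, hpoly_dir]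
    exact one_pos
  · rw [aeval_rename] at h
    refine hpoly_real Phi Phi_psd (x ∘ f) z ?_
    rw [← h]
    congr 2
    ext i
    simp
  · rintro ⟨N, A₀, A, -, hA, hK⟩
    refine not_spectrahedral A₀ (A ∘ f) (fun i => hA _) fun x => ?_
    have h1 := Set.ext_iff.1 hK (x ∘ f.symm)
    simp only [hypCone, Set.mem_setOf_eq, eval_rename] at h1
    have h2 : ∀ t : ℝ, (t • (hdir (I8 ⊕ I8) I8 ∘ f.symm) - x ∘ f.symm) ∘ f =
        t • hdir (I8 ⊕ I8) I8 - x := by
      intro t
      ext i
      simp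
    simp only [h2] at h1
    rw [h1, ← f.sum_comp]
    simp

end Vale.Agent.P256
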