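import Mathlib
import Vale.Agent.P256.ADefs

/-! P256, full disproof: definitions.  See `notes/P256.md` for the proof. -/

namespace Vale.Agent.P256

open MvPolynomial Matrix

noncomputable section

section Mat

variable {K Q R : Type} [Fintype K] [DecidableEq K] [Fintype Q] [CommRing R] [Algebra ℝ R]

/-- Trace of the lower right block of the adjugate. -/
def eP (M : Matrix (Option K) (Option K) R) : R := ∑ l, M.adjugate (some l) (some l)

/-- The quadratic form with coefficient array `h`. -/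
def Hq (h : Q × K → Q × K → ℝ) (v : Q × K → R) : R := ∑ x, ∑ y, h x y • (v x * v y)

/-- Drop the column `none`. -/
def cut {R : Type} (N : Matrix Q (Option K) R) : Q × K → R := fun x => N x.1 (some x.2)

/-- The polynomial, as a function of the matrices `M`, `B` and the scalar `w`. -/
def pM (h : Q × K → Q × K → ℝ) (A : ℝ) (M : Matrix (Option K) (Option K) R)
    (B : Matrix Q (Option K) R) (w : R) : R :=
  w * M.det * eP M - A • ((B * M.adjugate * Bᵀ).trace * eP M) + Hq h (cut (B * M.adjugate))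

/-- The vector `(1, c)`. -/
def ct (c : K → ℝ) : Option K → ℝ := fun l => l.elim 1 c

/-- The polynomials `1, X k`. -/
def xt (l : Option K) : MvPolynomial K ℝ := l.elim 1 X

/-- The matrix of the substitution `x ↦ c + ε x` on `1, X k`. -/
def Gm (c : K → ℝ) (ε : ℝ) : Matrix (Option K) (Option K) ℝ :=
  Matrix.of fun l l' =>
    match l, l' with
    | none, none => 1
    | none, some _ => 0
    | some k, none => c k
    | some k, some k' => if k = k' then ε else 0

/-- The substitution `x ↦ c + ε x`. -/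
def sub (c : K → ℝ) (ε : ℝ) : MvPolynomial K ℝ →ₐ[ℝ] MvPolynomial K ℝ :=
  aeval fun k => C (c k) + C ε * X k

/-- `L` is positive definite on polynomials of degree at most `d`. -/
def PD (L : MvPolynomial K ℝ →ₗ[ℝ] ℝ) (d : ℕ) : Prop :=
  ∀ f : MvPolynomial K ℝ, f ≠ 0 → f.totalDegree ≤ d → 0 < L (f * f)

/-- Truncate at degree `2 D`, scale by `ε`, apply `L`. -/
def Lam (L : MvPolynomial K ℝ →ₗ[ℝ] ℝ) (D : ℕ) (ε : ℝ) : MvPolynomial K ℝ →ₗ[ℝ] ℝ :=
  ∑ d ∈ Finset.range (2 * D + 1), ε ^ d • (L ∘ₗ homogeneousComponent d)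

/-- The ideal of the origin. -/
def mI (K : Type) : Ideal (MvPolynomial K ℝ) := Ideal.span (Set.range X)

end Mat

section Tens

variable {I R : Type}

/-- A symmetric 3-tensor. -/
def Sym3 (m : I → I → I → R) : Prop :=
  (∀ a b c, m a b c = m b a c) ∧ ∀ a b c, m a b c = m a c b

/-- Symmetrisation of the variables. -/
def mom [CommRing R] [Algebra ℝ R] (x : Option (I × I × I) → R) (a b c : I) : R :=
  (1 / 6 : ℝ) • (x (some (a, b, c)) + x (some (a, c, b)) + x (some (b, a, c)) +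
    x (some (b, c, a)) + x (some (c, a, b)) + x (some (c, b, a)))

/-- Action of a matrix on 3-tensors. -/
def act [Fintype I] (G : Matrix I I ℝ) (m : I → I → I → ℝ) (a b c : I) : ℝ :=
  ∑ a', ∑ b', ∑ c', G a a' * G b b' * G c c' * m a' b' c'

end Tens

/-- Index set of `1, a_i, b_j`. -/
abbrev Ix (α β : Type) : Type := Option (α ⊕ β)

/-- Index set of the variables of the cone: `w` and the cubic moments. -/
abbrev Vr (α β : Type) : Type := Option (Ix α β × Ix α β × Ix α β)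

section Mom

variable {α β Q R : Type} [Fintype α] [Fintype β] [DecidableEq α] [DecidableEq β] [Fintype Q]

def iA (a : Option α) : Ix α β := a.map Sum.inl

def iB (b : Option β) : Ix α β := b.map Sum.inr

/-- The moment matrix. -/
def Mm (m : Ix α β → Ix α β → Ix α β → R) : Matrix (Ix α β) (Ix α β) R :=
  Matrix.of fun l l' => m none l l'

/-- The moments of `q * x_l`. -/
def Bm [CommRing R] [Algebra ℝ R] (qh : Q → α → β → ℝ) (m : Ix α β → Ix α β → Ix α β → R) :
    Matrix Q (Ix α β) R :=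
  Matrix.of fun q l => ∑ i, ∑ j, qh q i j • m (some (Sum.inl i)) (some (Sum.inr j)) l

/-- The polynomial as a function of the variables. -/
def pV [CommRing R] [Algebra ℝ R] (h : Q × (α ⊕ β) → Q × (α ⊕ β) → ℝ) (A : ℝ)
    (qh : Q → α → β → ℝ) (x : Vr α β → R) : R :=
  pM h A (Mm (mom x)) (Bm qh (mom x)) (x none)

/-- The direction of hyperbolicity. -/
def eV : Vr α β → ℝ
  | none => 1
  | some (a, b, c) =>
    if (a = none ∧ b = c) ∨ (b = none ∧ a = c) ∨ (c = none ∧ a = b) then 1 else 0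

/-- Gradient of the bilinear forms `q` at `c`. -/
def rr (qh : Q → α → β → ℝ) (c : α ⊕ β → ℝ) : Q × (α ⊕ β) → ℝ := fun x =>
  match x.2 with
  | Sum.inl i => ∑ j, qh x.1 i j * c (Sum.inr j)
  | Sum.inr j => ∑ i, qh x.1 i j * c (Sum.inl i)

/-- Value and scaled gradient of the forms `q` at `c`. -/
def Cm (qh : Q → α → β → ℝ) (c : α ⊕ β → ℝ) (ε : ℝ) : Matrix Q (Ix α β) ℝ :=
  Matrix.of fun q l =>
    match l with
    | none => ∑ i, ∑ j, qh q i j * c (Sum.inl i) * c (Sum.inr j)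
    | some k => ε * rr qh c (q, k)

/-- The bilinear forms as polynomials. -/
def qP (qh : Q → α → β → ℝ) (q : Q) : MvPolynomial (α ⊕ β) ℝ :=
  ∑ i, ∑ j, C (qh q i j) * X (Sum.inl i) * X (Sum.inr j)

/-- The polynomial map `c ↦ δ_c`. -/
def gV (A : ℝ) (qh : Q → α → β → ℝ) : Vr α β → MvPolynomial (α ⊕ β) ℝ
  | none => C A * ∑ q, qP qh q * qP qh q
  | some (a, b, c) => xt a * xt b * xt c

/-- No moment tensor with traceless inverse block has regression within `ε` of `π`. -/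
def KeyP (qh : Q → α → β → ℝ) (π : Q × (α ⊕ β) → ℝ) (ε : ℝ) : Prop :=
  ∀ m : Ix α β → Ix α β → Ix α β → ℝ, Sym3 m → ∀ Mi : Matrix (Ix α β) (Ix α β) ℝ,
    Mm m * Mi = 1 → ∑ l, Mi (some l) (some l) = 0 →
      ¬ ∀ x, |cut (Bm qh m * Mi) x - π x| ≤ ε

/-- The properties of the quadratic form `h` and the constant `A`. -/
structure GoodH (qh : Q → α → β → ℝ) (π : Q × (α ⊕ β) → ℝ)
    (h : Q × (α ⊕ β) → Q × (α ⊕ β) → ℝ) (A : ℝ) : Prop where
  nonneg : 0 ≤ A
  bound : ∀ v : Q × (α ⊕ β) → ℝ, |Hq h v| ≤ A * ∑ x, v x ^ 2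
  inv : ∀ (v : Q × (α ⊕ β) → ℝ) (c : α ⊕ β → ℝ), Hq h (v + rr qh c) = Hq h v
  neg : Hq h π < 0
  key : ∀ m : Ix α β → Ix α β → Ix α β → ℝ, Sym3 m → ∀ Mi : Matrix (Ix α β) (Ix α β) ℝ,
    Mm m * Mi = 1 → ∑ l, Mi (some l) (some l) = 0 → 0 ≤ Hq h (cut (Bm qh m * Mi))

end Mom

section State

variable {S A B Q : Type} [Fintype S] [Fintype A] [Fintype B] [Fintype Q]

/-- `∑ ψ_s ψ_sᵀ` is invariant under transposing one factor. -/
def PT (ψ : S → A → B → ℝ) : Prop :=
  ∀ a a' b b', ∑ s, ψ s a b * ψ s a' b' = ∑ s, ψ s a' b * ψ s a b'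

def d0 (ψ : S → A → B → ℝ) (x : A → B → ℝ) (a a' : A) (s : S) : ℝ :=
  ∑ j, (ψ s a' j * x a j - ψ s a j * x a' j)

def d1 (ψ : S → A → B → ℝ) (Φ : A → A → S → ℝ) (a b c : A) (j : B) : ℝ :=
  ∑ s, (Φ a b s * ψ s c j - Φ a c s * ψ s b j + Φ b c s * ψ s a j)

def d2 (ψ : S → A → B → ℝ) (Z : A → A → B → ℝ) (a b c : A) (s : S) : ℝ :=
  ∑ j, (ψ s c j * Z a b j - ψ s b j * Z a c j + ψ s a j * Z b c j)

/-- Exactness of the Koszul complex at `Λ² ⊗ S`. -/
def K1 (ψ : S → A → B → ℝ) : Prop :=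
  ∀ Φ : A → A → S → ℝ, (∀ a b s, Φ a b s = -Φ b a s) → (∀ a b c j, d1 ψ Φ a b c j = 0) →
    ∃ x : A → B → ℝ, ∀ a a' s, Φ a a' s = d0 ψ x a a' s

/-- Injectivity on `Λ² ⊗ B`. -/
def K2 (ψ : S → A → B → ℝ) : Prop :=
  ∀ Z : A → A → B → ℝ, (∀ a b j, Z a b j = -Z b a j) → (∀ a b c s, d2 ψ Z a b c s = 0) →
    ∀ a b j, Z a b j = 0

/-- Swap the two factors. -/
def sw (ψ : S → A → B → ℝ) : S → B → A → ℝ := fun s b a => ψ s a b

/-- The `f q` span the orthogonal complement of the span of the `ψ s`. -/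
def Fam (ψ : S → A → B → ℝ) (f : Q → A → B → ℝ) : Prop :=
  (∀ s q, ∑ a, ∑ b, ψ s a b * f q a b = 0) ∧
    ∀ y : A → B → ℝ, (∀ q, ∑ a, ∑ b, y a b * f q a b = 0) →
      ∃ c : S → ℝ, ∀ a b, y a b = ∑ s, c s * ψ s a b

/-- Change of basis in both factors. -/
def chg {A' B' : Type} (G : A' → A → ℝ) (H : B' → B → ℝ) (ψ : S → A → B → ℝ) :
    S → A' → B' → ℝ := fun s a b => ∑ a', ∑ b', G a a' * H b b' * ψ s a' b'

/-- `u` has sup norm one, attained at `a0`. -/
def Unit1 (u : A → ℝ) (a0 : A) : Prop := (∀ a, |u a| ≤ 1) ∧ |u a0| = 1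

end State

section Chart

variable {S α β Q : Type} [Fintype S] [Fintype α] [Fintype β] [DecidableEq α] [DecidableEq β]

/-- Values of the `ψ s` on `1, a_i, b_j`. -/
def Vv (ψ : S → Option α → Option β → ℝ) (l : Ix α β) (s : S) : ℝ :=
  match l with
  | none => ψ s none none
  | some (Sum.inl i) => ψ s (some i) none
  | some (Sum.inr j) => ψ s none (some j)

/-- The moment matrix of the state. -/
def ML (ψ : S → Option α → Option β → ℝ) : Matrix (Ix α β) (Ix α β) ℝ :=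
  Matrix.of fun l l' => ∑ s, Vv ψ l s * Vv ψ l' s

structure Good (ψ : S → Option α → Option β → ℝ) : Prop where
  pt : PT ψ
  k1A : K1 ψ
  k2A : K2 ψ
  k1B : K1 (sw ψ)
  k2B : K2 (sw ψ)
  chart : ∀ c : Ix α β → ℝ, (∀ s, ∑ l, c l * Vv ψ l s = 0) → c = 0

/-- Top (bilinear) parts. -/
def top (f : Q → Option α → Option β → ℝ) : Q → α → β → ℝ := fun q i j => f q (some i) (some j)

/-- Minus the linear parts. -/
def piL (f : Q → Option α → Option β → ℝ) : Q × (α ⊕ β) → ℝ := fun x =>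
  match x.2 with
  | Sum.inl i => -f x.1 (some i) none
  | Sum.inr j => -f x.1 none (some j)

/-- The four approximate block identities for a matrix `M`. -/
def Blocks (N M : Matrix (Ix α β) (Ix α β) ℝ) (u γ' : Option α → ℝ) (v γ : Option β → ℝ)
    (s η : ℝ) : Prop :=
  (∀ a a', |M (iA a) (iA a') - s * N (iA a) (iA a') - γ none * u a * u a'| ≤ η) ∧
  (∀ a b, |M (iA a) (iB b) - s * N (iA a) (iB b) - u none * u a * γ b| ≤ η) ∧
  (∀ a b, |M (iA a) (iB b) - s * N (iA a) (iB b) - γ' a * v none * v b| ≤ η) ∧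
  ∀ b b', |M (iB b) (iB b') - s * N (iB b) (iB b') - γ' none * v b * v b'| ≤ η

end Chart

end

end Vale.Agent.P256
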