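import Mathlib
import Vale.Agent.P256.SDefs

/-! P256 task S02: basic algebra of `pM`, `pV`, `mom`, and general facts on homogeneous polynomials.

`pM_of_inv`: `adjugate M = det M • Mi` (multiply `M * adjugate M = det M • 1` by `Mi`).
`map_pV`: `RingHom.map_det`, `RingHom.map_adjugate` / `AlgHom.map_adjugate`, `map_sum`.
`pV_smul`: `Matrix.det_smul`, `Matrix.adjugate_smul`.
`isHomogeneous_of_eval`: `p = ∑ homogeneousComponent i p`; for fixed `x` compare the coefficients
of a one-variable polynomial in `t`, then `MvPolynomial.funext`.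
`nonneg_of_mem`: `s ↦ eval (x + s • e) p` has no zero for `s > 0` (use `eval (-y) p = (-1)^d eval y p`),
equals `s^d * eval (s⁻¹ • x + e) p > 0` for large `s`; intermediate value theorem and continuity. -/

namespace Vale.Agent.P256

open MvPolynomial Matrix

section
variable {K Q R : Type} [Fintype K] [DecidableEq K] [Fintype Q] [CommRing R] [Algebra ℝ R]

omit [DecidableEq K] in
theorem Hq_smul_SBasic (h : Q × K → Q × K → ℝ) (t : R) (v : Q × K → R) :
    Hq h (t • v) = t ^ 2 * Hq h v := by
  unfold Hq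
  rw [Finset.mul_sum]
  refine Finset.sum_congr rfl fun x _ => ?_
  rw [Finset.mul_sum]
  refine Finset.sum_congr rfl fun y _ => ?_
  simp only [Pi.smul_apply, smul_eq_mul, Algebra.smul_def, Algebra.algebraMap_self,
    RingHom.id_apply]
  ring

theorem pM_of_inv (h : Q × K → Q × K → ℝ) (A : ℝ) (M Mi : Matrix (Option K) (Option K) R)
    (hM : M * Mi = 1) (B : Matrix Q (Option K) R) (w : R) :
    pM h A M B w = M.det ^ 2 * ((w - A • (B * Mi * Bᵀ).trace) * (∑ l, Mi (some l) (some l))
      + Hq h (cut (B * Mi))) := by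
  have hadj : M.adjugate = M.det • Mi := by
    have h1 : Mi * M = 1 := mul_eq_one_comm.1 hM
    calc M.adjugate = (Mi * M) * M.adjugate := by rw [h1, Matrix.one_mul]
      _ = Mi * (M.det • 1) := by rw [Matrix.mul_assoc, Matrix.mul_adjugate]
      _ = M.det • Mi := by rw [Matrix.mul_smul, Matrix.mul_one]
  have hc : cut (B * (M.det • Mi)) = M.det • cut (B * Mi) := by
    funext x
    simp [cut, Matrix.mul_smul]
  have he : eP M = M.det * ∑ l, Mi (some l) (some l) := by
    simp [eP, hadj, Finset.mul_sum]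
  unfold pM
  rw [he, hadj, hc, Hq_smul_SBasic, Matrix.mul_smul, Matrix.smul_mul, Matrix.trace_smul]
  simp only [Algebra.smul_def, Algebra.algebraMap_self, RingHom.id_apply]
  ring

theorem Hq_smul (h : Q × K → Q × K → ℝ) (t : R) (v : Q × K → R) :
    Hq h (t • v) = t ^ 2 * Hq h v := by
  exact Hq_smul_SBasic h t v

end

section
variable {α β Q R : Type} [Fintype α] [Fintype β] [DecidableEq α] [DecidableEq β] [Fintype Q]
  [CommRing R] [Algebra ℝ R]

theorem map_pM_SBasic {K R' : Type} [Fintype K] [DecidableEq K] [CommRing R'] [Algebra ℝ R']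
    (φ : R →ₐ[ℝ] R') (h : Q × K → Q × K → ℝ) (A : ℝ) (M : Matrix (Option K) (Option K) R)
    (B : Matrix Q (Option K) R) (w : R) :
    φ (pM h A M B w) = pM h A (M.map φ) (B.map φ) (φ w) := by
  have hadj : (M.map φ).adjugate = M.adjugate.map φ := by
    have := (φ : R →+* R').map_adjugate M
    simpa [RingHom.mapMatrix_apply] using this.symm
  have hdet : (M.map φ).det = φ M.det := by
    have := (φ : R →+* R').map_det M
    simpa [RingHom.mapMatrix_apply] using this.symm
  unfold pM eP Hq cut
  rw [hadj, hdet]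
  simp [Matrix.trace, Matrix.mul_apply, map_sum]

theorem map_pV {R' : Type} [CommRing R'] [Algebra ℝ R'] (φ : R →ₐ[ℝ] R')
    (h : Q × (α ⊕ β) → Q × (α ⊕ β) → ℝ) (A : ℝ) (qh : Q → α → β → ℝ) (x : Vr α β → R) :
    φ (pV h A qh x) = pV h A qh (fun v => φ (x v)) := by
  have hm : ∀ a b c, φ (mom x a b c) = mom (fun v => φ (x v)) a b c := by
    intro a b c
    simp [mom]
  have hM : Mm (mom fun v => φ (x v)) = (Mm (mom x)).map φ := by
    ext l l'
    simp [Mm, hm]
  have hB : Bm qh (mom fun v => φ (x v)) = (Bm qh (mom x)).map φ := by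
    ext q l
    simp [Bm, hm]
  unfold pV
  rw [hM, hB]
  exact map_pM_SBasic φ h A _ _ _

theorem pV_smul (h : Q × (α ⊕ β) → Q × (α ⊕ β) → ℝ) (A : ℝ) (qh : Q → α → β → ℝ) (t : ℝ)
    (x : Vr α β → ℝ) :
    pV h A qh (t • x) = t ^ (2 * Fintype.card (α ⊕ β) + 2) * pV h A qh x := by
  have hm : ∀ a b c, mom (t • x) a b c = t * mom x a b c := by
    intro a b c
    simp only [mom, Pi.smul_apply, smul_eq_mul]
    ring
  have hM : Mm (mom (t • x)) = t • Mm (mom x) := by
    ext l l'
    simp [Mm, hm]
  have hB : Bm qh (mom (t • x)) = t • Bm qh (mom x) := by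
    ext q l
    simp only [Bm, hm, Matrix.of_apply, Matrix.smul_apply, smul_eq_mul, Finset.mul_sum]
    refine Finset.sum_congr rfl fun i _ => Finset.sum_congr rfl fun j _ => by ring
  have hcard : Fintype.card (Option (α ⊕ β)) = Fintype.card (α ⊕ β) + 1 := Fintype.card_option
  set n := Fintype.card (α ⊕ β) with hn
  have hadj : (t • Mm (mom x)).adjugate = t ^ n • (Mm (mom x)).adjugate := by
    rw [Matrix.adjugate_smul, hcard]
    rfl
  have he : eP (t • Mm (mom x)) = t ^ n * eP (Mm (mom x)) := by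
    simp only [eP, hadj, Finset.mul_sum, Matrix.smul_apply, smul_eq_mul]
  have hc : cut (t • Bm qh (mom x) * t ^ n • (Mm (mom x)).adjugate) =
      (t ^ (n + 1)) • cut (Bm qh (mom x) * (Mm (mom x)).adjugate) := by
    funext y
    simp only [cut, Matrix.smul_mul, Matrix.mul_smul, Matrix.smul_apply, Pi.smul_apply,
      smul_eq_mul]
    ring
  unfold pV pM
  rw [hM, hB, he, hadj, hc, Hq_smul, Matrix.det_smul, hcard]
  simp only [Matrix.smul_mul, Matrix.mul_smul, Matrix.transpose_smul, Matrix.trace_smul,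
    Pi.smul_apply, smul_eq_mul]
  ring

theorem sym3_mom {I : Type} (x : Option (I × I × I) → R) : Sym3 (mom x) := by
  constructor
  · intro a b c
    unfold mom
    congr 1
    ring
  · intro a b c
    unfold mom
    congr 1
    ring

theorem mom_of_sym {I : Type} (x : Option (I × I × I) → R)
    (hx : Sym3 fun a b c => x (some (a, b, c))) : mom x = fun a b c => x (some (a, b, c)) := by
  funext a b c
  have h1 := hx.1
  have h2 := hx.2
  simp only at h1 h2
  have e1 : x (some (a, c, b)) = x (some (a, b, c)) := (h2 a b c).symm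
  have e2 : x (some (b, a, c)) = x (some (a, b, c)) := (h1 a b c).symm
  have e3 : x (some (b, c, a)) = x (some (a, b, c)) := by rw [← h2 b a c, e2]
  have e4 : x (some (c, a, b)) = x (some (a, b, c)) := by rw [← h1 a c b, e1]
  have e5 : x (some (c, b, a)) = x (some (a, b, c)) := by rw [← h1 b c a, e3]
  unfold mom
  rw [e1, e2, e3, e4, e5]
  have : x (some (a, b, c)) + x (some (a, b, c)) + x (some (a, b, c)) + x (some (a, b, c)) +
      x (some (a, b, c)) + x (some (a, b, c)) = (6 : ℝ) • x (some (a, b, c)) := by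
    rw [show (6 : ℝ) = 1 + 1 + 1 + 1 + 1 + 1 by norm_num]
    simp only [add_smul, one_smul]
  rw [this, smul_smul]
  norm_num

omit [Fintype α] [Fintype β] in
theorem sym3_eV_SBasic : Sym3 fun a b c : Ix α β => (eV (some (a, b, c)) : ℝ) := by
  constructor
  · intro a b c
    simp only [eV]
    congr 1
    apply propext
    constructor <;> rintro (⟨h1, h2⟩ | ⟨h1, h2⟩ | ⟨h1, h2⟩) <;> simp [h1, h2]
  · intro a b c
    simp only [eV]
    congr 1
    apply propext
    constructor <;> rintro (⟨h1, h2⟩ | ⟨h1, h2⟩ | ⟨h1, h2⟩) <;> simp [h1, h2]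

omit [Fintype α] [Fintype β] in
theorem mom_eV_SBasic : mom (eV : Vr α β → ℝ) = fun a b c => eV (some (a, b, c)) :=
  mom_of_sym _ sym3_eV_SBasic

omit [Fintype α] [Fintype β] in
theorem eV_none_SBasic (l l' : Ix α β) :
    (eV (some (none, l, l')) : ℝ) = if l = l' then 1 else 0 := by
  simp only [eV]
  congr 1
  apply propext
  constructor
  · rintro (⟨_, h2⟩ | ⟨h1, h2⟩ | ⟨h1, h2⟩)
    · exact h2
    · rw [h1, h2]
    · rw [h1, h2]
  · intro h
    exact Or.inl ⟨trivial, h⟩

omit [Fintype α] [Fintype β] in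
theorem eV_inl_inr_SBasic (i : α) (j : β) (l : Ix α β) :
    (eV (some (some (Sum.inl i), some (Sum.inr j), l)) : ℝ) = 0 := by
  simp [eV]

/-- Moving in the direction `eV` adds `z` to the diagonal of `M` and to `w`, and fixes `B`. -/
theorem pV_add_eV (h : Q × (α ⊕ β) → Q × (α ⊕ β) → ℝ) (A : ℝ) (qh : Q → α → β → ℝ)
    (x : Vr α β → ℝ) (z : R) :
    pV h A qh (fun v => algebraMap ℝ R (x v) + z * algebraMap ℝ R (eV v)) =
      pM h A ((Mm (mom x)).map (algebraMap ℝ R) + z • (1 : Matrix (Ix α β) (Ix α β) R))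
        ((Bm qh (mom x)).map (algebraMap ℝ R)) (algebraMap ℝ R (x none) + z) := by
  have hm : ∀ a b c, mom (fun v => algebraMap ℝ R (x v) + z * algebraMap ℝ R (eV v)) a b c =
      algebraMap ℝ R (mom x a b c) + z * algebraMap ℝ R (eV (some (a, b, c)) : ℝ) := by
    intro a b c
    have := congrFun (congrFun (congrFun (mom_eV_SBasic (α := α) (β := β)) a) b) c
    rw [← this]
    simp only [mom, Algebra.smul_def, map_mul, map_add, Algebra.algebraMap_self, RingHom.id_apply]
    ring
  have hM : Mm (mom fun v => algebraMap ℝ R (x v) + z * algebraMap ℝ R (eV v)) =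
      (Mm (mom x)).map (algebraMap ℝ R) + z • (1 : Matrix (Ix α β) (Ix α β) R) := by
    ext l l'
    simp only [Mm, hm, Matrix.of_apply, Matrix.add_apply, Matrix.map_apply, Matrix.smul_apply,
      smul_eq_mul, eV_none_SBasic, Matrix.one_apply]
    split_ifs <;> simp
  have hB : Bm qh (mom fun v => algebraMap ℝ R (x v) + z * algebraMap ℝ R (eV v)) =
      (Bm qh (mom x)).map (algebraMap ℝ R) := by
    ext q l
    simp only [Bm, hm, Matrix.of_apply, Matrix.map_apply, eV_inl_inr_SBasic, map_zero, mul_zero,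
      add_zero, map_sum, smul_eq_mul, map_mul, Algebra.smul_def]
  unfold pV
  rw [hM, hB]
  simp [eV]

theorem pV_eV (h : Q × (α ⊕ β) → Q × (α ⊕ β) → ℝ) (A : ℝ) (qh : Q → α → β → ℝ) :
    pV h A qh (eV : Vr α β → ℝ) = Fintype.card (α ⊕ β) := by
  have hM : Mm (mom (eV : Vr α β → ℝ)) = 1 := by
    ext l l'
    simp [Mm, mom_eV_SBasic, eV_none_SBasic, Matrix.one_apply]
  have hB : Bm qh (mom (eV : Vr α β → ℝ)) = 0 := by
    ext q l
    simp [Bm, mom_eV_SBasic, eV_inl_inr_SBasic]
  unfold pV pM
  rw [hM, hB]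
  simp [eP, Hq, cut, eV]

/-- Shifting the moment matrix by `t • 1 + δ • E₀₀` keeps it admissible with the same `B`. -/
theorem exists_shift (qh : Q → α → β → ℝ) (m : Ix α β → Ix α β → Ix α β → ℝ) (hm : Sym3 m)
    (t δ : ℝ) : ∃ m', Sym3 m' ∧ Mm m' = Mm m + t • (1 : Matrix (Ix α β) (Ix α β) ℝ) +
      δ • Matrix.single none none (1 : ℝ) ∧ Bm qh m' = Bm qh m := by
  refine ⟨fun a b c => m a b c + t * eV (some (a, b, c)) +
    δ * (if a = none ∧ b = none ∧ c = none then 1 else 0), ⟨?_, ?_⟩, ?_, ?_⟩
  · intro a b c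
    have e := (sym3_eV_SBasic (α := α) (β := β)).1 a b c
    simp only at e
    simp only [hm.1 a b c, e, and_left_comm]
  · intro a b c
    have e := (sym3_eV_SBasic (α := α) (β := β)).2 a b c
    simp only at e
    have : (a = none ∧ b = none ∧ c = none) ↔ (a = none ∧ c = none ∧ b = none) := by tauto
    simp only [hm.2 a b c, e, this]
  · ext l l'
    simp only [Mm, Matrix.of_apply, Matrix.add_apply, Matrix.smul_apply, smul_eq_mul,
      eV_none_SBasic, Matrix.one_apply, Matrix.single_apply, true_and]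
    congr 2
    simp only [eq_comm]
  · ext q l
    simp [Bm, eV_inl_inr_SBasic]

end

theorem eval_smul_SBasic {n : ℕ} {p : MvPolynomial (Fin n) ℝ} {d : ℕ} (hp : p.IsHomogeneous d)
    (t : ℝ) (x : Fin n → ℝ) : eval (t • x) p = t ^ d * eval x p := by
  rw [eval_eq', eval_eq', Finset.mul_sum]
  refine Finset.sum_congr rfl fun s hs => ?_
  have hd : ∑ i, s i = d := by
    have := hp (mem_support_iff.1 hs)
    rw [← this, Finsupp.weight_apply, Finsupp.sum_fintype _ _ (by simp)]
    simp
  simp only [Pi.smul_apply, smul_eq_mul, mul_pow, Finset.prod_mul_distrib,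
    Finset.prod_pow_eq_pow_sum, hd]
  ring

theorem isHomogeneous_of_eval {n : ℕ} (p : MvPolynomial (Fin n) ℝ) (d : ℕ)
    (h : ∀ (t : ℝ) (x : Fin n → ℝ), eval (t • x) p = t ^ d * eval x p) : p.IsHomogeneous d := by
  have hcomp : ∀ i, i ≠ d → homogeneousComponent i p = 0 := by
    intro i hi
    apply MvPolynomial.funext
    intro x
    rw [map_zero]
    by_cases hlt : i < p.totalDegree + 1
    swap
    · rw [homogeneousComponent_eq_zero i p (by omega), map_zero]
    set q : Polynomial ℝ := ∑ j ∈ Finset.range (p.totalDegree + 1),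
      Polynomial.monomial j (eval x (homogeneousComponent j p)) with hq
    have hqe : q = Polynomial.monomial d (eval x p) := by
      apply Polynomial.funext
      intro t
      rw [hq, Polynomial.eval_finset_sum, Polynomial.eval_monomial, mul_comm, ← h t x]
      conv_rhs => rw [← sum_homogeneousComponent p, map_sum]
      refine Finset.sum_congr rfl fun j _ => ?_
      rw [Polynomial.eval_monomial, eval_smul_SBasic (homogeneousComponent_isHomogeneous j p),
        mul_comm]
    have hc := congrArg (fun r => Polynomial.coeff r i) hqe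
    simp only [hq, Polynomial.finset_sum_coeff, Polynomial.coeff_monomial] at hc
    rw [Finset.sum_ite_eq' (Finset.range (p.totalDegree + 1)) i, if_pos (Finset.mem_range.2 hlt),
      if_neg (Ne.symm hi)] at hc
    exact hc
  rw [← sum_homogeneousComponent p]
  apply IsHomogeneous.sum
  intro i _
  by_cases hi : i = d
  · rw [hi]; exact homogeneousComponent_isHomogeneous d p
  · rw [hcomp i hi]; exact isHomogeneous_zero _ _ _

theorem nonneg_of_mem {n : ℕ} (p : MvPolynomial (Fin n) ℝ) (d : ℕ)
    (h : ∀ (t : ℝ) (x : Fin n → ℝ), eval (t • x) p = t ^ d * eval x p) (e : Fin n → ℝ)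
    (he : 0 < eval e p) (x : Fin n → ℝ) (hx : x ∈ hypCone p e) : 0 ≤ eval x p := by
  have hne : ∀ s : ℝ, 0 < s → eval (x + s • e) p ≠ 0 := by
    intro s hs h0
    have h1 : eval ((-s) • e - x) p = 0 := by
      have : (-s) • e - x = (-1 : ℝ) • (x + s • e) := by
        funext i
        simp only [Pi.sub_apply, Pi.smul_apply, Pi.add_apply, smul_eq_mul]
        ring
      rw [this, h, h0, mul_zero]
    have := hx (-s) h1
    linarith
  have hc : Continuous fun s : ℝ => eval (x + s • e) p :=
    (MvPolynomial.continuous_eval p).comp (by fun_prop)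
  have hc2 : Continuous fun u : ℝ => eval (u • x + e) p :=
    (MvPolynomial.continuous_eval p).comp (by fun_prop)
  have hev : ∀ᶠ u in nhds (0 : ℝ), 0 < eval (u • x + e) p := by
    apply hc2.continuousAt.eventually (p := fun y => 0 < y)
    simpa using lt_mem_nhds he
  obtain ⟨δ, hδ, hδ'⟩ := Metric.eventually_nhds_iff.1 hev
  have hpos : 0 < eval (x + (2 / δ) • e) p := by
    have h1 : x + (2 / δ) • e = (2 / δ) • ((δ / 2) • x + e) := by
      funext i
      simp only [Pi.smul_apply, Pi.add_apply, smul_eq_mul]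
      field_simp
    rw [h1, h]
    apply mul_pos (by positivity)
    apply hδ'
    rw [Real.dist_eq, sub_zero, abs_of_pos (by positivity)]
    linarith
  by_contra hneg
  push_neg at hneg
  have hab : (0 : ℝ) ≤ 2 / δ := by positivity
  have hiv := intermediate_value_Icc hab hc.continuousOn
  have h0 : (0 : ℝ) ∈ Set.Icc (eval (x + (0 : ℝ) • e) p) (eval (x + (2 / δ) • e) p) := by
    refine ⟨?_, hpos.le⟩
    simpa using hneg.le
  obtain ⟨s, hs, hs0⟩ := hiv h0
  rcases eq_or_lt_of_le hs.1 with h1 | h1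
  · rw [← h1] at hs0
    simp only [zero_smul, add_zero] at hs0
    linarith
  · exact hne s h1 hs0

theorem mem_of_ne {n : ℕ} (p : MvPolynomial (Fin n) ℝ) (d : ℕ)
    (h : ∀ (t : ℝ) (x : Fin n → ℝ), eval (t • x) p = t ^ d * eval x p) (e x : Fin n → ℝ)
    (hx : ∀ s : ℝ, 0 < s → eval (x + s • e) p ≠ 0) : x ∈ hypCone p e := by
  intro t ht
  by_contra hneg
  push_neg at hneg
  apply hx (-t) (by linarith)
  have : x + (-t) • e = (-1 : ℝ) • (t • e - x) := by
    funext i
    simp only [Pi.sub_apply, Pi.smul_apply, Pi.add_apply, smul_eq_mul]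
    ring
  rw [this, h, ht, mul_zero]

end Vale.Agent.P256
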