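import Mathlib
import Vale.Agent.P256.SDefs

/-! P256 task S06: linear algebra lemmas.

`lin_bound`: `g` factors as `k ∘ f` with `k` linear on `ι → ℝ` (define `k` on `range f` through
`U ⧸ ker f`, extend by `LinearMap.exists_extend`), and `k` is continuous (finite dimension).
`finsler`: transport to `Fin n → ℝ` by a basis; the open sets `{0 < B0 v v + N * B1 v v}` (`N : ℕ`)
increase and cover the unit sphere; compactness, then scale.
`exists_fam`: e.g. `f q` = orthogonal projection of the basis vector `e q` onto the orthogonal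
complement of `span (range ψ)` in `EuclideanSpace ℝ (A × B)`.
`exists_tZ`: `t` from `Submodule.exists_le_ker_of_notMem` (or similar) scaled so that `t π = 1`; `pr` a
projection onto `range r` (`Submodule.exists_isCompl`); `Z v = (v - t v • π) - pr (v - t v • π)`. -/

namespace Vale.Agent.P256

theorem ln_inv {U V : Type} [AddCommGroup U] [Module ℝ U] [AddCommGroup V] [Module ℝ V]
    (f : U →ₗ[ℝ] V) : ∃ σ : V →ₗ[ℝ] U, ∀ u, f (σ (f u)) = f u := by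
  obtain ⟨τ, hτ⟩ := f.rangeRestrict.exists_rightInverse_of_surjective f.range_rangeRestrict
  obtain ⟨σ, hσ⟩ := τ.exists_extend
  refine ⟨σ, fun u => ?_⟩
  have h1 : σ (f u) = τ ⟨f u, u, rfl⟩ := LinearMap.congr_fun hσ ⟨f u, u, rfl⟩
  rw [h1]
  exact congrArg Subtype.val (LinearMap.congr_fun hτ ⟨f u, u, rfl⟩)

theorem lin_bound {U ι κ : Type} [AddCommGroup U] [Module ℝ U] [Fintype ι] [Fintype κ]
    (f : U →ₗ[ℝ] (ι → ℝ)) (g : U →ₗ[ℝ] (κ → ℝ)) (h : ∀ u, f u = 0 → g u = 0) :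
    ∃ C : ℝ, 0 ≤ C ∧ ∀ u, ‖g u‖ ≤ C * ‖f u‖ := by
  obtain ⟨σ, hσ⟩ := ln_inv f
  refine ⟨‖LinearMap.toContinuousLinearMap (g ∘ₗ σ)‖, norm_nonneg _, fun u => ?_⟩
  have := h (u - σ (f u)) (by rw [map_sub, hσ, sub_self])
  rw [map_sub, sub_eq_zero] at this
  rw [this]
  exact (LinearMap.toContinuousLinearMap (g ∘ₗ σ)).le_opNorm (f u)

theorem ln_fins {n : ℕ} (B0 B1 : (Fin n → ℝ) →ₗ[ℝ] (Fin n → ℝ) →ₗ[ℝ] ℝ) (h1 : ∀ v, 0 ≤ B1 v v)
    (h0 : ∀ v, v ≠ 0 → B1 v v = 0 → 0 < B0 v v) :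
    ∃ N : ℝ, ∀ v, v ≠ 0 → 0 < B0 v v + N * B1 v v := by
  have hc : ∀ B : (Fin n → ℝ) →ₗ[ℝ] (Fin n → ℝ) →ₗ[ℝ] ℝ, Continuous fun v => B v v := fun B =>
    ((LinearMap.toContinuousLinearMap.toLinearMap ∘ₗ B).continuous_of_finiteDimensional).clm_apply
      continuous_id
  obtain ⟨N, hN⟩ := (isCompact_sphere (0 : Fin n → ℝ) 1).elim_directed_cover
    (fun N : ℕ => {v | 0 < B0 v v + N * B1 v v})
    (fun N => isOpen_lt continuous_const ((hc B0).add (continuous_const.mul (hc B1))))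
    (fun v hv => by
      have hv0 : v ≠ 0 := fun h => by simp [h] at hv
      rcases (h1 v).eq_or_lt with h | h
      · exact Set.mem_iUnion.2 ⟨0, by simpa using h0 v hv0 h.symm⟩
      · obtain ⟨N, hN⟩ := exists_nat_gt (-B0 v v / B1 v v)
        rw [div_lt_iff₀ h] at hN
        exact Set.mem_iUnion.2 ⟨N, show 0 < B0 v v + N * B1 v v by linarith⟩)
    (Monotone.directed_le fun N M hNM v hv => lt_of_lt_of_le hv
      (add_le_add le_rfl (mul_le_mul_of_nonneg_right (Nat.cast_le.2 hNM) (h1 v))))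
  refine ⟨N, fun v hv => ?_⟩
  have hx : 0 < ‖v‖ := norm_pos_iff.2 hv
  have H : 0 < B0 _ _ + N * B1 _ _ := hN (a := ‖v‖⁻¹ • v) (mem_sphere_zero_iff_norm.2
    (by rw [norm_smul, norm_inv, norm_norm, inv_mul_cancel₀ hx.ne']))
  simp only [map_smul, LinearMap.smul_apply, smul_eq_mul, mul_left_comm (N : ℝ), ← mul_add] at H
  exact (mul_pos_iff_of_pos_left (inv_pos.2 hx)).1 ((mul_pos_iff_of_pos_left (inv_pos.2 hx)).1 H)

theorem finsler {V : Type} [AddCommGroup V] [Module ℝ V] [Module.Finite ℝ V]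
    (B0 B1 : V →ₗ[ℝ] V →ₗ[ℝ] ℝ) (h1 : ∀ v, 0 ≤ B1 v v)
    (h0 : ∀ v, v ≠ 0 → B1 v v = 0 → 0 < B0 v v) :
    ∃ N : ℝ, ∀ v, v ≠ 0 → 0 < B0 v v + N * B1 v v := by
  obtain ⟨e⟩ : Nonempty ((Fin (Module.finrank ℝ V) → ℝ) ≃ₗ[ℝ] V) :=
    ⟨(Module.finBasis ℝ V).equivFun.symm⟩
  obtain ⟨N, hN⟩ := ln_fins (B0.compl₁₂ e.toLinearMap e.toLinearMap)
    (B1.compl₁₂ e.toLinearMap e.toLinearMap) (fun v => h1 _)
    fun v hv => h0 _ (e.map_ne_zero_iff.2 hv)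
  refine ⟨N, fun v hv => ?_⟩
  simpa using hN (e.symm v) (e.symm.map_ne_zero_iff.2 hv)

/-- Linear combinations of the `ψ s`. -/
noncomputable def lnP {S A B : Type} [Fintype S] (ψ : S → A → B → ℝ) :
    (S → ℝ) →ₗ[ℝ] (A → B → ℝ) := Fintype.linearCombination ℝ ψ

theorem lnP_apply {S A B : Type} [Fintype S] (ψ : S → A → B → ℝ) (c : S → ℝ) (a : A) (b : B) :
    lnP ψ c a b = ∑ s, c s * ψ s a b := by
  simp [lnP, Fintype.linearCombination_apply, Finset.sum_apply]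

theorem exists_fam {S A B : Type} [Fintype S] [Fintype A] [Fintype B] (ψ : S → A → B → ℝ) :
    ∃ f : A × B → A → B → ℝ, Fam ψ f := by
  classical
  obtain ⟨σ, hσ⟩ := ln_inv (lnP ψ)
  obtain ⟨g, hg⟩ : ∃ g : (A → B → ℝ) →ₗ[ℝ] (A → B → ℝ), ∀ y, g y = y - lnP ψ (σ y) :=
    ⟨LinearMap.id - lnP ψ ∘ₗ σ, fun _ => rfl⟩
  have e : ∀ (y : A → B → ℝ) (q : A × B),
      ∑ a, ∑ b, y a b * g (Pi.single a (Pi.single b 1)) q.1 q.2 = g y q.1 q.2 := fun y q => by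
    have : y = ∑ a, ∑ b, y a b • (Pi.single a (Pi.single b 1) : A → B → ℝ) := by
      funext a b
      simp [Finset.sum_apply, Pi.single_apply, ite_apply]
    conv_rhs => rw [this]
    simp [Finset.sum_apply]
  refine ⟨fun q a b => g (Pi.single a (Pi.single b 1)) q.1 q.2, fun s q => ?_, fun y hy => ?_⟩
  · have : ψ s = lnP ψ (Pi.single s 1) := by simp [lnP]
    rw [e, this, hg, hσ, sub_self]
    rfl
  · refine ⟨σ y, fun a b => ?_⟩
    have := (e y (a, b)).symm.trans (hy (a, b))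
    rw [hg] at this
    rw [← lnP_apply]
    exact sub_eq_zero.1 this

theorem Fam.sw {S A B Q : Type} [Fintype S] [Fintype A] [Fintype B] {ψ : S → A → B → ℝ}
    {f : Q → A → B → ℝ} (hf : Fam ψ f) : Fam (sw ψ) (sw f) := by
  refine ⟨fun s q => Finset.sum_comm.trans (hf.1 s q), fun y hy => ?_⟩
  obtain ⟨c, hc⟩ := hf.2 (fun a b => y b a) fun q => Finset.sum_comm.trans (hy q)
  exact ⟨c, fun b a => hc a b⟩

theorem exists_tZ {ι K : Type} [Fintype ι] [Fintype K] (r : (K → ℝ) →ₗ[ℝ] (ι → ℝ)) (π : ι → ℝ)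
    (hπ : ∀ c, r c ≠ π) :
    ∃ (t : (ι → ℝ) →ₗ[ℝ] ℝ) (Z : (ι → ℝ) →ₗ[ℝ] (ι → ℝ)), (∀ c, t (r c) = 0) ∧ (∀ c, Z (r c) = 0) ∧
      t π = 1 ∧ Z π = 0 ∧ ∀ v, ∃ c, v = t v • π + r c + Z v := by
  obtain ⟨t, ht, h1⟩ := LinearMap.exists_extend_of_notMem (0 : LinearMap.range r →ₗ[ℝ] ℝ)
    (v := π) (fun ⟨c, hc⟩ => hπ c hc) 1
  have h0 : ∀ c, t (r c) = 0 := fun c => LinearMap.congr_fun ht ⟨r c, c, rfl⟩
  obtain ⟨σ, hσ⟩ := ln_inv r
  refine ⟨t, (LinearMap.id - r ∘ₗ σ) ∘ₗ (LinearMap.id - t.smulRight π), h0, fun c => ?_, h1, ?_,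
    fun v => ⟨σ (v - t v • π), ?_⟩⟩
  · simp [h0, hσ]
  · simp [h1]
  · simp

/-- A linear coefficient map with an error bound. -/
theorem Fam.coef {S A B Q : Type} [Fintype S] [Fintype A] [Fintype B] [Fintype Q]
    {ψ : S → A → B → ℝ} {f : Q → A → B → ℝ} (hf : Fam ψ f) :
    ∃ (co : (A → B → ℝ) →ₗ[ℝ] (S → ℝ)) (C : ℝ), 0 ≤ C ∧ ∀ (y : A → B → ℝ) (η : ℝ), 0 ≤ η →
      (∀ q, |∑ a, ∑ b, y a b * f q a b| ≤ η) → ∀ a b, |y a b - ∑ s, co y s * ψ s a b| ≤ C * η := by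
  obtain ⟨σ, hσ⟩ := ln_inv (lnP ψ)
  have hF : IsLinearMap ℝ fun (y : A → B → ℝ) q => ∑ a, ∑ b, y a b * f q a b :=
    ⟨fun x y => funext fun q => by simp [add_mul, Finset.sum_add_distrib],
      fun c x => funext fun q => by simp [Finset.mul_sum, mul_assoc]⟩
  have hG : IsLinearMap ℝ fun (y : A → B → ℝ) (p : A × B) => (y - lnP ψ (σ y)) p.1 p.2 :=
    ⟨fun x y => funext fun q => by simp; ring, fun c x => funext fun q => by simp; ring⟩
  obtain ⟨C, hC, H⟩ := lin_bound (hF.mk' _) (hG.mk' _) fun y hy => by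
    obtain ⟨c, hc⟩ := hf.2 y (congrFun hy)
    have : y = lnP ψ c := funext fun a => funext fun b => by rw [hc, lnP_apply]
    funext p
    simp [this, hσ]
  refine ⟨σ, C, hC, fun y η hη hy a b => ?_⟩
  rw [← lnP_apply]
  refine (norm_le_pi_norm (hG.mk' _ y) (a, b)).trans ((H y).trans ?_)
  exact mul_le_mul_of_nonneg_left ((pi_norm_le_iff_of_nonneg hη).2 hy) hC

end Vale.Agent.P256
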