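import Mathlib
import Vale.Agent.P256.SLin

/-! P256 task S07: quantitative rigidity.

`rig0`: by `lin_bound` (on the submodule of antisymmetric `Φ`, or after antisymmetrising), `K1` gives
`x` (take a linear section of `d0`) with `Φ = d0 x + O(η)`; put `Z a b j = u a * x b j - u b * x a j`;
`d2 Z a b c s = u a * d0 x b c s - u b * d0 x a c s + u c * d0 x a b s = O(η)`; `K2` gives `Z = O(η)`, so
`x b j = u b * β j + O(η)` with `β j = x a0 j / u a0`.
`rigA`: `Φt a a' = u a • T a' - u a' • T a`, `Φ a a' = co (Φt a a')` (`Fam.coef`; `κ` cancels);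
`d1 Φ = O(η)` by the symmetry of `T`; `u ∧ Φ = co (u ∧ Φt) = 0`.  `rig0` gives `β`; put
`T' a a' b = T a a' b - ∑ s, (∑ j, ψ s a j * β j) * ψ s a' b`, symmetric in `a, a'` by `PT`, with
`u a * T' a' c b = u a' * T' a c b + O(η)`; use this twice with `a = a0`; `γ b = T' a0 a0 b`.
`rank2`: `w' = w - (w a0 / u a0) • u`, `w' = ρ • y` with `Unit1 y a1`, `y a0 = 0` (if `w' = 0` take `y` a
basis vector `≠ a0`).  `Φ a a' s = (u a * y a' - u a' * y a) * c s` has `d1 Φ = O(η)`, `u ∧ Φ = 0`,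
`y ∧ Φ = 0`.  `rig0` for `u` gives `Φ = d0 (u ⊗ β) + O(η)`; then `y ∧ Φ = 0` gives
`d2 ((y ∧ u) ⊗ β) = O(η)`, so `β = O(η)` by `K2` (entry `(a1, a0)`), so `Φ = O(η)`, so `c = O(η)`. -/

namespace Vale.Agent.P256

variable {S A B Q : Type} [Fintype S] [Fintype A] [Fintype B] [Fintype Q]

theorem rg_bd {U ι κ : Type} [AddCommGroup U] [Module ℝ U] [Fintype ι] [Fintype κ]
    (f : ι → U → ℝ) (g : κ → U → ℝ) (hf : ∀ i, IsLinearMap ℝ (f i)) (hg : ∀ k, IsLinearMap ℝ (g k))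
    (h : ∀ u, (∀ i, f i u = 0) → ∀ k, g k u = 0) :
    ∃ C : ℝ, 0 ≤ C ∧ ∀ u η, 0 ≤ η → (∀ i, |f i u| ≤ η) → ∀ k, |g k u| ≤ C * η := by
  obtain ⟨C, hC, H⟩ := lin_bound (LinearMap.pi fun i => (hf i).mk' _)
    (LinearMap.pi fun k => (hg k).mk' _) fun u hu => funext (h u (congrFun hu))
  refine ⟨C, hC, fun u η hη hu k => ?_⟩
  refine (norm_le_pi_norm ((LinearMap.pi fun k => (hg k).mk' _) u) k).trans ((H u).trans ?_)
  exact mul_le_mul_of_nonneg_left ((pi_norm_le_iff_of_nonneg hη).2 hu) hC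

theorem rg_mul {p x η : ℝ} (hp : |p| ≤ 1) (hx : |x| ≤ η) : |p * x| ≤ η := by
  rw [abs_mul]
  exact (mul_le_of_le_one_left (abs_nonneg _) hp).trans hx

theorem rg_sum {ι : Type} [Fintype ι] (p x : ι → ℝ) {η R : ℝ} (hx : ∀ i, |x i| ≤ η)
    (hη : 0 ≤ η) (hR : ∑ i, |p i| ≤ R) : |∑ i, p i * x i| ≤ R * η := by
  refine (Finset.abs_sum_le_sum_abs _ _).trans (le_trans ?_ (mul_le_mul_of_nonneg_right hR hη))
  rw [Finset.sum_mul]
  refine Finset.sum_le_sum fun i _ => ?_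
  rw [abs_mul]
  exact mul_le_mul_of_nonneg_left (hx i) (abs_nonneg _)

theorem rg_R (ψ : S → A → B → ℝ) :
    ∃ R : ℝ, 0 ≤ R ∧ (∀ s a, ∑ j, |ψ s a j| ≤ R) ∧ ∀ a j, ∑ s, |ψ s a j| ≤ R := by
  obtain ⟨R1, h1⟩ := (Set.finite_range fun p : S × A => ∑ j, |ψ p.1 p.2 j|).bddAbove
  obtain ⟨R2, h2⟩ := (Set.finite_range fun p : A × B => ∑ s, |ψ s p.1 p.2|).bddAbove
  refine ⟨max 0 (max R1 R2), le_max_left _ _, fun s a => ?_, fun a j => ?_⟩
  · exact le_max_of_le_right (le_max_of_le_left (h1 ⟨(s, a), rfl⟩))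
  · exact le_max_of_le_right (le_max_of_le_right (h2 ⟨(a, j), rfl⟩))

omit [Fintype A] in
theorem Unit1.sq {u : A → ℝ} {a0 : A} (h : Unit1 u a0) : u a0 * u a0 = 1 := by
  rw [← abs_mul_abs_self, h.2, one_mul]

theorem exists_unit [Nonempty A] (w : A → ℝ) (a1 : A) :
    ∃ (y : A → ℝ) (a0 : A) (ρ : ℝ), Unit1 y a0 ∧ (∀ a, w a = ρ * y a) ∧
      ∀ a, a ≠ a1 → w a = 0 → y a = 0 := by
  classical
  obtain ⟨a0, h0⟩ := Finite.exists_max fun a => |w a|
  by_cases h : w a0 = 0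
  · refine ⟨Pi.single a1 1, a1, 0, ⟨fun a => ?_, by simp⟩, fun a => ?_,
      fun a ha _ => Pi.single_eq_of_ne ha _⟩
    · by_cases ha : a = a1 <;> simp [ha]
    · have := h0 a
      rw [h, abs_zero, abs_nonpos_iff] at this
      rw [this, zero_mul]
  · refine ⟨fun a => w a / w a0, a0, w a0, ⟨fun a => ?_, by simp [h]⟩, fun a => by field_simp,
      fun a _ ha => by simp [ha]⟩
    rw [abs_div]
    exact div_le_one_of_le₀ (h0 a) (abs_nonneg _)

omit [Fintype S] [Fintype A] in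
theorem rg_d2 (ψ : S → A → B → ℝ) (y : A → ℝ) (x : A → B → ℝ) (a b c : A) (s : S) :
    d2 ψ (fun a b j => y a * x b j - y b * x a j) a b c s =
      y a * d0 ψ x b c s - y b * d0 ψ x a c s + y c * d0 ψ x a b s := by
  simp only [d2, d0, Finset.mul_sum, ← Finset.sum_sub_distrib, ← Finset.sum_add_distrib]
  exact Finset.sum_congr rfl fun _ _ => by ring

omit [Fintype S] [Fintype A] in
theorem rg_d0 {ψ : S → A → B → ℝ} {R η : ℝ} (hR : ∀ s a, ∑ j, |ψ s a j| ≤ R) (hη : 0 ≤ η)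
    {x x' : A → B → ℝ} (h : ∀ a j, |x a j - x' a j| ≤ η) (a a' : A) (s : S) :
    |d0 ψ x a a' s - d0 ψ x' a a' s| ≤ 2 * (R * η) := by
  have h1 := abs_le.1 (rg_sum _ _ (h a) hη (hR s a'))
  have h2 := abs_le.1 (rg_sum _ _ (h a') hη (hR s a))
  simp only [d0, mul_sub, Finset.sum_sub_distrib] at h1 h2 ⊢
  rw [abs_le]
  constructor <;> linarith [h1.1, h1.2, h2.1, h2.2]

theorem K1.bound {ψ : S → A → B → ℝ} (h1 : K1 ψ) :
    ∃ C : ℝ, 0 ≤ C ∧ ∀ (Φ : A → A → S → ℝ) (η : ℝ), 0 ≤ η → (∀ a b s, Φ a b s = -Φ b a s) →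
      (∀ a b c j, |d1 ψ Φ a b c j| ≤ η) →
      ∃ x : A → B → ℝ, ∀ a b s, |Φ a b s - d0 ψ x a b s| ≤ C * η := by
  have hD : IsLinearMap ℝ (d0 ψ) := by
    refine ⟨fun x y => ?_, fun c x => ?_⟩ <;> funext a b s
    · simp only [d0, Pi.add_apply, ← Finset.sum_add_distrib]
      exact Finset.sum_congr rfl fun _ _ => by ring
    · simp only [d0, Pi.smul_apply, smul_eq_mul, Finset.mul_sum]
      exact Finset.sum_congr rfl fun _ _ => by ring
  obtain ⟨q, hq⟩ := (LinearMap.range (hD.mk' _)).exists_isCompl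
  obtain ⟨C, hC, H⟩ := rg_bd (U := A → A → S → ℝ)
    (Sum.elim (fun (i : A × A × A × B) Φ => d1 ψ Φ i.1 i.2.1 i.2.2.1 i.2.2.2)
      fun (i : A × A × S) Φ => Φ i.1 i.2.1 i.2.2 + Φ i.2.1 i.1 i.2.2)
    (fun (i : A × A × S) Φ => Submodule.projection _ _ hq.symm Φ i.1 i.2.1 i.2.2)
    (by
      rintro (i | i)
      · refine ⟨fun x y => ?_, fun c x => ?_⟩
        · simp only [Sum.elim_inl, d1, Pi.add_apply, ← Finset.sum_add_distrib]
          exact Finset.sum_congr rfl fun _ _ => by ring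
        · simp only [Sum.elim_inl, d1, Pi.smul_apply, smul_eq_mul, Finset.mul_sum]
          exact Finset.sum_congr rfl fun _ _ => by ring
      · exact ⟨fun x y => by simp only [Sum.elim_inr, Pi.add_apply]; ring,
          fun c x => by simp only [Sum.elim_inr, Pi.smul_apply, smul_eq_mul]; ring⟩)
    (fun i => ⟨fun x y => by rw [map_add]; rfl, fun c x => by rw [map_smul]; rfl⟩) fun Φ hΦ k => by
      obtain ⟨x, hx⟩ := h1 Φ (fun a b s => eq_neg_of_add_eq_zero_left (hΦ (.inr (a, b, s))))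
        fun a b c j => hΦ (.inl (a, b, c, j))
      rw [Submodule.projection_apply_of_mem_right hq.symm
        ⟨x, funext fun a => funext fun b => funext fun s => (hx a b s).symm⟩]
      rfl
  refine ⟨C, hC, fun Φ η hη ha hd => ?_⟩
  obtain ⟨x, hx⟩ := Submodule.projection_apply_mem hq Φ
  refine ⟨x, fun a b s => ?_⟩
  have := H Φ η hη (by
    rintro (i | i)
    · exact hd _ _ _ _
    · simp [ha i.1 i.2.1, hη]) (a, b, s)
  rw [Submodule.projection_eq_self_sub_projection hq, ← hx] at this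
  exact this

theorem K2.bound {ψ : S → A → B → ℝ} (h2 : K2 ψ) :
    ∃ C : ℝ, 0 ≤ C ∧ ∀ (Z : A → A → B → ℝ) (η : ℝ), 0 ≤ η → (∀ a b j, Z a b j = -Z b a j) →
      (∀ a b c s, |d2 ψ Z a b c s| ≤ η) → ∀ a b j, |Z a b j| ≤ C * η := by
  obtain ⟨C, hC, H⟩ := rg_bd (U := A → A → B → ℝ)
    (Sum.elim (fun (i : A × A × A × S) Z => d2 ψ Z i.1 i.2.1 i.2.2.1 i.2.2.2)
      fun (i : A × A × B) Z => Z i.1 i.2.1 i.2.2 + Z i.2.1 i.1 i.2.2)
    (fun (i : A × A × B) Z => Z i.1 i.2.1 i.2.2)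
    (by
      rintro (i | i)
      · refine ⟨fun x y => ?_, fun c x => ?_⟩
        · simp only [Sum.elim_inl, d2, Pi.add_apply, ← Finset.sum_add_distrib]
          exact Finset.sum_congr rfl fun _ _ => by ring
        · simp only [Sum.elim_inl, d2, Pi.smul_apply, smul_eq_mul, Finset.mul_sum]
          exact Finset.sum_congr rfl fun _ _ => by ring
      · exact ⟨fun x y => by simp only [Sum.elim_inr, Pi.add_apply]; ring,
          fun c x => by simp only [Sum.elim_inr, Pi.smul_apply, smul_eq_mul]; ring⟩)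
    (fun i => ⟨fun x y => rfl, fun c x => rfl⟩) fun Z hZ k =>
      h2 Z (fun a b j => eq_neg_of_add_eq_zero_left (hZ (.inr (a, b, j))))
        (fun a b c s => hZ (.inl (a, b, c, s))) _ _ _
  refine ⟨C, hC, fun Z η hη ha hd a b j => H Z η hη ?_ (a, b, j)⟩
  rintro (i | i)
  · exact hd _ _ _ _
  · simp [ha i.1 i.2.1, hη]

theorem rig0 {ψ : S → A → B → ℝ} (h1 : K1 ψ) (h2 : K2 ψ) :
    ∃ C : ℝ, 0 ≤ C ∧ ∀ (u : A → ℝ) (a0 : A), Unit1 u a0 → ∀ (Φ : A → A → S → ℝ) (η : ℝ), 0 ≤ η →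
      (∀ a b s, Φ a b s = -Φ b a s) → (∀ a b c j, |d1 ψ Φ a b c j| ≤ η) →
      (∀ a b c s, |u a * Φ b c s - u b * Φ a c s + u c * Φ a b s| ≤ η) →
      ∃ β : B → ℝ, ∀ a a' s, |Φ a a' s - d0 ψ (fun a j => u a * β j) a a' s| ≤ C * η := by
  obtain ⟨C1, hC1, H1⟩ := h1.bound
  obtain ⟨C2, hC2, H2⟩ := h2.bound
  obtain ⟨R, hR, hR1, -⟩ := rg_R ψ
  refine ⟨C1 + 2 * (R * (C2 * (1 + 3 * C1))), by positivity, fun u a0 hu Φ η hη ha hd hw => ?_⟩
  obtain ⟨x, hx⟩ := H1 Φ η hη ha hd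
  have hZ := H2 (fun a b j => u a * x b j - u b * x a j) ((1 + 3 * C1) * η) (by positivity)
    (fun a b j => by ring) fun a b c s => by
      have k0 := abs_le.1 (hw a b c s)
      have k1 := abs_le.1 (rg_mul (hu.1 a) (hx b c s))
      have k2 := abs_le.1 (rg_mul (hu.1 b) (hx a c s))
      have k3 := abs_le.1 (rg_mul (hu.1 c) (hx a b s))
      rw [rg_d2, abs_le]
      constructor <;> linarith [k0.1, k0.2, k1.1, k1.2, k2.1, k2.2, k3.1, k3.2]
  refine ⟨fun j => u a0 * x a0 j, fun a a' s => ?_⟩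
  have k1 := abs_le.1 (hx a a' s)
  have k2 := abs_le.1 (rg_d0 hR1 (η := C2 * ((1 + 3 * C1) * η)) (by positivity) (x := x)
    (x' := fun a j => u a * (u a0 * x a0 j)) (fun b j => by
      have := rg_mul (hu.1 a0) (hZ a0 b j)
      rwa [mul_sub, ← mul_assoc, hu.sq, one_mul, mul_left_comm] at this) a a' s)
  rw [abs_le]
  constructor <;> linarith [k1.1, k1.2, k2.1, k2.2]

theorem rigA {ψ : S → A → B → ℝ} (hpt : PT ψ) (h1 : K1 ψ) (h2 : K2 ψ) {f : Q → A → B → ℝ}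
    (hf : Fam ψ f) :
    ∃ C : ℝ, 0 ≤ C ∧ ∀ (u : A → ℝ) (a0 : A), Unit1 u a0 → ∀ T : A → A → B → ℝ,
      (∀ a a' b, T a a' b = T a' a b) → ∀ (κ : Q → ℝ) (η : ℝ), 0 ≤ η →
      (∀ q a, |∑ a', ∑ b, T a a' b * f q a' b - κ q * u a| ≤ η) →
      ∃ β γ : B → ℝ, ∀ a a' b,
        |T a a' b - ∑ s, (∑ j, ψ s a j * β j) * ψ s a' b - u a * u a' * γ b| ≤ C * η := by
  obtain ⟨C1, hC1, H1⟩ := rig0 h1 h2
  obtain ⟨co, C0, hC0, H0⟩ := hf.coef
  obtain ⟨R, hR, -, hR2⟩ := rg_R ψ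
  refine ⟨2 * (2 * C0 + R * (C1 * (6 * C0))), by positivity,
    fun u a0 hu T hT κ η hη hκ => ?_⟩
  have e0 : ∀ a a' c b, |u a * T a' c b - u a' * T a c b -
      ∑ s, co (u a • T a' - u a' • T a) s * ψ s c b| ≤ C0 * (2 * η) := fun a a' =>
    H0 (u a • T a' - u a' • T a) _ (by positivity) fun q => by
      have k1 := abs_le.1 (rg_mul (hu.1 a) (hκ q a'))
      have k2 := abs_le.1 (rg_mul (hu.1 a') (hκ q a))
      simp only [Pi.sub_apply, Pi.smul_apply, smul_eq_mul, sub_mul, mul_assoc,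
        Finset.sum_sub_distrib, ← Finset.mul_sum]
      rw [abs_le]
      constructor <;> linarith [k1.1, k1.2, k2.1, k2.2]
  obtain ⟨β, hβ⟩ := H1 u a0 hu (fun a a' => co (u a • T a' - u a' • T a)) (6 * C0 * η)
    (by positivity) (fun a b s => by simp) (fun a b c j => by
      have k1 := abs_le.1 (e0 a b c j)
      have k2 := abs_le.1 (e0 a c b j)
      have k3 := abs_le.1 (e0 b c a j)
      rw [hT c b] at k2
      rw [hT c a, hT b a] at k3
      simp only [d1, Finset.sum_add_distrib, Finset.sum_sub_distrib]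
      rw [abs_le]
      constructor <;> linarith [k1.1, k1.2, k2.1, k2.2, k3.1, k3.2])
    fun a b c s => by
      simp only [map_sub, map_smul, Pi.sub_apply, Pi.smul_apply, smul_eq_mul]
      refine (abs_eq_zero.2 (by ring)).trans_le (by positivity)
  obtain ⟨T', hT'⟩ : ∃ T' : A → A → B → ℝ, ∀ a a' b,
      T' a a' b = T a a' b - ∑ s, (∑ j, ψ s a j * β j) * ψ s a' b := ⟨_, fun _ _ _ => rfl⟩
  have hs : ∀ a a' b, T' a a' b = T' a' a b := fun a a' b => by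
    rw [hT', hT', hT]
    simp only [Finset.sum_mul, mul_right_comm _ (β _)]
    rw [Finset.sum_comm, Finset.sum_comm (f := fun s j => ψ s a' j * ψ s a b * β j)]
    simp only [← Finset.sum_mul, hpt a a']
  have e1 : ∀ a a' c b, |u a * T' a' c b - u a' * T' a c b| ≤
      (2 * C0 + R * (C1 * (6 * C0))) * η := fun a a' c b => by
    have k1 := abs_le.1 (e0 a a' c b)
    have k2 := abs_le.1 (rg_sum _ _ (hβ a a') (by positivity) (hR2 c b))
    have k3 : ∀ s, d0 ψ (fun a j => u a * β j) a a' s =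
        u a * ∑ j, ψ s a' j * β j - u a' * ∑ j, ψ s a j * β j := fun s => by
      simp only [d0, Finset.mul_sum, ← Finset.sum_sub_distrib]
      exact Finset.sum_congr rfl fun _ _ => by ring
    simp only [k3, mul_comm (ψ _ c b), sub_mul, Finset.sum_sub_distrib, mul_assoc,
      ← Finset.mul_sum] at k2
    rw [hT', hT', abs_le]
    constructor <;> linarith [k1.1, k1.2, k2.1, k2.2]
  refine ⟨β, fun b => T' a0 a0 b, fun a a' b => ?_⟩
  have k1 := abs_le.1 (rg_mul (hu.1 a0) (e1 a0 a a' b))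
  have k2 := abs_le.1 (rg_mul (hu.1 a) (e1 a0 a' a0 b))
  rw [mul_sub, ← mul_assoc (u a0), hu.sq, one_mul] at k1
  rw [hs a' a0] at k2
  rw [← hT', abs_le]
  constructor <;> linarith [k1.1, k1.2, k2.1, k2.2]

theorem rank2 [Nontrivial A] {ψ : S → A → B → ℝ} (h1 : K1 ψ) (h2 : K2 ψ) :
    ∃ C : ℝ, 0 ≤ C ∧ ∀ (u : A → ℝ) (a0 : A), Unit1 u a0 → ∀ (c : S → ℝ) (w : A → ℝ) (γ v : B → ℝ)
      (η : ℝ), 0 ≤ η → (∀ a b, |∑ s, c s * ψ s a b - u a * γ b - w a * v b| ≤ η) →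
      ∀ s, |c s| ≤ C * η := by
  obtain ⟨C1, hC1, H1⟩ := rig0 h1 h2
  obtain ⟨C2, hC2, H2⟩ := h2.bound
  obtain ⟨R, hR, hR1, -⟩ := rg_R ψ
  refine ⟨C1 * 6 + 2 * (R * (C2 * (3 * (C1 * 6)))), by positivity,
    fun u a0 hu c w γ v η hη h s => ?_⟩
  obtain ⟨a2, ha2⟩ := exists_ne a0
  obtain ⟨y, a1, ρ, hy, hρ, hy0⟩ := exists_unit (fun a => w a - w a0 * u a0 * u a) a2
  have y0 : y a0 = 0 := hy0 a0 ha2.symm (by rw [mul_assoc, hu.sq, mul_one, sub_self])
  have hw : ∀ a, w a = ρ * y a + w a0 * u a0 * u a := fun a => by rw [← hρ]; ring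
  generalize w a0 * u a0 = t at hw
  obtain ⟨β, hβ⟩ := H1 u a0 hu (fun a a' s => (u a * y a' - u a' * y a) * c s) (6 * η)
    (by positivity) (fun a b s => by ring) (fun a b d j => by
      have k1 := abs_le.1 (rg_mul (hu.1 a) (rg_mul (hy.1 b) (h d j)))
      have k2 := abs_le.1 (rg_mul (hu.1 b) (rg_mul (hy.1 a) (h d j)))
      have k3 := abs_le.1 (rg_mul (hu.1 a) (rg_mul (hy.1 d) (h b j)))
      have k4 := abs_le.1 (rg_mul (hu.1 d) (rg_mul (hy.1 a) (h b j)))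
      have k5 := abs_le.1 (rg_mul (hu.1 b) (rg_mul (hy.1 d) (h a j)))
      have k6 := abs_le.1 (rg_mul (hu.1 d) (rg_mul (hy.1 b) (h a j)))
      rw [hw d] at k1 k2
      rw [hw b] at k3 k4
      rw [hw a] at k5 k6
      simp only [d1, Finset.sum_add_distrib, Finset.sum_sub_distrib, mul_assoc, ← Finset.mul_sum]
      rw [abs_le]
      constructor <;> linarith [k1.1, k1.2, k2.1, k2.2, k3.1, k3.2, k4.1, k4.2, k5.1, k5.2, k6.1,
        k6.2])
    fun a b d s => (abs_eq_zero.2 (by ring)).trans_le (by positivity)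
  have hZ := H2 (fun a b j => y a * (u b * β j) - y b * (u a * β j)) (3 * (C1 * (6 * η)))
    (by positivity) (fun a b j => by ring) fun a b d s => by
      have k1 := abs_le.1 (rg_mul (hy.1 a) (hβ b d s))
      have k2 := abs_le.1 (rg_mul (hy.1 b) (hβ a d s))
      have k3 := abs_le.1 (rg_mul (hy.1 d) (hβ a b s))
      rw [rg_d2 ψ y fun a j => u a * β j, abs_le]
      constructor <;> linarith [k1.1, k1.2, k2.1, k2.2, k3.1, k3.2]
  have k1 := hβ a0 a1 s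
  have k2 := rg_d0 hR1 (η := C2 * (3 * (C1 * (6 * η)))) (by positivity)
    (x := fun a j => u a * β j) (x' := 0) (fun a j => by
      have := hZ a1 a0 j
      rw [y0, zero_mul, sub_zero, abs_mul, abs_mul, hy.2, hu.2, one_mul, one_mul] at this
      simpa using rg_mul (hu.1 a) this) a0 a1 s
  have k3 : d0 ψ 0 a0 a1 s = 0 := by simp [d0]
  have k4 : |c s| = |(u a0 * y a1 - u a1 * y a0) * c s| := by
    rw [y0, mul_zero, sub_zero, abs_mul, abs_mul, hy.2, hu.2, one_mul, one_mul]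
  rw [k3, sub_zero] at k2
  rw [abs_le] at k1 k2
  rw [k4, abs_le]
  constructor <;> linarith [k1.1, k1.2, k2.1, k2.2]

end Vale.Agent.P256
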