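import Mathlib
import Vale.Agent.P256.SRig

/-! P256 task S08: approximate block structure of the moment matrix.

Apply `rigA` to `T a a' b = m (iA a) (iA a') (iB b)` (gives `bv, γ`) and, for `sw ψ`, `sw f`
(`Fam.sw`; `PT (sw ψ)` from `PT ψ`), to `T' b b' a = m (iA a) (iB b) (iB b')` (gives `av, γ'`).  Since
`iA none = iB none = none`, `T none a b = T' none b a = Mm m (iA a) (iB b)`.  Hence with
`c s = ∑ j, ψ s none j * bv j - ∑ i, ψ s i none * av i`:
`∑ c s * ψ s a b + u none * u a * γ b - γ' a * v none * v b = O(η)`; `rank2` gives `c = O(η)`.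
`c s = ∑ l, y l * Vv ψ l s` with `y none = bv none - av none`, `y (inl i) = - av (some i)`,
`y (inr j) = bv (some j)`, so `chart` and `lin_bound` give `y = O(η)`.  Take `s = bv none`.  Use
`Vv ψ (iA a) s = ψ s a none`, `Vv ψ (iB b) s = ψ s none b` and `PT`:
`∑ s, ψ s none none * ψ s a b = ∑ s, ψ s a none * ψ s none b = ML ψ (iA a) (iB b)`. -/

namespace Vale.Agent.P256

variable {S α β Q : Type} [Fintype S] [Fintype α] [Fintype β] [DecidableEq α] [DecidableEq β]
  [Fintype Q]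

theorem bk_lead {S A B : Type} [Fintype S] [Fintype B] {ψ : S → A → Option B → ℝ} {R η t : ℝ}
    (hR : 0 ≤ R) (hR1 : ∀ s a, ∑ j, |ψ s a j| ≤ R) (hR2 : ∀ a j, ∑ s, |ψ s a j| ≤ R)
    {b : Option B → ℝ} (h0 : |b none - t| ≤ η) (h1 : ∀ j, |b (some j)| ≤ η) (a a' : A)
    (k : Option B) : |∑ s, (∑ j, ψ s a j * b j) * ψ s a' k - t * ∑ s, ψ s a none * ψ s a' k| ≤
      R * (R * η) := by
  have hη := (abs_nonneg _).trans h0
  refine le_of_eq_of_le (congrArg _ ?_) (rg_sum _ _ (fun s => rg_sum (ψ s a)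
    (fun j => b j - j.elim t fun _ => 0) (η := η) ?_ hη (hR1 s a)) (by positivity) (hR2 a' k))
  · rw [Finset.mul_sum, ← Finset.sum_sub_distrib]
    refine Finset.sum_congr rfl fun s _ => ?_
    simp only [Fintype.sum_option, Option.elim, sub_zero]
    ring
  · rintro (_ | j)
    · exact h0
    · simpa using h1 j

theorem key_blocks [Nonempty α] {ψ : S → Option α → Option β → ℝ} (hψ : Good ψ)
    {f : Q → Option α → Option β → ℝ} (hf : Fam ψ f) :
    ∃ C : ℝ, 0 ≤ C ∧ ∀ m : Ix α β → Ix α β → Ix α β → ℝ, Sym3 m →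
      ∀ (u : Option α → ℝ) (a0 : Option α) (v : Option β → ℝ) (b0 : Option β),
      Unit1 u a0 → Unit1 v b0 → ∀ (κ κ' : Q → ℝ) (η : ℝ), 0 ≤ η →
      (∀ q a, |∑ a', ∑ b, m (iA a) (iA a') (iB b) * f q a' b - κ q * u a| ≤ η) →
      (∀ q b, |∑ b', ∑ a, m (iA a) (iB b) (iB b') * f q a b' - κ' q * v b| ≤ η) →
      ∃ (s : ℝ) (γ' : Option α → ℝ) (γ : Option β → ℝ),
        Blocks (ML ψ) (Mm m) u γ' v γ s (C * η) := by
  have hpt : PT (sw ψ) := fun b b' a a' =>
    (hψ.pt a a' b b').trans (Finset.sum_congr rfl fun _ _ => mul_comm _ _)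
  obtain ⟨C1, hC1, H1⟩ := rigA hψ.pt hψ.k1A hψ.k2A hf
  obtain ⟨C2, hC2, H2⟩ := rigA hpt hψ.k1B hψ.k2B hf.sw
  obtain ⟨C3, hC3, H3⟩ := rank2 hψ.k1A hψ.k2A
  obtain ⟨C4, hC4, H4⟩ := rg_bd (U := Ix α β → ℝ) (fun s y => ∑ l, y l * Vv ψ l s)
    (fun l y => y l) (fun s => ⟨fun x y => by simp [add_mul, Finset.sum_add_distrib],
      fun c x => by simp only [Pi.smul_apply, smul_eq_mul, Finset.mul_sum, mul_assoc]⟩)
    (fun l => ⟨fun _ _ => rfl, fun _ _ => rfl⟩)
    fun y hy => congrFun (hψ.chart y hy)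
  obtain ⟨R, hR, hR1, hR2⟩ := rg_R ψ
  obtain ⟨R', hR', hR3, hR4⟩ := rg_R (sw ψ)
  refine ⟨C1 + C2 + R * (R * (C4 * (C3 * (C1 + C2)))) + R' * (R' * (C4 * (C3 * (C1 + C2)))),
    by positivity, fun m hm u a0 v b0 hu hv κ κ' η hη h1 h2 => ?_⟩
  obtain ⟨bv, γ, e1⟩ := H1 u a0 hu (fun a a' b => m (iA a) (iA a') (iB b))
    (fun _ _ _ => hm.1 _ _ _) κ η hη h1
  obtain ⟨av, γ', e2⟩ := H2 v b0 hv (fun b b' a => m (iA a) (iB b) (iB b'))
    (fun _ _ _ => hm.2 _ _ _) κ' η hη h2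
  have e3 : ∀ a b, |Mm m (iA a) (iB b) - ∑ s, (∑ j, ψ s none j * bv j) * ψ s a b -
      u none * u a * γ b| ≤ C1 * η := e1 none
  have e4 : ∀ a b, |Mm m (iA a) (iB b) - ∑ s, (∑ i, ψ s i none * av i) * ψ s a b -
      v none * v b * γ' a| ≤ C2 * η := fun a b => by
    have := e2 none b a
    rwa [hm.1] at this
  have hc := H3 u a0 hu (fun s => ∑ j, ψ s none j * bv j - ∑ i, ψ s i none * av i)
    (fun a => v none * γ' a) (fun b => -(u none * γ b)) v ((C1 + C2) * η) (by positivity)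
    fun a b => by
      have k1 := abs_le.1 (e3 a b)
      have k2 := abs_le.1 (e4 a b)
      simp only [sub_mul, Finset.sum_sub_distrib]
      rw [abs_le]
      constructor <;> linarith [k1.1, k1.2, k2.1, k2.2]
  have hy := H4 (fun l => l.elim (bv none - av none) (Sum.elim (fun i => -av (some i))
    fun j => bv (some j))) _ (by positivity) fun s => le_of_eq_of_le (congrArg _ (by
      simp only [Fintype.sum_option, Fintype.sum_sum_type, Vv, Option.elim, Sum.elim_inl,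
        Sum.elim_inr, neg_mul, Finset.sum_neg_distrib, mul_comm (ψ _ _ _)]
      ring)) (hc s)
  have l1 := bk_lead hR hR1 hR2 (b := bv) (t := bv none) (η := C4 * (C3 * ((C1 + C2) * η)))
    (by rw [sub_self, abs_zero]; positivity) fun j => hy (some (.inr j))
  have l2 := bk_lead hR' hR3 hR4 (b := av) (t := bv none) ((abs_sub_comm _ _).trans_le (hy none))
    fun i => (abs_neg _).symm.trans_le (hy (some (.inl i)))
  have vA : ∀ a s, Vv ψ (iA a) s = ψ s a none := fun a s => by cases a <;> rfl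
  have vB : ∀ b s, Vv ψ (iB b) s = ψ s none b := fun b s => by cases b <;> rfl
  have p1 : 0 ≤ C1 * η := by positivity
  have p2 : 0 ≤ C2 * η := by positivity
  have p3 : 0 ≤ R * (R * (C4 * (C3 * ((C1 + C2) * η)))) := by positivity
  have p4 : 0 ≤ R' * (R' * (C4 * (C3 * ((C1 + C2) * η)))) := by positivity
  refine ⟨bv none, γ', γ, fun a a' => ?_, fun a b => ?_, fun a b => ?_, fun b b' => ?_⟩ <;>
    simp only [ML, Matrix.of_apply, vA, vB]
  · have k1 := abs_le.1 (e1 a a' none)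
    have k2 := abs_le.1 (l1 a a' none)
    rw [hm.2, hm.1] at k1
    rw [abs_le]
    constructor <;> linarith [k1.1, k1.2, k2.1, k2.2,
      show Mm m (iA a) (iA a') = m (iB none) (iA a) (iA a') from rfl]
  · have k1 := abs_le.1 (e3 a b)
    have k2 := abs_le.1 (l1 none a b)
    rw [hψ.pt] at k2
    rw [abs_le]
    constructor <;> linarith [k1.1, k1.2, k2.1, k2.2]
  · have k1 := abs_le.1 (e4 a b)
    have k2 := abs_le.1 (l2 none b a)
    simp only [sw] at k2
    rw [hψ.pt] at k2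
    rw [abs_le]
    constructor <;> linarith [k1.1, k1.2, k2.1, k2.2]
  · have k1 := abs_le.1 (e2 b b' none)
    have k2 := abs_le.1 (l2 b b' none)
    simp only [sw] at k1 k2
    rw [abs_le]
    constructor <;> linarith [k1.1, k1.2, k2.1, k2.2,
      show Mm m (iB b) (iB b') = m (iA none) (iB b) (iB b') from rfl]

theorem ML_posDef {ψ : S → Option α → Option β → ℝ} (hψ : Good ψ) : (ML ψ).PosDef := by
  refine Matrix.PosDef.mul_conjTranspose_self (Matrix.of (Vv ψ)) fun x y h => ?_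
  refine sub_eq_zero.1 (hψ.chart _ fun s => ?_)
  simp only [Pi.sub_apply, sub_mul, Finset.sum_sub_distrib]
  exact sub_eq_zero.2 (congrFun h s)

end Vale.Agent.P256
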