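import Mathlib
import Vale.Agent.P256.SDefs

/-! P256 task S18: `PT`, `K1`, `K2` are invariant under a change of basis.

`ψ = chg Gi Hi (chg G H ψ)`.  For `K1`: given `Φ'`, put `Φ a b s = ∑ a' b', Gi a a' * Gi b b' * Φ' a' b' s`;
`d1 ψ Φ a b c j = ∑ a' b' c' j', Gi a a' * Gi b b' * Gi c c' * Hi j j' * d1 ψ' Φ' a' b' c' j' = 0`; if
`Φ = d0 ψ x` then `Φ' = d0 ψ' x'` with `x' a j = ∑ a' j', G a a' * x a' j' * Hi j' j`.  For `K2`: put
`Z a b j = ∑ a' b' j', Gi a a' * Gi b b' * Z' a' b' j' * H j' j`.  It may be easier to do the two factors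
separately, or to phrase the sums with `Matrix.mulVec`. -/

namespace Vale.Agent.P256

variable {S A B A' B' : Type} [Fintype S] [Fintype A] [Fintype B] [Fintype A'] [Fintype B']
  [DecidableEq A] [DecidableEq B] [DecidableEq A'] [DecidableEq B']

section aux

variable {I J ι : Type} [Fintype J]

/-- A matrix applied to a vector. -/
def tA (G : I → J → ℝ) (f : J → ℝ) (a : I) : ℝ := ∑ a', G a a' * f a'

theorem tA_sum [Fintype ι] (G : I → J → ℝ) (f : J → ι → ℝ) (a : I) :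
    tA G (fun x => ∑ s, f x s) a = ∑ s, tA G (fun x => f x s) a := by
  simp only [tA, Finset.mul_sum]
  exact Finset.sum_comm

theorem tA_add (G : I → J → ℝ) (f g : J → ℝ) (a : I) :
    tA G (fun x => f x + g x) a = tA G f a + tA G g a := by
  simp only [tA, mul_add, Finset.sum_add_distrib]

theorem tA_sub (G : I → J → ℝ) (f g : J → ℝ) (a : I) :
    tA G (fun x => f x - g x) a = tA G f a - tA G g a := by
  simp only [tA, mul_sub, Finset.sum_sub_distrib]

theorem tA_neg (G : I → J → ℝ) (f : J → ℝ) (a : I) :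
    tA G (fun x => -f x) a = -tA G f a := by
  simp only [tA, mul_neg, Finset.sum_neg_distrib]

theorem tA_mulr (G : I → J → ℝ) (f : J → ℝ) (k : ℝ) (a : I) :
    tA G (fun x => f x * k) a = tA G f a * k := by
  simp only [tA, Finset.sum_mul, mul_assoc]

theorem tA_mull (G : I → J → ℝ) (f : J → ℝ) (k : ℝ) (a : I) :
    tA G (fun x => k * f x) a = k * tA G f a := by
  simp only [tA, Finset.mul_sum, mul_left_comm]

theorem tA_zero (G : I → J → ℝ) (a : I) : tA G (fun _ => 0) a = 0 := by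
  simp only [tA, mul_zero, Finset.sum_const_zero]

theorem tA_comm {I' J' : Type} [Fintype J'] (G : I → J → ℝ) (H : I' → J' → ℝ) (f : J → J' → ℝ)
    (a : I) (b : I') :
    tA G (fun x => tA H (fun y => f x y) b) a = tA H (fun y => tA G (fun x => f x y) a) b := by
  simp only [tA, Finset.mul_sum]
  rw [Finset.sum_comm]
  simp only [mul_left_comm]

/-- `G` is left inverse to `Gi`. -/
def LI [Fintype I] (G : I → J → ℝ) (Gi : J → I → ℝ) : Prop :=
  ∀ (f : I → ℝ) (a : I), tA G (fun x => tA Gi f x) a = f a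

theorem LI_of [Fintype I] [DecidableEq I] {G : Matrix I J ℝ} {Gi : Matrix J I ℝ}
    (h : G * Gi = 1) : LI G Gi := fun f a => by
  have e : G.mulVec (Gi.mulVec f) = f := by rw [Matrix.mulVec_mulVec, h, Matrix.one_mulVec]
  exact congrFun e a

theorem LI_tr [Fintype I] [DecidableEq I] {G : Matrix I J ℝ} {Gi : Matrix J I ℝ}
    (h : G * Gi = 1) : LI (fun a b => Gi b a) (fun a b => G b a) := by
  have e : Gi.transpose * G.transpose = 1 := by
    rw [← Matrix.transpose_mul, h, Matrix.transpose_one]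
  exact LI_of e

theorem tA_adj [Fintype I] (H : I → J → ℝ) (f : J → ℝ) (g : I → ℝ) :
    ∑ j, tA H f j * g j = ∑ j, f j * tA (fun a b => H b a) g j := by
  simp only [tA, Finset.sum_mul, Finset.mul_sum]
  rw [Finset.sum_comm]
  refine Finset.sum_congr rfl fun _ _ => Finset.sum_congr rfl fun _ _ => ?_
  ring

end aux

/-- Change of basis in the first factor. -/
def cA {B : Type} (G : A' → A → ℝ) (ψ : S → A → B → ℝ) : S → A' → B → ℝ :=
  fun s a b => tA G (fun x => ψ s x b) a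

/-- Change of basis in the second factor. -/
def cB {A : Type} (H : B' → B → ℝ) (ψ : S → A → B → ℝ) : S → A → B' → ℝ :=
  fun s a b => tA H (fun y => ψ s a y) b

/-- Change of basis in two slots. -/
def c2 {T : Type} (G : A' → A → ℝ) (Φ : A → A → T → ℝ) : A' → A' → T → ℝ :=
  fun a b s => tA G (fun x => tA G (fun y => Φ x y s) b) a

section two

omit [DecidableEq A] [DecidableEq B] [DecidableEq A'] [DecidableEq B']

omit [Fintype S] [Fintype A'] [Fintype B'] in
theorem chg_eq (ψ : S → A → B → ℝ) (G : A' → A → ℝ) (H : B' → B → ℝ) :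
    chg G H ψ = cA G (cB H ψ) := by
  funext s a b
  simp only [chg, cA, cB, tA, Finset.mul_sum, mul_assoc]

omit [Fintype A'] in
theorem c2_anti {T : Type} (G : A' → A → ℝ) {Φ : A → A → T → ℝ} (h : ∀ a b s, Φ a b s = -Φ b a s)
    (a b : A') (s : T) : c2 G Φ a b s = -c2 G Φ b a s := by
  unfold c2
  rw [tA_comm, ← tA_neg]
  congr 1
  funext y
  rw [← tA_neg]
  congr 1
  funext x
  exact h _ _ _

omit [Fintype A'] [Fintype B] in
theorem d1_cA (G : A' → A → ℝ) (ψ : S → A → B → ℝ) (Φ : A → A → S → ℝ) (a b c : A') (j : B) :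
    d1 (cA G ψ) (c2 G Φ) a b c j =
      tA G (fun x => tA G (fun y => tA G (fun z => d1 ψ Φ x y z j) c) b) a := by
  simp only [d1, cA, c2, tA_sum, tA_add, tA_sub, tA_mulr, tA_mull]

omit [Fintype A'] [Fintype S] in
theorem d2_cA (G : A' → A → ℝ) (ψ : S → A → B → ℝ) (Z : A → A → B → ℝ) (a b c : A') (s : S) :
    d2 (cA G ψ) (c2 G Z) a b c s =
      tA G (fun x => tA G (fun y => tA G (fun z => d2 ψ Z x y z s) c) b) a := by
  simp only [d2, cA, c2, tA_sum, tA_add, tA_sub, tA_mulr, tA_mull]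

omit [Fintype A'] [Fintype S] in
theorem d0_cA (G : A' → A → ℝ) (ψ : S → A → B → ℝ) (u : A → B → ℝ) (a b : A') (s : S) :
    d0 (cA G ψ) (fun a j => tA G (fun x => u x j) a) a b s = c2 G (d0 ψ u) a b s := by
  simp only [d0, cA, c2, tA_sum, tA_sub, tA_mulr, tA_mull]

omit [Fintype A] [Fintype B'] in
theorem d1_cB (H : B' → B → ℝ) (ψ : S → A → B → ℝ) (Φ : A → A → S → ℝ) (a b c : A) (j : B') :
    d1 (cB H ψ) Φ a b c j = tA H (fun y => d1 ψ Φ a b c y) j := by
  simp only [d1, cB, tA_sum, tA_add, tA_sub, tA_mull]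

omit [Fintype A'] [Fintype B] in
theorem PT.cA {ψ : S → A → B → ℝ} (h : PT ψ) (G : A' → A → ℝ) : PT (cA G ψ) := by
  intro a a' b b'
  have e1 : ∑ s, P256.cA G ψ s a b * P256.cA G ψ s a' b' =
      tA G (fun x => tA G (fun y => ∑ s, ψ s x b * ψ s y b') a') a := by
    simp only [P256.cA, tA_sum, tA_mulr, tA_mull]
  have e2 : ∑ s, P256.cA G ψ s a' b * P256.cA G ψ s a b' =
      tA G (fun x => tA G (fun y => ∑ s, ψ s y b * ψ s x b') a') a := by
    simp only [P256.cA, tA_sum, tA_mulr, tA_mull]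
  rw [e1, e2]
  simp only [h _ _ b b']

omit [Fintype A] [Fintype B'] in
theorem PT.cB {ψ : S → A → B → ℝ} (h : PT ψ) (H : B' → B → ℝ) : PT (cB H ψ) := by
  intro a a' b b'
  have e : ∀ a a', ∑ s, P256.cB H ψ s a b * P256.cB H ψ s a' b' =
      tA H (fun x => tA H (fun y => ∑ s, ψ s a x * ψ s a' y) b') b := fun a a' => by
    simp only [P256.cB, tA_sum, tA_mulr, tA_mull]
  rw [e, e]
  simp only [h a a']

theorem c2_inv {T : Type} {G : A' → A → ℝ} {Gi : A → A' → ℝ} (h : LI G Gi)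
    (Φ : A' → A' → T → ℝ) (a b : A') (s : T) : c2 G (c2 Gi Φ) a b s = Φ a b s := by
  unfold c2
  have e : ∀ x, tA G (fun y => tA Gi (fun x' => tA Gi (fun y' => Φ x' y' s) y) x) b =
      tA Gi (fun x' => Φ x' b s) x := fun x => by
    rw [tA_comm]
    simp only [h _ _]
  simp only [e, h _ _]

omit [Fintype S] [Fintype B] in
theorem cA_inv {G : A' → A → ℝ} {Gi : A → A' → ℝ} (h : LI Gi G) (ψ : S → A → B → ℝ) :
    cA Gi (cA G ψ) = ψ := by
  funext s a b
  exact h (fun x => ψ s x b) a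

theorem K1.cA {ψ : S → A → B → ℝ} (h : K1 ψ) {G : A' → A → ℝ} {Gi : A → A' → ℝ}
    (hG : LI G Gi) (hG' : LI Gi G) : K1 (cA G ψ) := by
  intro Φ h1 h2
  obtain ⟨u, hu⟩ := h (c2 Gi Φ) (c2_anti Gi h1) fun a b c j => by
    have e := d1_cA Gi (P256.cA G ψ) Φ a b c j
    rw [cA_inv hG'] at e
    simp only [e, h2, tA_zero]
  refine ⟨fun a j => tA G (fun x => u x j) a, fun a b s => ?_⟩
  have e : d0 ψ u = c2 Gi Φ := by
    funext a b s
    exact (hu a b s).symm
  rw [d0_cA, e, c2_inv hG]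

theorem K2.cA {ψ : S → A → B → ℝ} (h : K2 ψ) {G : A' → A → ℝ} {Gi : A → A' → ℝ}
    (hG : LI G Gi) (hG' : LI Gi G) : K2 (cA G ψ) := by
  intro Z h1 h2 a b j
  have h3 := h (c2 Gi Z) (c2_anti Gi h1) fun a b c s => by
    have e := d2_cA Gi (P256.cA G ψ) Z a b c s
    rw [cA_inv hG'] at e
    simp only [e, h2, tA_zero]
  rw [← c2_inv hG Z a b j]
  unfold c2 at h3 ⊢
  simp only [h3, tA_zero]

theorem K1.cB {ψ : S → A → B → ℝ} (h : K1 ψ) {H : B' → B → ℝ} {Hi : B → B' → ℝ}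
    (hH : LI Hi H) (hH' : LI (fun a b => H b a) (fun a b => Hi b a)) : K1 (cB H ψ) := by
  intro Φ h1 h2
  obtain ⟨u, hu⟩ := h Φ h1 fun a b c j => by
    rw [← hH (fun y => d1 ψ Φ a b c y) j]
    simp only [← d1_cB, h2, tA_zero]
  refine ⟨fun a j => tA (fun a b => Hi b a) (u a) j, fun a b s => ?_⟩
  rw [hu]
  simp only [d0, P256.cB, Finset.sum_sub_distrib, tA_adj H, hH' _ _]

theorem K2.cB {ψ : S → A → B → ℝ} (h : K2 ψ) {H : B' → B → ℝ} {Hi : B → B' → ℝ}
    (hH : LI (fun a b => Hi b a) (fun a b => H b a)) : K2 (cB H ψ) := by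
  intro Z h1 h2 a b j
  have h3 := h (fun a b j => tA (fun a b => H b a) (Z a b) j) (fun a b j => by
    rw [← tA_neg]
    congr 1
    funext y
    exact h1 _ _ _) fun a b c s => by
    have e := h2 a b c s
    simp only [d2, P256.cB, Finset.sum_sub_distrib, Finset.sum_add_distrib, tA_adj H] at e ⊢
    exact e
  rw [← hH (Z a b) j]
  simp only [h3, tA_zero]

end two

theorem PT.chg {ψ : S → A → B → ℝ} (h : PT ψ) (G : A' → A → ℝ) (H : B' → B → ℝ) :
    PT (chg G H ψ) := by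
  rw [chg_eq]
  exact (h.cB H).cA G

theorem sw_chg (ψ : S → A → B → ℝ) (G : A' → A → ℝ) (H : B' → B → ℝ) :
    sw (chg G H ψ) = chg H G (sw ψ) := by
  funext s b a
  simp only [sw, chg]
  rw [Finset.sum_comm]
  refine Finset.sum_congr rfl fun _ _ => Finset.sum_congr rfl fun _ _ => ?_
  ring

theorem K1.chg {ψ : S → A → B → ℝ} (h : K1 ψ) (G : Matrix A' A ℝ) (Gi : Matrix A A' ℝ)
    (hG : G * Gi = 1) (hG' : Gi * G = 1) (H : Matrix B' B ℝ) (Hi : Matrix B B' ℝ)
    (hH : H * Hi = 1) (hH' : Hi * H = 1) : K1 (chg G H ψ) := by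
  have h1 := (h.cB (LI_of hH') (LI_tr hH')).cA (LI_of hG) (LI_of hG')
  exact (congrArg K1 (chg_eq ψ G H)).mpr h1

theorem K2.chg {ψ : S → A → B → ℝ} (h : K2 ψ) (G : Matrix A' A ℝ) (Gi : Matrix A A' ℝ)
    (hG : G * Gi = 1) (hG' : Gi * G = 1) (H : Matrix B' B ℝ) (Hi : Matrix B B' ℝ)
    (hH : H * Hi = 1) (hH' : Hi * H = 1) : K2 (chg G H ψ) := by
  have h1 := (h.cB (LI_tr hH)).cA (LI_of hG) (LI_of hG')
  exact (congrArg K2 (chg_eq ψ G H)).mpr h1

end Vale.Agent.P256
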