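import Mathlib
import Vale.Agent.P256.SBasic

/-! P256 task S04: the points `δ_c` lie in the cone.

`delta_pos`: with `v = ct c`, `N = ∑ v^2 = 1 + ∑ c^2`, the inverse of `v vᵀ + s` is
`Mi = s⁻¹ • (1 - (s+N)⁻¹ • v vᵀ)`; `B Mi = (s+N)⁻¹ • qv vᵀ`, `trace (B Mi Bᵀ) = |qv|^2 N/(s+N)`,
`ε = ∑ Mi l l = k/s - (N-1)/(s(s+N)) ≥ (k-1)/s ≥ 1/s` (`k = card K ≥ 2`),
`Hq ≥ -A |qv|^2 (N-1)/(s+N)^2`.  So by `pM_of_inv` the bracket is
`≥ s ε + A|qv|^2 s/(s+N) ε - A|qv|^2/(s+N) ≥ s ε > 0`, and `det ≠ 0`.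
`pV_delta`: `x v = eval c (gV v)` is symmetric with `x (some (a,b,d)) = ct c a * ct c b * ct c d`;
use `mom_of_sym`, `pV_add_eV` with `R = ℝ`. -/

namespace Vale.Agent.P256

open MvPolynomial Matrix

theorem delta_pos {K Q : Type} [Fintype K] [DecidableEq K] [Fintype Q] [Nontrivial K]
    (h : Q × K → Q × K → ℝ) (A : ℝ) (hA0 : 0 ≤ A)
    (hA : ∀ v : Q × K → ℝ, |Hq h v| ≤ A * ∑ x, v x ^ 2) (c : K → ℝ) (qv : Q → ℝ) (s : ℝ)
    (hs : 0 < s) :
    0 < pM h A (vecMulVec (ct c) (ct c) + s • (1 : Matrix (Option K) (Option K) ℝ))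
      (vecMulVec qv (ct c)) (A * ∑ q, qv q ^ 2 + s) := by
  set n := ∑ k, c k ^ 2 with hn
  set a := ∑ q, qv q ^ 2 with ha
  have n0 : 0 ≤ n := Finset.sum_nonneg fun _ _ => sq_nonneg _
  have a0 : 0 ≤ a := Finset.sum_nonneg fun _ _ => sq_nonneg _
  have hd : ct c ⬝ᵥ ct c = 1 + n := by
    simp [dotProduct, Fintype.sum_option, ct, hn, sq]
  obtain ⟨r, hr⟩ : ∃ r, r = s + (1 + n) := ⟨_, rfl⟩
  have r0 : 0 < r := by rw [hr]; positivity
  have mul : ∀ {I : Type} (u : I → ℝ), vecMulVec u (ct c) * vecMulVec (ct c) (ct c) =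
      (1 + n) • vecMulVec u (ct c) := fun u => by
    rw [vecMulVec_mul_vecMulVec, hd, vecMulVec_smul]
  set Mi : Matrix (Option K) (Option K) ℝ := s⁻¹ • (1 - r⁻¹ • vecMulVec (ct c) (ct c)) with hMi
  have hB : ∀ {I : Type} (u : I → ℝ), vecMulVec u (ct c) * Mi = r⁻¹ • vecMulVec u (ct c) :=
    fun u => by
      rw [hMi, Matrix.mul_smul, Matrix.mul_sub, Matrix.mul_one, Matrix.mul_smul, mul, smul_smul]
      nth_rewrite 1 [← one_smul ℝ (vecMulVec u (ct c))]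
      rw [← sub_smul, smul_smul]
      congr 1
      field_simp
      rw [hr]
      ring
  have hM : (vecMulVec (ct c) (ct c) + s • (1 : Matrix (Option K) (Option K) ℝ)) * Mi = 1 := by
    rw [Matrix.add_mul, hB, Matrix.smul_mul, Matrix.one_mul, hMi, smul_smul,
      mul_inv_cancel₀ hs.ne', one_smul, add_sub_cancel]
  rw [pM_of_inv h A _ Mi hM]
  refine mul_pos (sq_pos_of_ne_zero fun h0 => ?_) ?_
  · have := congrArg Matrix.det hM
    rw [det_mul, h0, zero_mul, det_one] at this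
    exact zero_ne_one this
  have e1 : (vecMulVec qv (ct c) * Mi * (vecMulVec qv (ct c))ᵀ).trace = r⁻¹ * ((1 + n) * a) := by
    rw [hB, Matrix.smul_mul, transpose_vecMulVec, vecMulVec_mul_vecMulVec, hd, trace_smul,
      trace_vecMulVec, dotProduct_smul]
    simp [dotProduct, ha, sq]
  have e2 : ∑ l, Mi (some l) (some l) = s⁻¹ * (Fintype.card K - r⁻¹ * n) := by
    simp [hMi, vecMulVec_apply, ct, hn, sq, ← Finset.mul_sum]
  have e3 : ∑ x, cut (vecMulVec qv (ct c) * Mi) x ^ 2 = r⁻¹ ^ 2 * (a * n) := by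
    rw [hB, Fintype.sum_prod_type, ha, hn, Finset.sum_mul_sum, Finset.mul_sum]
    refine Finset.sum_congr rfl fun q _ => ?_
    rw [Finset.mul_sum]
    refine Finset.sum_congr rfl fun k _ => ?_
    simp only [cut, Matrix.smul_apply, vecMulVec_apply, ct, Option.elim, smul_eq_mul]
    ring
  have e4 := (abs_le.1 (hA (cut (vecMulVec qv (ct c) * Mi)))).1
  rw [e3] at e4
  rw [e1, e2, smul_eq_mul]
  have k2 : (2 : ℝ) ≤ Fintype.card K := by exact_mod_cast Fintype.one_lt_card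
  have i0 : 0 < r⁻¹ := inv_pos.2 r0
  have i1 : r⁻¹ * n ≤ 1 := by
    rw [inv_mul_le_iff₀ r0, hr]
    linarith
  have e5 : A * a + s - A * (r⁻¹ * ((1 + n) * a)) = s * (1 + A * a * r⁻¹) := by
    field_simp
    rw [hr]
    ring
  have e6 : s * (1 + A * a * r⁻¹) * (s⁻¹ * (Fintype.card K - r⁻¹ * n)) =
      (1 + A * a * r⁻¹) * (Fintype.card K - r⁻¹ * n) := by
    field_simp
  rw [e5, e6]
  have p0 : 0 ≤ A * a * r⁻¹ := by positivity
  nlinarith [mul_le_mul_of_nonneg_left i1 p0, mul_le_mul_of_nonneg_left k2 p0]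

theorem pV_delta {α β Q : Type} [Fintype α] [Fintype β] [DecidableEq α] [DecidableEq β]
    [Fintype Q] [Nonempty α] [Nonempty β] (h : Q × (α ⊕ β) → Q × (α ⊕ β) → ℝ) (A : ℝ)
    (hA0 : 0 ≤ A) (hA : ∀ v : Q × (α ⊕ β) → ℝ, |Hq h v| ≤ A * ∑ x, v x ^ 2)
    (qh : Q → α → β → ℝ) (c : α ⊕ β → ℝ) (s : ℝ) (hs : 0 < s) :
    0 < pV h A qh (fun v => eval c (gV A qh v) + s * eV v) := by
  have hx : ∀ l, eval c (xt l) = ct c l := fun l => by cases l <;> simp [xt, ct]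
  have hs' : ∀ a b d, eval c (gV A qh (some (a, b, d))) = ct c a * ct c b * ct c d :=
    fun a b d => by simp only [gV, map_mul, hx]
  have hm : mom (fun v => eval c (gV A qh v)) = fun a b d => ct c a * ct c b * ct c d := by
    rw [mom_of_sym _ ⟨fun a b d => by simp only [hs']; ring, fun a b d => by simp only [hs']; ring⟩]
    simp only [hs']
  have e := pV_add_eV (R := ℝ) h A qh (fun v => eval c (gV A qh v)) s
  simp only [Algebra.algebraMap_self, RingHom.coe_id, id, Matrix.map_id] at e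
  have e1 : Mm (mom fun v => eval c (gV A qh v)) = vecMulVec (ct c) (ct c) := by
    ext l l'
    simp [hm, Mm, vecMulVec_apply, ct]
  have e2 : Bm qh (mom fun v => eval c (gV A qh v)) =
      vecMulVec (fun q => eval c (qP qh q)) (ct c) := by
    ext q l
    simp [hm, Bm, vecMulVec_apply, qP, ct, Finset.sum_mul, mul_assoc]
  have e3 : eval c (gV A qh none) = A * ∑ q, eval c (qP qh q) ^ 2 := by
    simp [gV, sq]
  have : Nontrivial (α ⊕ β) :=
    ⟨Sum.inl (Classical.arbitrary α), Sum.inr (Classical.arbitrary β), Sum.inl_ne_inr⟩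
  rw [e, e1, e2, e3]
  exact delta_pos h A hA0 hA c _ s hs

end Vale.Agent.P256
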