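import Mathlib
import Vale.Agent.P256.SDefs

/-! P256: a checker for integer certificates of `K1`, `K2` for binomial states on `8 × 8`. -/

namespace Vale.Agent.P256

/-- Value of a sparse linear form. -/
def ev (F : ℕ → ℝ) : List (ℕ × ℤ) → ℝ
  | [] => 0
  | e :: l => e.2 * F e.1 + ev F l

def add1 (k : ℕ) (c : ℤ) : List (ℕ × ℤ) → List (ℕ × ℤ)
  | [] => [(k, c)]
  | e :: l => if e.1 = k then (k, e.2 + c) :: l else e :: add1 k c l

def collect : List (ℕ × ℤ) → List (ℕ × ℤ)
  | [] => []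
  | e :: l => add1 e.1 e.2 (collect l)

def isZ (l : List (ℕ × ℤ)) : Bool := (collect l).all fun e => e.2 == 0

def scale (c : ℤ) (l : List (ℕ × ℤ)) : List (ℕ × ℤ) := l.map fun e => (e.1, c * e.2)

theorem ev_add1 (F : ℕ → ℝ) (k : ℕ) (c : ℤ) (l : List (ℕ × ℤ)) :
    ev F (add1 k c l) = c * F k + ev F l := by
  induction l with
  | nil => simp [add1, ev]
  | cons e l ih =>
    simp only [add1]
    split_ifs with h
    · simp only [ev, h]; push_cast; ring
    · simp only [ev, ih]; ring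

theorem ev_collect (F : ℕ → ℝ) (l : List (ℕ × ℤ)) : ev F (collect l) = ev F l := by
  induction l with
  | nil => rfl
  | cons e l ih => simp only [collect, ev_add1, ih, ev]

theorem ev_of_isZ (F : ℕ → ℝ) (l : List (ℕ × ℤ)) (h : isZ l = true) : ev F l = 0 := by
  rw [← ev_collect]
  unfold isZ at h
  generalize collect l = l' at h
  induction l' with
  | nil => rfl
  | cons e l ih =>
    simp only [List.all_cons, Bool.and_eq_true, beq_iff_eq] at h
    simp [ev, h.1, ih h.2]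

theorem ev_append (F : ℕ → ℝ) (l l' : List (ℕ × ℤ)) : ev F (l ++ l') = ev F l + ev F l' := by
  induction l with
  | nil => simp [ev]
  | cons e l ih => simp only [List.cons_append, ev, ih]; ring

theorem ev_scale (F : ℕ → ℝ) (c : ℤ) (l : List (ℕ × ℤ)) : ev F (scale c l) = c * ev F l := by
  induction l with
  | nil => simp [scale, ev]
  | cons e l ih =>
    simp only [scale, List.map_cons, ev] at ih ⊢
    rw [ih]; push_cast; ring

theorem ev_flatMap {ι : Type} (F : ℕ → ℝ) (l : List ι) (g : ι → List (ℕ × ℤ)) :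
    ev F (l.flatMap g) = (l.map fun i => ev F (g i)).sum := by
  induction l with
  | nil => rfl
  | cons e l ih => simp only [List.flatMap_cons, ev_append, ih, List.map_cons, List.sum_cons]

theorem ev_fin {n : ℕ} (F : ℕ → ℝ) (g : Fin n → List (ℕ × ℤ)) :
    ev F ((List.finRange n).flatMap g) = ∑ i, ev F (g i) := by
  rw [ev_flatMap, Fin.sum_univ_def]

def f8 (n : ℕ) : Fin 8 := ⟨n % 8, Nat.mod_lt _ (by decide)⟩

def f16 (n : ℕ) : Fin 16 := ⟨n % 16, Nat.mod_lt _ (by decide)⟩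

def tm (a b : Fin 8) (s : ℕ) (c : ℤ) : ℕ × ℤ :=
  if a.val < b.val then (a.val * 128 + b.val * 16 + s, c) else (b.val * 128 + a.val * 16 + s, -c)

/-- The binomial state with class table `cl` and weights `lam`. -/
def psiG (cl : Fin 8 → Fin 8 → Fin 16) (lam : Fin 8 → Fin 8 → ℤ) : Fin 16 → Fin 8 → Fin 8 → ℝ :=
  fun s i j => if cl i j = s then (lam i j : ℝ) else 0

def unk (W : Fin 8 → Fin 8 → ℕ → ℝ) (n : ℕ) : ℝ := W (f8 (n / 128)) (f8 (n / 16)) (n % 16)

theorem tm_val (W : Fin 8 → Fin 8 → ℕ → ℝ) (hW : ∀ a b s, W a b s = -W b a s) (a b : Fin 8)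
    (s : ℕ) (hs : s < 16) (c : ℤ) : ((tm a b s c).2 : ℝ) * unk W (tm a b s c).1 = c * W a b s := by
  have key : ∀ a b : Fin 8, unk W (a.val * 128 + b.val * 16 + s) = W a b s := by
    intro a b
    have ha := a.2
    have hb := b.2
    unfold unk
    congr 1
    · exact Fin.ext (by simp only [f8]; omega)
    · exact Fin.ext (by simp only [f8]; omega)
    · omega
  unfold tm
  split_ifs
  · simp only [key]
  · simp only [key]; rw [hW a b]; push_cast; ring

section
variable (cl : Fin 8 → Fin 8 → Fin 16) (lam : Fin 8 → Fin 8 → ℤ)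

def eq1 (e : ℕ × ℤ) : List (ℕ × ℤ) :=
  [tm (f8 e.1) (f8 (e.1 / 8)) (cl (f8 (e.1 / 64)) (f8 (e.1 / 512))).val
      (e.2 * lam (f8 (e.1 / 64)) (f8 (e.1 / 512))),
    tm (f8 e.1) (f8 (e.1 / 64)) (cl (f8 (e.1 / 8)) (f8 (e.1 / 512))).val
      (-(e.2 * lam (f8 (e.1 / 8)) (f8 (e.1 / 512)))),
    tm (f8 (e.1 / 8)) (f8 (e.1 / 64)) (cl (f8 e.1) (f8 (e.1 / 512))).val
      (e.2 * lam (f8 e.1) (f8 (e.1 / 512)))]

def d0l (Y : Fin 8 → Fin 8 → List (ℕ × ℤ)) (a a' : Fin 8) (s : Fin 16) : List (ℕ × ℤ) :=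
  (List.finRange 8).flatMap fun j =>
    (if cl a' j = s then scale (lam a' j) (Y a j) else []) ++
      (if cl a j = s then scale (-lam a j) (Y a' j) else [])

def chk1 (N : ℤ) (Y : Fin 8 → Fin 8 → List (ℕ × ℤ)) (X : List (ℕ × ℤ)) (a a' : Fin 8)
    (s : Fin 16) : Bool :=
  isZ (tm a a' s.val (-N) :: (d0l cl lam Y a a' s ++ X.flatMap (eq1 cl lam)))

theorem k1_of_cert (N : ℤ) (hN : N ≠ 0) (Y : Fin 8 → Fin 8 → List (ℕ × ℤ))
    (X : Fin 8 → Fin 8 → Fin 16 → List (ℕ × ℤ))
    (h : ∀ a a' : Fin 8, a < a' → ∀ s, chk1 cl lam N Y (X a a' s) a a' s = true) :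
    K1 (psiG cl lam) := by
  intro Φ hΦ hd
  let W : Fin 8 → Fin 8 → ℕ → ℝ := fun a b s => Φ a b (f16 s)
  have hW : ∀ a b s, W a b s = -W b a s := fun a b s => hΦ _ _ _
  have hf : ∀ s : Fin 16, f16 s.val = s := fun s => Fin.ext (Nat.mod_eq_of_lt s.2)
  have hN' : (N : ℝ) ≠ 0 := by exact_mod_cast hN
  have h1 : ∀ e, ev (unk W) (eq1 cl lam e) = 0 := by
    intro e
    have := hd (f8 e.1) (f8 (e.1 / 8)) (f8 (e.1 / 64)) (f8 (e.1 / 512))
    simp only [d1, psiG, mul_ite, mul_zero, Finset.sum_add_distrib, Finset.sum_sub_distrib,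
      Finset.sum_ite_eq, Finset.mem_univ, if_true] at this
    simp only [eq1, ev, tm_val W hW _ _ _ (Fin.is_lt _), W, hf]
    push_cast
    linear_combination e.2 * this
  refine ⟨fun a j => ev (unk W) (Y a j) / N, ?_⟩
  have h2 : ∀ a a' : Fin 8, a < a' → ∀ s,
      Φ a a' s = d0 (psiG cl lam) (fun a j => ev (unk W) (Y a j) / N) a a' s := by
    intro a a' haa s
    have := ev_of_isZ (unk W) _ (h a a' haa s)
    simp only [ev, tm_val W hW _ _ _ (Fin.is_lt _), ev_append, ev_flatMap (g := eq1 cl lam), h1,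
      List.map_const', List.sum_replicate, smul_zero, add_zero, d0l, ev_fin, W, hf] at this
    have h3 : d0 (psiG cl lam) (fun a j => ev (unk W) (Y a j) / N) a a' s * N = N * Φ a a' s := by
      push_cast at this
      rw [d0, Finset.sum_mul]
      refine Eq.trans (Finset.sum_congr rfl fun j _ => ?_) (by linear_combination this)
      simp only [psiG]
      split_ifs <;> simp only [ev, ev_scale] <;> push_cast <;> field_simp <;> ring
    field_simp
    exact mul_right_cancel₀ hN' (by rw [h3]; ring)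
  intro a a' s
  rcases lt_trichotomy a a' with haa | rfl | haa
  · exact h2 a a' haa s
  · have := hΦ a a s
    simp only [d0, sub_self, Finset.sum_const_zero]
    linarith
  · rw [hΦ, h2 a' a haa s]
    simp only [d0, ← Finset.sum_neg_distrib, neg_sub]

def eq2 (e : ℕ × ℤ) : List (ℕ × ℤ) :=
  (List.finRange 8).flatMap fun j =>
    (if cl (f8 (e.1 / 64)) j = f16 (e.1 / 512) then
      [tm (f8 e.1) (f8 (e.1 / 8)) j.val (e.2 * lam (f8 (e.1 / 64)) j)] else []) ++
    (if cl (f8 (e.1 / 8)) j = f16 (e.1 / 512) then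
      [tm (f8 e.1) (f8 (e.1 / 64)) j.val (-(e.2 * lam (f8 (e.1 / 8)) j))] else []) ++
    (if cl (f8 e.1) j = f16 (e.1 / 512) then
      [tm (f8 (e.1 / 8)) (f8 (e.1 / 64)) j.val (e.2 * lam (f8 e.1) j)] else [])

def chk2 (X : List (ℕ × ℤ)) (a a' j : Fin 8) : Bool :=
  isZ (tm a a' j.val (-1) :: X.flatMap (eq2 cl lam))

theorem k2_of_cert (X : Fin 8 → Fin 8 → Fin 8 → List (ℕ × ℤ))
    (h : ∀ a a' : Fin 8, a < a' → ∀ j, chk2 cl lam (X a a' j) a a' j = true) :
    K2 (psiG cl lam) := by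
  intro Z hZ hd
  let W : Fin 8 → Fin 8 → ℕ → ℝ := fun a b s => Z a b (f8 s)
  have hW : ∀ a b s, W a b s = -W b a s := fun a b s => hZ _ _ _
  have hf : ∀ s : Fin 8, f8 s.val = s := fun s => Fin.ext (Nat.mod_eq_of_lt s.2)
  have hj : ∀ j : Fin 8, j.val < 16 := fun j => by have := j.2; omega
  have h1 : ∀ e, ev (unk W) (eq2 cl lam e) = 0 := by
    intro e
    have := hd (f8 e.1) (f8 (e.1 / 8)) (f8 (e.1 / 64)) (f16 (e.1 / 512))
    rw [eq2, ev_fin, ← mul_zero (e.2 : ℝ), ← this, d2, Finset.mul_sum]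
    refine Finset.sum_congr rfl fun j _ => ?_
    simp only [psiG, ev_append]
    split_ifs <;> simp only [ev, tm_val W hW _ _ _ (hj _), W, hf] <;> push_cast <;> ring
  have h2 : ∀ a a' : Fin 8, a < a' → ∀ j, Z a a' j = 0 := by
    intro a a' haa j
    have := ev_of_isZ (unk W) _ (h a a' haa j)
    simp only [ev, tm_val W hW _ _ _ (hj _), ev_flatMap (g := eq2 cl lam), h1,
      List.map_const', List.sum_replicate, smul_zero, add_zero, W, hf] at this
    push_cast at this
    linarith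
  intro a a' j
  rcases lt_trichotomy a a' with haa | rfl | haa
  · exact h2 a a' haa j
  · have := hZ a a j
    linarith
  · rw [hZ, h2 a' a haa j, neg_zero]

end

end Vale.Agent.P256
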