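import Mathlib
import Vale.Agent.P256.SExD
import Vale.Agent.P256.SExKA
import Vale.Agent.P256.SExKB

/-! P256: Koszul conditions for the explicit state. -/

namespace Vale.Agent.P256

theorem psiZ_eqA : ∀ s i j, psiZ s i j = if clA i j = s then lamA i j else 0 := by
  decide +kernel

theorem psiZ_eqB : ∀ s i j, psiZ s i j = if clB j i = s then lamB j i else 0 := by
  decide +kernel

theorem psiB_eq : psiB = psiG clA lamA := by
  funext s i j
  simp only [psiB, psiG, psiZ_eqA]
  split_ifs <;> simp

theorem sw_psiB_eq : sw psiB = psiG clB lamB := by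
  funext s j i
  simp only [sw, psiB, psiG, psiZ_eqB]
  split_ifs <;> simp

theorem k1_psiB : K1 psiB := psiB_eq ▸ k1A

theorem k2_psiB : K2 psiB := psiB_eq ▸ k2A

theorem k1_sw_psiB : K1 (sw psiB) := sw_psiB_eq ▸ k1B

theorem k2_sw_psiB : K2 (sw psiB) := sw_psiB_eq ▸ k2B

end Vale.Agent.P256
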