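import Mathlib
import Vale.Agent.P256.SLin

/-! P256 task S14: extension of positive definite functionals.

`exists_grid`: `Γ f = ∑ x ∈ Fintype.piFinset (fun _ => (range (d+1)).image (↑)), eval x f`; a nonzero
polynomial of degree `≤ d` does not vanish on the grid
(`MvPolynomial.eq_zero_of_eval_zero_at_prod_finset`, `degreeOf ≤ totalDegree`).
`ext_step`: `L' = L + N • Γ ∘ homogeneousComponent (2d+2)`; for `totalDegree f ≤ d+1`,
`homogeneousComponent (2d+2) (f*f) = (homogeneousComponent (d+1) f)^2`, and it vanishes only if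
`totalDegree f ≤ d`; `finsler` on `restrictTotalDegree K ℝ (d+1)`. -/

namespace Vale.Agent.P256

open MvPolynomial

variable {K : Type} [Fintype K] [DecidableEq K]

theorem exists_grid (d : ℕ) :
    ∃ Γ : MvPolynomial K ℝ →ₗ[ℝ] ℝ, PD Γ d ∧ ∀ f, 0 ≤ Γ (f * f) := by
  classical
  set S : Finset ℝ := (Finset.range (d + 1)).image (fun n : ℕ => (n : ℝ)) with hS
  have hcard : S.card = d + 1 := by
    rw [hS, Finset.card_image_of_injective _ Nat.cast_injective, Finset.card_range]
  refine ⟨∑ x ∈ Fintype.piFinset (fun _ : K => S), (aeval x : MvPolynomial K ℝ →ₐ[ℝ] ℝ).toLinearMap,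
    ?_, ?_⟩
  · intro f hf hd
    have hex : ∃ x : K → ℝ, (∀ i, x i ∈ S) ∧ eval x f ≠ 0 := by
      by_contra hne
      push_neg at hne
      apply hf
      apply eq_zero_of_eval_zero_at_prod_finset f (fun _ => S) _ hne
      intro i
      rw [hcard]
      exact Nat.lt_succ_of_le ((degreeOf_le_totalDegree f i).trans hd)
    obtain ⟨x, hx, hx0⟩ := hex
    simp only [LinearMap.coe_sum, Finset.sum_apply, AlgHom.toLinearMap_apply, map_mul]
    apply Finset.sum_pos' (fun y _ => mul_self_nonneg _)
    refine ⟨x, Fintype.mem_piFinset.2 hx, ?_⟩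
    apply mul_self_pos.2
    simpa [coe_aeval_eq_eval] using hx0
  · intro f
    simp only [LinearMap.coe_sum, Finset.sum_apply, AlgHom.toLinearMap_apply, map_mul]
    exact Finset.sum_nonneg fun y _ => mul_self_nonneg _

omit [Fintype K] [DecidableEq K] in
theorem deg_le_SExt {f : MvPolynomial K ℝ} {m : K →₀ ℕ} (h : coeff m f ≠ 0) :
    m.degree ≤ f.totalDegree :=
  le_totalDegree (mem_support_iff.2 h)

theorem hc_mul_self (d : ℕ) (f : MvPolynomial K ℝ) (hf : f.totalDegree ≤ d) :
    homogeneousComponent (2 * d) (f * f) = homogeneousComponent d f * homogeneousComponent d f := by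
  ext m
  rw [coeff_homogeneousComponent, coeff_mul, coeff_mul]
  split_ifs with hm
  · refine Finset.sum_congr rfl fun x hx => ?_
    have hsum : x.1.degree + x.2.degree = 2 * d := by
      rw [← hm, ← Finset.HasAntidiagonal.mem_antidiagonal.1 hx, map_add]
    rw [coeff_homogeneousComponent, coeff_homogeneousComponent]
    by_cases h1 : coeff x.1 f = 0
    · simp [h1]
    by_cases h2 : coeff x.2 f = 0
    · simp [h2]
    have d1 := (deg_le_SExt h1).trans hf
    have d2 := (deg_le_SExt h2).trans hf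
    rw [if_pos (by omega), if_pos (by omega)]
  · symm
    refine Finset.sum_eq_zero fun x hx => ?_
    have hsum : x.1.degree + x.2.degree = m.degree := by
      rw [← Finset.HasAntidiagonal.mem_antidiagonal.1 hx, map_add]
    rw [coeff_homogeneousComponent, coeff_homogeneousComponent]
    split_ifs with h1 h2
    · omega
    · simp
    · simp
    · simp

theorem ext_step (L : MvPolynomial K ℝ →ₗ[ℝ] ℝ) (d : ℕ) (hL : PD L d) :
    ∃ L' : MvPolynomial K ℝ →ₗ[ℝ] ℝ, PD L' (d + 1) ∧
      ∀ f : MvPolynomial K ℝ, f.totalDegree ≤ 2 * d + 1 → L' f = L f := by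
  obtain ⟨Γ, hΓ, hΓ0⟩ := exists_grid (K := K) (d + 1)
  set V := restrictTotalDegree K ℝ (d + 1) with hV
  let mulV : V →ₗ[ℝ] V →ₗ[ℝ] MvPolynomial K ℝ :=
    (LinearMap.mul ℝ (MvPolynomial K ℝ)).compl₁₂ V.subtype V.subtype
  let T : MvPolynomial K ℝ →ₗ[ℝ] ℝ := Γ ∘ₗ homogeneousComponent (2 * (d + 1))
  have hT : ∀ f : MvPolynomial K ℝ, f.totalDegree ≤ d + 1 → T (f * f) =
      Γ (homogeneousComponent (d + 1) f * homogeneousComponent (d + 1) f) := by
    intro f hf
    simp only [T, LinearMap.comp_apply]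
    rw [hc_mul_self (d + 1) f hf]
  obtain ⟨N, hN⟩ := finsler (mulV.compr₂ L) (mulV.compr₂ T)
    (by
      intro v
      have hv := (mem_restrictTotalDegree K (d + 1) v.1).1 v.2
      have : (mulV.compr₂ T) v v = T (v.1 * v.1) := rfl
      rw [this, hT _ hv]
      exact hΓ0 _)
    (by
      intro v hv0 hz
      have hv := (mem_restrictTotalDegree K (d + 1) v.1).1 v.2
      have e1 : (mulV.compr₂ T) v v = T (v.1 * v.1) := rfl
      have e2 : (mulV.compr₂ L) v v = L (v.1 * v.1) := rfl
      rw [e1, hT _ hv] at hz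
      rw [e2]
      have hz' : homogeneousComponent (d + 1) v.1 = 0 := by
        by_contra hne
        have := hΓ _ hne (homogeneousComponent_isHomogeneous (d + 1) v.1).totalDegree_le
        linarith
      apply hL _ (fun h => hv0 (Subtype.ext h))
      rw [totalDegree]
      apply Finset.sup_le
      intro m hm
      have h1 : coeff m v.1 ≠ 0 := mem_support_iff.1 hm
      have h2 := (deg_le_SExt h1).trans hv
      have h3 : m.degree ≠ d + 1 := by
        intro h
        have := coeff_homogeneousComponent (n := d + 1) (φ := v.1) m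
        rw [hz', if_pos h, coeff_zero] at this
        exact h1 this.symm
      have : m.degree ≤ d := by omega
      exact this)
  refine ⟨L + N • T, ?_, ?_⟩
  · intro f hf hd
    have := hN ⟨f, (mem_restrictTotalDegree K (d + 1) f).2 hd⟩ (fun h => hf (congrArg Subtype.val h))
    exact this
  · intro f hf
    have : homogeneousComponent (2 * (d + 1)) f = 0 :=
      homogeneousComponent_eq_zero _ _ (by omega)
    simp [T, this]

theorem ext_pd (L : MvPolynomial K ℝ →ₗ[ℝ] ℝ) (hL : PD L 2) (D : ℕ) :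
    ∃ L' : MvPolynomial K ℝ →ₗ[ℝ] ℝ, PD L' D ∧
      ∀ f : MvPolynomial K ℝ, f.totalDegree ≤ 4 → L' f = L f := by
  have key : ∀ n : ℕ, ∃ L' : MvPolynomial K ℝ →ₗ[ℝ] ℝ, PD L' (n + 2) ∧
      ∀ f : MvPolynomial K ℝ, f.totalDegree ≤ 4 → L' f = L f := by
    intro n
    induction n with
    | zero => exact ⟨L, hL, fun _ _ => rfl⟩
    | succ n ih =>
      obtain ⟨L1, h1, h2⟩ := ih
      obtain ⟨L2, h3, h4⟩ := ext_step L1 (n + 2) h1
      exact ⟨L2, h3, fun f hf => by rw [h4 f (by omega), h2 f hf]⟩
  obtain ⟨L', h1, h2⟩ := key D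
  exact ⟨L', fun f hf hd => h1 f hf (by omega), h2⟩

end Vale.Agent.P256
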