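import Mathlib
import Vale.Agent.P256.SRig

/-! P256 task S09: the final matrix contradiction.

Let `n0 = N none none > 0`, `R = max |N l l'|`, `η = ε |s|`.  First `s ≠ 0` or treat `s = 0` (then `η = 0`,
the blocks are exact) as follows.  Row `none` of block 1: `g * u a = s * N none (iA a) + O(η)` with
`g = μ - γ none * u none`.  At `a0`: `|g| ≤ |s| (R + ε)`; at `none`: `|g| |u none| ≥ |s| (n0 - ε)`; so for
`s ≠ 0`, `|u none| ≥ c0 := n0 / (2 (R + 1))`, likewise `|v none| ≥ c0`.  Let `P (iA a) = u a / u none`,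
`P (iB b) = v b / v none` (`P none = 1`, `|P| ≤ 1/c0`).  Row `none` of `M` is `M none none • P`, and it is
nonzero as `M` is invertible, so `∑ l', Mi (some l) l' * P l' = 0` (use `Mi * M = 1`, `M` symmetric).
With `lam = γ none * (u none)^2 = γ' none * (v none)^2 + O(η)` and
`(u none)^2 * γ b = lam * P (iB b) + O(η)` (blocks 2 and 4 at `a = none`, `b = none`) all entries of
`Δ = M - s • N - lam • P Pᵀ` are `O(η)`.  For `y = s • (row (some l) of Mi)`: `y ≠ 0` and
`s * y (some l) = yᵀ (s M ... )`: precisely `yᵀ (N + s⁻¹ Δ) = e_l`, so `y (some l) = yᵀ (N + s⁻¹ Δ) y > 0`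
for small `ε` (`N` is uniformly positive definite).  Summing over `l` contradicts the trace condition.
Case `s = 0`: `M` restricted to the blocks is `γ none * u uᵀ`, `u none * u γᵀ = v none * γ' vᵀ`,
`γ' none * v vᵀ`.  If `u none = 0` or `v none = 0` then `M none none = 0`, and row `none` of `M` vanishes
(`M none (iA a) = γ none * u none * u a`; `M none none = μ * u none = ν * v none`; check both cases
with blocks 1, 2, 3, 4), contradiction; otherwise argue as above with `Δ = 0`: `Mi * M = 1` fails on the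
row `some l`. -/

namespace Vale.Agent.P256

open Matrix

theorem fin_pd {I : Type} [Fintype I] [Nonempty I] {N : Matrix I I ℝ} (hN : N.PosDef) :
    ∃ θ : ℝ, 0 < θ ∧ ∀ D : Matrix I I ℝ, (∀ i j, |D i j| ≤ θ) → ∀ x, x ≠ 0 →
      0 < x ⬝ᵥ (N + D) *ᵥ x := by
  obtain ⟨x0, hx0, hmin⟩ := (isCompact_sphere (0 : I → ℝ) 1).exists_isMinOn
    (NormedSpace.sphere_nonempty.2 zero_le_one) (f := fun x => x ⬝ᵥ N *ᵥ x)
    (by fun_prop : Continuous _).continuousOn
  have h0 : 0 < x0 ⬝ᵥ N *ᵥ x0 := hN.dotProduct_mulVec_pos (x := x0) fun h => by simp [h] at hx0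
  obtain ⟨n, hn⟩ : ∃ n : ℝ, n = Fintype.card I := ⟨_, rfl⟩
  have n0 : 0 ≤ n := hn ▸ Nat.cast_nonneg _
  refine ⟨x0 ⬝ᵥ N *ᵥ x0 / (n * n + 1), by positivity, fun D hD x hx => ?_⟩
  have hx' : 0 < ‖x‖ := norm_pos_iff.2 hx
  have h1 : ‖‖x‖⁻¹ • x‖ = 1 := by rw [norm_smul, norm_inv, norm_norm, inv_mul_cancel₀ hx'.ne']
  suffices H : 0 < (‖x‖⁻¹ • x) ⬝ᵥ (N + D) *ᵥ (‖x‖⁻¹ • x) by
    rw [mulVec_smul, smul_dotProduct, dotProduct_smul, smul_eq_mul, smul_eq_mul] at H
    exact (mul_pos_iff_of_pos_left (inv_pos.2 hx')).1 ((mul_pos_iff_of_pos_left (inv_pos.2 hx')).1 H)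
  generalize ‖x‖⁻¹ • x = y at h1
  have h2 : x0 ⬝ᵥ N *ᵥ x0 ≤ y ⬝ᵥ N *ᵥ y := hmin (mem_sphere_zero_iff_norm.2 h1)
  have hy : ∀ i, |y i| ≤ 1 := fun i => h1 ▸ norm_le_pi_norm y i
  have h3 : |y ⬝ᵥ D *ᵥ y| ≤ n * (n * (x0 ⬝ᵥ N *ᵥ x0 / (n * n + 1))) := by
    rw [hn, ← nsmul_eq_mul, ← hn]
    refine (Finset.abs_sum_le_sum_abs _ _).trans (Finset.sum_le_card_nsmul _ _ _ fun i _ => ?_)
    refine rg_mul (hy i) ?_
    rw [hn, ← nsmul_eq_mul, ← hn]
    refine (Finset.abs_sum_le_sum_abs _ _).trans (Finset.sum_le_card_nsmul _ _ _ fun j _ => ?_)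
    rw [mul_comm]
    exact rg_mul (hy j) (hD i j)
  have h4 : n * (n * (x0 ⬝ᵥ N *ᵥ x0 / (n * n + 1))) < x0 ⬝ᵥ N *ᵥ x0 := by
    rw [← mul_assoc, ← mul_div_assoc, div_lt_iff₀ (by positivity)]
    linarith
  rw [add_mulVec, dotProduct_add]
  linarith [(abs_le.1 h3).1]

theorem fin_end {K : Type} [Fintype K] [DecidableEq K] [Nonempty K]
    {N M Mi : Matrix (Option K) (Option K) ℝ} {θ s lam : ℝ}
    (hθ : ∀ D : Matrix (Option K) (Option K) ℝ, (∀ i j, |D i j| ≤ θ) → ∀ x, x ≠ 0 →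
      0 < x ⬝ᵥ (N + D) *ᵥ x) (hM : M.IsSymm) (h1 : M * Mi = 1)
    (h0 : ∑ l, Mi (some l) (some l) = 0) {P : Option K → ℝ}
    (hP : ∀ l, M none l = M none none * P l)
    (hD : ∀ l l', |M l l' - s * N l l' - lam * P l * P l'| ≤ θ * |s|) : False := by
  have h2 : ∀ k l', ∑ l, Mi k l * M l l' = (1 : Matrix _ _ ℝ) k l' := fun k l' => by
    rw [← mul_eq_one_comm.1 h1, mul_apply]
  have m0 : M none none ≠ 0 := fun h => by
    have := congrFun (congrFun h1 none) none
    rw [h] at hP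
    simp only [mul_apply, hP, zero_mul, Finset.sum_const_zero, one_apply_eq] at this
    exact zero_ne_one this
  have hr : ∀ k, ∑ l, Mi (some k) l * P l = 0 := fun k => by
    have := h2 (some k) none
    simp only [← hM.apply _ none] at this
    rw [Finset.sum_congr rfl fun l _ => by rw [hP l, mul_left_comm], ← Finset.mul_sum,
      one_apply_ne (by simp)] at this
    exact (mul_eq_zero.1 this).resolve_left m0
  by_cases hs : s = 0
  · obtain ⟨k⟩ := ‹Nonempty K›
    have := h2 (some k) (some k)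
    simp only [hs, abs_zero, mul_zero, zero_mul, sub_zero, abs_nonpos_iff, sub_eq_zero] at hD
    rw [Finset.sum_congr rfl fun l _ => show _ = lam * P (some k) * (Mi (some k) l * P l) by
      rw [hD]; ring, ← Finset.mul_sum, hr, one_apply_eq, mul_zero] at this
    exact zero_ne_one this
  have hk : ∀ k, 0 < s⁻¹ * Mi (some k) (some k) := fun k => by
    have := hθ (Matrix.of fun l l' => s⁻¹ * (M l l' - s * N l l' - lam * P l * P l'))
      (fun l l' => by
        rw [of_apply, abs_mul, abs_inv, inv_mul_le_iff₀ (abs_pos.2 hs), mul_comm |s|]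
        exact hD l l') (Mi (some k)) fun h => by simpa [h] using h2 (some k) (some k)
    rw [dotProduct_mulVec, show Mi (some k) ᵥ* _ = fun l' => s⁻¹ * (1 : Matrix _ _ ℝ) (some k) l' from
      funext fun l' => ?_] at this
    · simpa [dotProduct, one_apply] using this
    rw [← h2, ← sub_zero (_ * _), ← mul_zero (s⁻¹ * lam * P l'), ← hr k, Finset.mul_sum,
      Finset.mul_sum, ← Finset.sum_sub_distrib]
    refine Finset.sum_congr rfl fun l _ => ?_
    simp only [Matrix.add_apply, of_apply]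
    field_simp
    ring
  have := Finset.sum_pos (fun k _ => hk k) Finset.univ_nonempty
  rw [← Finset.mul_sum, h0, mul_zero] at this
  exact lt_irrefl _ this

theorem fin_low {A : Type} {u n : Option A → ℝ} {a0 : Option A} (hu : Unit1 u a0) {g s ε R : ℝ}
    (hs : s ≠ 0) (hR : ∀ a, |n a| ≤ R) (h : ∀ a, |g * u a - s * n a| ≤ ε * |s|) (h1 : ε ≤ 1)
    (h0 : 0 < n none) (h2 : ε ≤ n none / 2) : 1 ≤ 2 * (R + 1) / n none * |u none| := by
  have s0 := abs_pos.2 hs
  have k1 := (abs_sub_abs_le_abs_sub _ _).trans (h a0)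
  have k2 := (abs_sub_abs_le_abs_sub _ _).trans ((abs_sub_comm _ _).trans_le (h none))
  rw [abs_mul, abs_mul, hu.2] at k1
  rw [abs_mul, abs_mul, abs_of_pos h0] at k2
  have k3 : |g| ≤ |s| * (R + 1) := by nlinarith [hR a0]
  have k4 := mul_le_mul_of_nonneg_right k3 (abs_nonneg (u none))
  rw [div_mul_eq_mul_div, one_le_div h0]
  refine le_of_mul_le_mul_left ?_ s0
  nlinarith

theorem ix_cases {α β : Type} (l : Ix α β) : (∃ a, l = iA a) ∨ ∃ b, l = iB b := by
  rcases l with _ | i | j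
  exacts [.inl ⟨none, rfl⟩, .inl ⟨some i, rfl⟩, .inr ⟨some j, rfl⟩]

theorem fin_mul {p x κ η : ℝ} (hp : |p| ≤ κ) (hx : |x| ≤ η) : |p * x| ≤ κ * η := by
  rw [abs_mul]
  exact mul_le_mul hp hx (abs_nonneg _) ((abs_nonneg _).trans hp)

theorem fin_delta {α β : Type} {N M : Matrix (Ix α β) (Ix α β) ℝ} (hN : N.IsSymm) (hM : M.IsSymm)
    {u γ' : Option α → ℝ} {v γ : Option β → ℝ} {s η κ : ℝ} (hB : Blocks N M u γ' v γ s η)
    {P : Ix α β → ℝ} (hp : ∀ a, u a = u none * P (iA a)) (hq : ∀ b, v b = v none * P (iB b))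
    (hκ : 1 ≤ κ) (hP : ∀ l, |P l| ≤ κ) (l l' : Ix α β) :
    |M l l' - s * N l l' - γ none * u none * u none * P l * P l'| ≤ 5 * κ ^ 2 * η := by
  obtain ⟨b1, b2, -, b4⟩ := hB
  have hη : 0 ≤ η := (abs_nonneg _).trans (b1 none none)
  have k1 : η ≤ κ * η := le_mul_of_one_le_left hη hκ
  have k2 : κ * η ≤ κ * (κ * η) := le_mul_of_one_le_left (hη.trans k1) hκ
  have hAB : ∀ a b, |M (iA a) (iB b) - s * N (iA a) (iB b) -
      γ none * u none * u none * P (iA a) * P (iB b)| ≤ 5 * κ ^ 2 * η := fun a b => by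
    have e1 := abs_le.1 (b2 a b)
    have e2 := abs_le.1 (fin_mul (hP (iA a)) (b2 none b))
    have e3 := abs_le.1 (fin_mul (hP (iA a)) (b4 none b))
    have e4 := abs_le.1 (fin_mul (hP (iA a)) (fin_mul (hP (iB b)) (b1 none none)))
    have e5 := abs_le.1 (fin_mul (hP (iA a)) (fin_mul (hP (iB b)) (b4 none none)))
    rw [hp a] at e1
    rw [hq b, show iB none = iA none from rfl] at e3
    rw [show iB none = iA none from rfl] at e5
    rw [abs_le]
    constructor <;> linarith [e1.1, e1.2, e2.1, e2.2, e3.1, e3.2, e4.1, e4.2, e5.1, e5.2]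
  rcases ix_cases l with ⟨a, rfl⟩ | ⟨b, rfl⟩ <;> rcases ix_cases l' with ⟨a', rfl⟩ | ⟨b', rfl⟩
  · have e1 := abs_le.1 (b1 a a')
    rw [hp a, hp a'] at e1
    rw [abs_le]
    constructor <;> linarith [e1.1, e1.2]
  · exact hAB _ _
  · rw [hM.apply, hN.apply, mul_right_comm]
    exact hAB _ _
  · have e1 := abs_le.1 (b4 b b')
    have e4 := abs_le.1 (fin_mul (hP (iB b)) (fin_mul (hP (iB b')) (b1 none none)))
    have e5 := abs_le.1 (fin_mul (hP (iB b)) (fin_mul (hP (iB b')) (b4 none none)))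
    rw [hq b, hq b'] at e1
    rw [show iB none = iA none from rfl] at e5
    rw [abs_le]
    constructor <;> linarith [e1.1, e1.2, e4.1, e4.2, e5.1, e5.2]

theorem key_final {α β : Type} [Fintype α] [Fintype β] [DecidableEq α] [DecidableEq β]
    [Nonempty α] (N : Matrix (Ix α β) (Ix α β) ℝ) (hN : N.PosDef) :
    ∃ ε : ℝ, 0 < ε ∧ ∀ (M Mi : Matrix (Ix α β) (Ix α β) ℝ), M.IsSymm → M * Mi = 1 →
      ∑ l, Mi (some l) (some l) = 0 →
      ∀ (u : Option α → ℝ) (a0 : Option α) (v : Option β → ℝ) (b0 : Option β),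
      Unit1 u a0 → Unit1 v b0 → ∀ μ ν : ℝ, (∀ a, M none (iA a) = μ * u a) →
      (∀ b, M none (iB b) = ν * v b) → ∀ (s : ℝ) (γ' : Option α → ℝ) (γ : Option β → ℝ),
      ¬ Blocks N M u γ' v γ s (ε * |s|) := by
  obtain ⟨θ, hθ, H⟩ := fin_pd hN
  obtain ⟨R, hR⟩ := (Set.finite_range fun p : Ix α β × Ix α β => |N p.1 p.2|).bddAbove
  have hR' : ∀ l l', |N l l'| ≤ R := fun l l' => hR ⟨(l, l'), rfl⟩
  have n0 : 0 < N none none := hN.diag_pos
  have R0 : 0 ≤ R := (abs_nonneg _).trans (hR' none none)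
  have hNs : N.IsSymm := (conjTranspose_eq_transpose_of_trivial N).symm.trans hN.isHermitian
  refine ⟨min (min 1 (N none none / 2)) (θ / (5 * (2 * (R + 1) / N none none) ^ 2)), by positivity,
    fun M Mi hM h1 h0 u a0 v b0 hu hv μ ν hμ hν s γ' γ hB => ?_⟩
  have e1 := min_le_left (min 1 (N none none / 2)) (θ / (5 * (2 * (R + 1) / N none none) ^ 2))
  have e2 := min_le_right (min 1 (N none none / 2)) (θ / (5 * (2 * (R + 1) / N none none) ^ 2))
  generalize min (min 1 (N none none / 2)) (θ / (5 * (2 * (R + 1) / N none none) ^ 2)) = ε at *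
  rw [le_min_iff] at e1
  rw [le_div_iff₀ (by positivity)] at e2
  obtain ⟨κ, k1, k2, k3⟩ : ∃ κ : ℝ, 1 ≤ κ * |u none| ∧ 1 ≤ κ * |v none| ∧
      5 * κ ^ 2 * (ε * |s|) ≤ θ * |s| := by
    obtain ⟨b1, b2, b3, b4⟩ := hB
    by_cases hs : s = 0
    · simp only [hs, abs_zero, mul_zero, zero_mul, sub_zero, abs_nonpos_iff, sub_eq_zero]
        at b1 b2 b3 b4
      have hrow : ¬ ∀ l, M none l = 0 := fun h => by
        simpa [mul_apply, h] using congrFun (congrFun h1 none) none
      have u0 : u none ≠ 0 := fun h => hrow fun l => by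
        rcases ix_cases l with ⟨a, rfl⟩ | ⟨b, rfl⟩
        · exact (b1 none a).trans (by simp [h])
        · exact (b2 none b).trans (by simp [h])
      have v0 : v none ≠ 0 := fun h => hrow fun l => by
        rcases ix_cases l with ⟨a, rfl⟩ | ⟨b, rfl⟩
        · exact (hM.apply _ _).trans ((b3 a none).trans (by simp [h]))
        · exact (b4 none b).trans (by simp [h])
      refine ⟨|u none|⁻¹ + |v none|⁻¹, ?_, ?_, by simp [hs]⟩
      · rw [add_mul, inv_mul_cancel₀ (abs_ne_zero.2 u0)]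
        exact le_add_of_nonneg_right (by positivity)
      · rw [add_mul, inv_mul_cancel₀ (abs_ne_zero.2 v0)]
        exact le_add_of_nonneg_left (by positivity)
    · refine ⟨_, fin_low hu (n := fun a => N none (iA a)) (g := μ - γ none * u none) hs
        (fun a => hR' _ _) (fun a => ?_) e1.1 n0 e1.2, fin_low hv (n := fun b => N none (iB b))
        (g := ν - γ' none * v none) hs (fun a => hR' _ _) (fun b => ?_) e1.1 n0 e1.2, ?_⟩
      · refine le_of_eq_of_le (congrArg _ ?_) (b1 none a)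
        rw [sub_mul, ← hμ]
        exact sub_right_comm _ _ _
      · refine le_of_eq_of_le (congrArg _ ?_) (b4 none b)
        rw [sub_mul, ← hν]
        exact sub_right_comm _ _ _
      · rw [← mul_assoc, mul_comm _ ε]
        exact mul_le_mul_of_nonneg_right e2 (abs_nonneg _)
  have u0 : u none ≠ 0 := fun h => by norm_num [h] at k1
  have v0 : v none ≠ 0 := fun h => by norm_num [h] at k2
  obtain ⟨P, hp, hq⟩ : ∃ P : Ix α β → ℝ, (∀ a, P (iA a) = u a / u none) ∧
      ∀ b, P (iB b) = v b / v none := by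
    refine ⟨fun l => l.elim 1 (Sum.elim (fun i => u (some i) / u none) fun j => v (some j) / v none),
      ?_, ?_⟩
    · rintro (_ | a)
      exacts [(div_self u0).symm, rfl]
    · rintro (_ | b)
      exacts [(div_self v0).symm, rfl]
  have hP : ∀ l, |P l| ≤ κ := fun l => by
    rcases ix_cases l with ⟨a, rfl⟩ | ⟨b, rfl⟩
    · rw [hp, abs_div, div_le_iff₀ (abs_pos.2 u0)]
      exact (hu.1 a).trans k1
    · rw [hq, abs_div, div_le_iff₀ (abs_pos.2 v0)]
      exact (hv.1 b).trans k2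
  have hκ : 1 ≤ κ := by simpa [hp, u0] using hP (iA none)
  refine fin_end H hM h1 h0 (P := P) (fun l => ?_) fun l l' => (fin_delta hNs hM hB
    (fun a => by rw [hp]; field_simp) (fun b => by rw [hq]; field_simp) hκ hP l l').trans k3
  rcases ix_cases l with ⟨a, rfl⟩ | ⟨b, rfl⟩
  · rw [hp, hμ, show M none none = _ from hμ none]
    field_simp
  · rw [hq, hν, show M none none = _ from hν none]
    field_simp

end Vale.Agent.P256
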