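import Mathlib
import Vale.Agent.P256.SBasic

/-! P256 task S05: translations and dilations.

`G = Gm c ε` has inverse `Gm (-ε⁻¹ • c) ε⁻¹` and `det G = ε ^ card K` (or just: `det G ≠ 0`, which is
all that `pM_act_neg` needs).  `Mi' = G⁻¹ᵀ * Mi * G⁻¹`, and
`Bm' * Mi' = (ε^2 • Bm * Mi + Cm) * G⁻¹`; the columns `some l` of `G⁻¹` are `ε⁻¹ e_l`.
`pM_act_neg`: `pM_of_inv` on both sides, `Hq_smul`, `hinv`; the bracket is multiplied by `ε^2`.
`pV_sub_neg`: put `m a b d = L (xt a * xt b * xt d)`; `sub c ε (xt a) = ∑ a', C (G a a') * xt a'`, so the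
moments of `L ∘ sub` are `act G m`; `sub c ε (qP q) = ε^2 qP q + ∑ l, C (Cm q l) * xt l`.  `Mm m` is
positive definite by `PD L 2` (apply it to `∑ l, C (y l) * xt l`, nonzero for `y ≠ 0`), so invertible. -/

namespace Vale.Agent.P256

open MvPolynomial Matrix

variable {α β Q : Type} [Fintype α] [Fintype β] [DecidableEq α] [DecidableEq β] [Fintype Q]

section Aux

variable {K : Type} [Fintype K] [DecidableEq K]

theorem trans_row0 (c : K → ℝ) (ε : ℝ) (f : Option K → ℝ) :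
    ∑ l, Gm c ε none l * f l = f none := by
  simp [Fintype.sum_option, Gm]

theorem trans_row1 (c : K → ℝ) (ε : ℝ) (k : K) (f : Option K → ℝ) :
    ∑ l, Gm c ε (some k) l * f l = c k * f none + ε * f (some k) := by
  simp [Fintype.sum_option, Gm]

theorem trans_col (c : K → ℝ) (ε : ℝ) (k : K) (f : Option K → ℝ) :
    ∑ l, f l * Gm c ε l (some k) = ε * f (some k) := by
  simp [Fintype.sum_option, Gm, mul_comm]

theorem trans_inv (c : K → ℝ) {ε : ℝ} (hε : ε ≠ 0) :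
    Gm c ε * Gm (-ε⁻¹ • c) ε⁻¹ = 1 := by
  ext l l'
  rw [Matrix.mul_apply]
  rcases l with _ | k
  · rw [trans_row0]
    rcases l' with _ | k' <;> simp [Gm]
  · rw [trans_row1]
    rcases l' with _ | k'
    · simp [Gm, hε]
    · by_cases h : k = k' <;> simp [Gm, hε, h, Matrix.one_apply]

theorem trans_sub_xt (c : K → ℝ) (ε : ℝ) (a : Option K) :
    sub c ε (xt a) = ∑ a', Gm c ε a a' • (xt a' : MvPolynomial K ℝ) := by
  rcases a with _ | k
  · simp [Fintype.sum_option, Gm, xt]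
  · simp [Fintype.sum_option, Gm, xt, sub]
    rw [smul_eq_C_mul, smul_eq_C_mul, mul_one]

theorem trans_det (L : MvPolynomial K ℝ →ₗ[ℝ] ℝ) (hL : PD L 2) :
    (Matrix.of fun l l' : Option K => L (xt none * xt l * xt l')).det ≠ 0 := by
  intro h
  obtain ⟨y, hy, h0⟩ := Matrix.exists_mulVec_eq_zero_iff.2 h
  have hf : (∑ l, y l • (xt l : MvPolynomial K ℝ)) ≠ 0 := by
    intro hf
    have e0 := congrArg (eval fun _ => (0 : ℝ)) hf
    simp [Fintype.sum_option, xt] at e0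
    refine hy (funext fun l => ?_)
    rcases l with _ | k
    · exact e0
    · have e1 := congrArg (eval (Pi.single k (1 : ℝ))) hf
      simpa [Fintype.sum_option, xt, e0, Pi.single_apply] using e1
  have hd : (∑ l, y l • (xt l : MvPolynomial K ℝ)).totalDegree ≤ 2 := by
    refine totalDegree_finsetSum_le fun l _ => (totalDegree_smul_le _ _).trans ?_
    rcases l with _ | k <;> simp [xt]
  have h1 := hL _ hf hd
  have h2 : L ((∑ l, y l • (xt l : MvPolynomial K ℝ)) * ∑ l, y l • xt l) =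
      ∑ l, y l * ((Matrix.of fun l l' : Option K => L (xt none * xt l * xt l')) *ᵥ y) l := by
    rw [Finset.sum_mul, map_sum]
    refine Finset.sum_congr rfl fun l _ => ?_
    rw [smul_mul_assoc, map_smul, Finset.mul_sum, map_sum, smul_eq_mul]
    refine congrArg _ (Finset.sum_congr rfl fun l' _ => ?_)
    rw [mul_smul_comm, map_smul, smul_eq_mul, mul_comm]
    simp [xt]
  rw [h2, h0] at h1
  simp at h1

end Aux

theorem trans_swap {I J K : Type} [Fintype I] [Fintype J] [Fintype K] (a : I → J → ℝ)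
    (T : I → J → K → ℝ) (g : K → ℝ) :
    ∑ i, ∑ j, a i j * ∑ k, T i j k * g k = ∑ k, (∑ i, ∑ j, a i j * T i j k) * g k := by
  simp only [Finset.mul_sum, Finset.sum_mul, mul_assoc]
  rw [Finset.sum_congr rfl fun i _ => Finset.sum_comm, Finset.sum_comm]

theorem trans_act {I : Type} [Fintype I] (G : Matrix I I ℝ) (m : I → I → I → ℝ) (a b c : I) :
    act G m a b c = ∑ c', (∑ a', G a a' * ∑ b', G b b' * m a' b' c') * G c c' := by
  unfold act
  simp only [Finset.mul_sum, Finset.sum_mul]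
  rw [Finset.sum_comm (γ := I) (α := I) (f := fun c' a' => ∑ b', G a a' * (G b b' * m a' b' c') * G c c')]
  refine Finset.sum_congr rfl fun a' _ => ?_
  rw [Finset.sum_comm]
  exact Finset.sum_congr rfl fun _ _ => Finset.sum_congr rfl fun _ _ => by ring

theorem sym3_act {I : Type} [Fintype I] (G : Matrix I I ℝ) (m : I → I → I → ℝ) (hm : Sym3 m) :
    Sym3 (act G m) := by
  refine ⟨fun a b c => ?_, fun a b c => ?_⟩
  · unfold act
    rw [Finset.sum_comm]
    refine Finset.sum_congr rfl fun x _ => Finset.sum_congr rfl fun y _ =>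
      Finset.sum_congr rfl fun z _ => ?_
    rw [hm.1 y x z]
    ring
  · unfold act
    refine Finset.sum_congr rfl fun x _ => ?_
    rw [Finset.sum_comm]
    refine Finset.sum_congr rfl fun y _ => Finset.sum_congr rfl fun z _ => ?_
    rw [hm.2 x z y]
    ring

theorem Mm_act (c : α ⊕ β → ℝ) (ε : ℝ) (m : Ix α β → Ix α β → Ix α β → ℝ) :
    Mm (act (Gm c ε) m) = Gm c ε * Mm m * (Gm c ε)ᵀ := by
  ext l l'
  rw [Matrix.mul_apply]
  show act (Gm c ε) m none l l' = _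
  rw [trans_act]
  refine Finset.sum_congr rfl fun c' _ => ?_
  rw [trans_row0 c ε fun a' => ∑ b', Gm c ε l b' * m a' b' c']
  rfl

theorem Bm_act (qh : Q → α → β → ℝ) (c : α ⊕ β → ℝ) (ε : ℝ) (m : Ix α β → Ix α β → Ix α β → ℝ)
    (hm : Sym3 m) :
    Bm qh (act (Gm c ε) m) = (ε ^ 2 • Bm qh m + Cm qh c ε * Mm m) * (Gm c ε)ᵀ := by
  ext q l
  rw [Matrix.mul_apply]
  show ∑ i, ∑ j, qh q i j • act (Gm c ε) m (some (Sum.inl i)) (some (Sum.inr j)) l = _
  simp only [trans_act, smul_eq_mul]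
  rw [trans_swap]
  refine Finset.sum_congr rfl fun c' _ => ?_
  refine congrArg (· * Gm c ε l c') ?_
  simp only [trans_row1]
  simp only [Matrix.add_apply, Matrix.smul_apply, Matrix.mul_apply, Fintype.sum_option,
    Fintype.sum_sum_type, Bm, Cm, Mm, rr, Matrix.of_apply, smul_eq_mul, Finset.mul_sum,
    Finset.sum_mul, hm.1 (some _) none]
  rw [Finset.sum_comm (f := fun (j : β) (i : α) =>
    ε * (qh q i j * c (Sum.inl i)) * m none (some (Sum.inr j)) c')]
  simp only [← Finset.sum_add_distrib]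
  exact Finset.sum_congr rfl fun i _ => Finset.sum_congr rfl fun j _ => by ring

theorem act_inv (qh : Q → α → β → ℝ) (c : α ⊕ β → ℝ) (ε : ℝ) (hε : ε ≠ 0)
    (m : Ix α β → Ix α β → Ix α β → ℝ) (hm : Sym3 m) (Mi : Matrix (Ix α β) (Ix α β) ℝ)
    (hMi : Mm m * Mi = 1) :
    ∃ Mi' : Matrix (Ix α β) (Ix α β) ℝ, Mm (act (Gm c ε) m) * Mi' = 1 ∧
      ∑ l, Mi' (some l) (some l) = (ε ^ 2)⁻¹ * ∑ l, Mi (some l) (some l) ∧
      cut (Bm qh (act (Gm c ε) m) * Mi') = ε • cut (Bm qh m * Mi) + rr qh c ∧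
      (Bm qh (act (Gm c ε) m) * Mi' * (Bm qh (act (Gm c ε) m))ᵀ).trace =
        ε ^ 4 * (Bm qh m * Mi * (Bm qh m)ᵀ).trace + 2 * ε ^ 2 * (Cm qh c ε * (Bm qh m)ᵀ).trace +
          (Cm qh c ε * Mm m * (Cm qh c ε)ᵀ).trace := by
  have h1 := trans_inv c hε
  have h2 := mul_eq_one_comm.1 h1
  have h3 : (Gm c ε)ᵀ * (Gm (-ε⁻¹ • c) ε⁻¹)ᵀ = 1 := by
    rw [← Matrix.transpose_mul, h2, Matrix.transpose_one]
  have hc := trans_col (-ε⁻¹ • c) ε⁻¹
  generalize Gm (-ε⁻¹ • c) ε⁻¹ = G' at h1 h2 h3 hc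
  have hMi' := mul_eq_one_comm.1 hMi
  have hs : (Mm m)ᵀ = Mm m := by
    ext l l'
    exact hm.2 none l' l
  have h4 : Bm qh (act (Gm c ε) m) * (G'ᵀ * Mi * G') =
      (ε ^ 2 • (Bm qh m * Mi) + Cm qh c ε) * G' := by
    rw [Bm_act qh c ε m hm, ← Matrix.mul_assoc, ← Matrix.mul_assoc, Matrix.mul_assoc _ _ G'ᵀ, h3,
      Matrix.mul_one, Matrix.add_mul _ _ Mi, Matrix.mul_assoc _ _ Mi, hMi, Matrix.mul_one,
      Matrix.smul_mul]
  refine ⟨G'ᵀ * Mi * G', ?_, ?_, ?_, ?_⟩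
  · rw [Mm_act, ← Matrix.mul_assoc, ← Matrix.mul_assoc, Matrix.mul_assoc _ _ G'ᵀ, h3,
      Matrix.mul_one, Matrix.mul_assoc _ _ Mi, hMi, Matrix.mul_one, h1]
  · rw [Finset.mul_sum]
    refine Finset.sum_congr rfl fun l _ => ?_
    rw [Matrix.mul_apply, hc, Matrix.mul_apply]
    simp only [Matrix.transpose_apply, mul_comm (G' _ _)]
    rw [hc l fun x => Mi x (some l)]
    ring
  · funext x
    rw [h4]
    show ((ε ^ 2 • (Bm qh m * Mi) + Cm qh c ε) * G') x.1 (some x.2) =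
      ε * (Bm qh m * Mi) x.1 (some x.2) + rr qh c x
    rw [Matrix.mul_apply, hc]
    show ε⁻¹ * (ε ^ 2 * (Bm qh m * Mi) x.1 (some x.2) + ε * rr qh c x) = _
    field_simp
  · rw [h4, Bm_act qh c ε m hm, Matrix.transpose_mul, Matrix.transpose_transpose,
      ← Matrix.mul_assoc, Matrix.mul_assoc _ G', h2, Matrix.mul_one, Matrix.transpose_add,
      Matrix.transpose_smul, Matrix.transpose_mul, hs, Matrix.add_mul, Matrix.mul_add,
      Matrix.mul_add, Matrix.smul_mul, Matrix.smul_mul, Matrix.mul_smul, Matrix.mul_smul,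
      ← Matrix.mul_assoc _ (Mm m), Matrix.mul_assoc _ Mi (Mm m), hMi', Matrix.mul_one,
      ← Matrix.mul_assoc _ (Mm m)]
    have h5 : (Bm qh m * (Cm qh c ε)ᵀ).trace = (Cm qh c ε * (Bm qh m)ᵀ).trace := by
      rw [← Matrix.trace_transpose, Matrix.transpose_mul, Matrix.transpose_transpose]
    simp only [Matrix.trace_add, Matrix.trace_smul, smul_eq_mul, h5]
    ring

theorem pM_act_neg (h : Q × (α ⊕ β) → Q × (α ⊕ β) → ℝ) (A : ℝ) (qh : Q → α → β → ℝ)
    (hinv : ∀ (v : Q × (α ⊕ β) → ℝ) (c : α ⊕ β → ℝ), Hq h (v + rr qh c) = Hq h v)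
    (c : α ⊕ β → ℝ) (ε : ℝ) (hε : ε ≠ 0) (m : Ix α β → Ix α β → Ix α β → ℝ) (hm : Sym3 m)
    (Mi : Matrix (Ix α β) (Ix α β) ℝ) (hMi : Mm m * Mi = 1) (w : ℝ)
    (hneg : pM h A (Mm m) (Bm qh m) w < 0) :
    pM h A (Mm (act (Gm c ε) m)) (Bm qh (act (Gm c ε) m))
      (ε ^ 4 * w + A * (2 * ε ^ 2 * (Cm qh c ε * (Bm qh m)ᵀ).trace +
        (Cm qh c ε * Mm m * (Cm qh c ε)ᵀ).trace)) < 0 := by
  obtain ⟨Mi', h1, h2, h3, h4⟩ := act_inv qh c ε hε m hm Mi hMi
  rw [pM_of_inv h A _ _ hMi] at hneg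
  have hb := neg_of_mul_neg_right hneg (sq_nonneg _)
  have hd : (Mm (act (Gm c ε) m)).det ≠ 0 := fun h0 => by
    have := congrArg Matrix.det h1
    rw [Matrix.det_mul, h0, zero_mul, Matrix.det_one] at this
    exact zero_ne_one this
  rw [pM_of_inv h A _ _ h1, h2, h3, h4, hinv, Hq_smul]
  refine mul_neg_of_pos_of_neg (by positivity) ?_
  refine lt_of_eq_of_lt ?_ (mul_neg_of_pos_of_neg (show 0 < ε ^ 2 by positivity) hb)
  simp only [smul_eq_mul]
  field_simp
  ring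

theorem trans_sub_qP (qh : Q → α → β → ℝ) (c : α ⊕ β → ℝ) (ε : ℝ) (q : Q) :
    sub c ε (qP qh q) = ε ^ 2 • qP qh q + ∑ l, Cm qh c ε q l • xt l := by
  simp only [qP, sub, map_sum, map_mul, aeval_C, aeval_X, Fintype.sum_option, Fintype.sum_sum_type,
    Cm, rr, Matrix.of_apply, xt, Option.elim, smul_eq_C_mul, Finset.mul_sum, Finset.sum_mul,
    algebraMap_eq, map_pow]
  rw [Finset.sum_comm (f := fun (j : β) (i : α) =>
    C ε * (C (qh q i j) * C (c (Sum.inl i))) * (X (Sum.inr j) : MvPolynomial (α ⊕ β) ℝ))]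
  simp only [← Finset.sum_add_distrib]
  exact Finset.sum_congr rfl fun i _ => Finset.sum_congr rfl fun j _ => by ring

theorem trans_sym (L : MvPolynomial (α ⊕ β) ℝ → ℝ) :
    Sym3 fun a b c : Ix α β => L (xt a * xt b * xt c) :=
  ⟨fun a _ _ => congrArg L (by rw [mul_comm (xt a)]), fun _ _ _ => congrArg L (mul_right_comm _ _ _)⟩

theorem pV_sub_neg (h : Q × (α ⊕ β) → Q × (α ⊕ β) → ℝ) (A : ℝ) (qh : Q → α → β → ℝ)
    (hinv : ∀ (v : Q × (α ⊕ β) → ℝ) (c : α ⊕ β → ℝ), Hq h (v + rr qh c) = Hq h v)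
    (L : MvPolynomial (α ⊕ β) ℝ →ₗ[ℝ] ℝ) (hL : PD L 2)
    (hneg : pV h A qh (fun v => L (gV A qh v)) < 0) (c : α ⊕ β → ℝ) (ε : ℝ) (hε : ε ≠ 0) :
    pV h A qh (fun v => L (sub c ε (gV A qh v))) < 0 := by
  obtain ⟨m, hm⟩ : ∃ m : Ix α β → Ix α β → Ix α β → ℝ, m = fun a b d => L (xt a * xt b * xt d) :=
    ⟨_, rfl⟩
  have hs : Sym3 m := hm ▸ trans_sym L
  have e1 : mom (fun v => L (gV A qh v)) = m := by
    rw [mom_of_sym _ (trans_sym L), hm]
    rfl
  have e2 : mom (fun v => L (sub c ε (gV A qh v))) = act (Gm c ε) m := by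
    rw [mom_of_sym _ (trans_sym fun f => L (sub c ε f)), hm]
    funext a b d
    show L (sub c ε (xt a * xt b * xt d)) = _
    unfold act
    rw [map_mul (sub c ε), map_mul (sub c ε), trans_sub_xt, trans_sub_xt, trans_sub_xt, Finset.sum_mul_sum,
      Finset.sum_mul, map_sum]
    refine Finset.sum_congr rfl fun a' _ => ?_
    rw [Finset.sum_mul_sum, map_sum]
    refine Finset.sum_congr rfl fun b' _ => ?_
    rw [map_sum]
    refine Finset.sum_congr rfl fun d' _ => ?_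
    rw [smul_mul_smul_comm, smul_mul_smul_comm, map_smul, smul_eq_mul]
  have hB : ∀ q l, Bm qh m q l = L (qP qh q * xt l) := fun q l => by
    simp only [Bm, Matrix.of_apply, hm, qP, Finset.sum_mul, map_sum]
    refine Finset.sum_congr rfl fun i _ => Finset.sum_congr rfl fun j _ => ?_
    rw [← map_smul, smul_eq_C_mul]
    simp only [xt, Option.elim, mul_assoc]
  have hM : ∀ l l', Mm m l l' = L (xt l * xt l') := fun l l' => by
    simp [Mm, hm, xt]
  have e3 : L (sub c ε (gV A qh none)) = ε ^ 4 * L (gV A qh none) +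
      A * (2 * ε ^ 2 * (Cm qh c ε * (Bm qh m)ᵀ).trace +
        (Cm qh c ε * Mm m * (Cm qh c ε)ᵀ).trace) := by
    have k : ∀ q, L (sub c ε (qP qh q * qP qh q)) = ε ^ 4 * L (qP qh q * qP qh q) +
        (2 * ε ^ 2 * (Cm qh c ε * (Bm qh m)ᵀ) q q + (Cm qh c ε * Mm m * (Cm qh c ε)ᵀ) q q) := by
      intro q
      have k1 : L (qP qh q * ∑ l, Cm qh c ε q l • xt l) = (Cm qh c ε * (Bm qh m)ᵀ) q q := by
        rw [Finset.mul_sum, map_sum, Matrix.mul_apply]
        refine Finset.sum_congr rfl fun l _ => ?_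
        rw [mul_smul_comm, map_smul, smul_eq_mul, Matrix.transpose_apply, hB]
      have k2 : L ((∑ l, Cm qh c ε q l • xt l) * ∑ l, Cm qh c ε q l • xt l) =
          (Cm qh c ε * Mm m * (Cm qh c ε)ᵀ) q q := by
        rw [Finset.mul_sum, map_sum, Matrix.mul_apply]
        refine Finset.sum_congr rfl fun l _ => ?_
        rw [mul_smul_comm, map_smul, smul_eq_mul, Matrix.transpose_apply, mul_comm, Finset.sum_mul,
          map_sum, Matrix.mul_apply]
        refine congrArg (· * _) (Finset.sum_congr rfl fun l' _ => ?_)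
        rw [smul_mul_assoc, map_smul, smul_eq_mul, hM]
      rw [map_mul (sub c ε), trans_sub_qP, ← k1, ← k2]
      generalize (∑ l, Cm qh c ε q l • xt l : MvPolynomial (α ⊕ β) ℝ) = s
      rw [add_mul, mul_add, mul_add, smul_mul_smul_comm, smul_mul_assoc, mul_smul_comm, mul_comm s]
      simp only [map_add, map_smul, smul_eq_mul]
      ring
    show L (sub c ε (C A * ∑ q, qP qh q * qP qh q)) = ε ^ 4 * L (C A * ∑ q, qP qh q * qP qh q) + _
    rw [← smul_eq_C_mul, map_smul, map_smul, map_smul, map_sum, map_sum, map_sum]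
    simp only [k, smul_eq_mul, Matrix.trace, Matrix.diag_apply, Finset.sum_add_distrib,
      ← Finset.mul_sum]
    ring
  have hd : (Mm m).det ≠ 0 := by
    rw [hm]
    exact trans_det L hL
  unfold pV at hneg ⊢
  rw [e1] at hneg
  beta_reduce
  rw [e2, e3]
  exact pM_act_neg h A qh hinv c ε hε m hs _
    (Matrix.mul_nonsing_inv _ (isUnit_iff_ne_zero.2 hd)) _ hneg

end Vale.Agent.P256
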