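import Mathlib
import Vale.Agent.P256.SLin
import Vale.Agent.P256.STrans

/-! P256 task S11: construction of the quadratic form `h`.

`rr qh` is linear in `c`.  First `rr qh c ≠ π`: take `d : Ix α β → ℝ` with `d none = 1`, `d (some k0) =
-1/(k-1)`, `d = 1` elsewhere (`k = card (α ⊕ β) ≥ 2`), and the symmetric tensor `m a b c =
if a = none ∧ b = c then d b else if b = none ∧ a = c then d a else if c = none ∧ a = b then d a else 0`;
`Mm m = diagonal d`, `Bm qh m = 0`, the inverse has traceless block; `act_inv` with `ε = 1` gives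
`cut = rr qh c`, contradicting `KeyP` if `rr qh c = π`.  Take `t, Z` from `exists_tZ` and `h` with
`Hq h v = ε⁻¹^2 * ∑ x, (Z v x)^2 - (t v)^2` (`h x y = ε⁻¹^2 * ∑ z, Z (e x) z * Z (e y) z - t (e x) * t (e y)`,
`e x = Pi.single x 1`), `A = ∑ x y, |h x y|`.  If `Hq h v < 0` for `v = cut (Bm * Mi)` then `t v ≠ 0`,
`|Z v x| ≤ ε |t v|`, `v = t v • π + rr c + Z v`; `act_inv` with `(t v)⁻¹` and `-(t v)⁻¹ • c` gives
`cut' = π + (t v)⁻¹ • Z v`, contradicting `KeyP`. -/

namespace Vale.Agent.P256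

section

variable {α β Q : Type} [Fintype α] [Fintype β] [DecidableEq α] [DecidableEq β] [Fintype Q]

/-- `rr` as a linear map. -/
noncomputable def sformR (qh : Q → α → β → ℝ) : (α ⊕ β → ℝ) →ₗ[ℝ] (Q × (α ⊕ β) → ℝ) where
  toFun := rr qh
  map_add' := fun c c' => by
    ext ⟨q, k⟩
    cases k <;> simp [rr, mul_add, Finset.sum_add_distrib]
  map_smul' := fun t c => by
    ext ⟨q, k⟩
    cases k <;> simp [rr, Finset.mul_sum, mul_left_comm]

/-- a tensor with diagonal moment matrix -/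
def sformM {K : Type} [DecidableEq K] (d : Option K → ℝ) : Option K → Option K → Option K → ℝ
  | none, b, c => if b = c then d b else 0
  | some a, none, c => if some a = c then d (some a) else 0
  | some a, some b, none => if a = b then d (some a) else 0
  | some _, some _, some _ => 0

theorem sform_sym {K : Type} [DecidableEq K] (d : Option K → ℝ) : Sym3 (sformM d) := by
  constructor <;> rintro (_ | a) (_ | b) (_ | c) <;> simp only [sformM] <;>
    split_ifs <;> simp_all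

theorem sform_ne [Nonempty α] [Nonempty β] (qh : Q → α → β → ℝ) (π : Q × (α ⊕ β) → ℝ) (ε : ℝ)
    (hε : 0 < ε) (hk : KeyP qh π ε) (c : α ⊕ β → ℝ) : rr qh c ≠ π := by
  intro h
  have : Nontrivial (α ⊕ β) :=
    ⟨Sum.inl (Classical.arbitrary α), Sum.inr (Classical.arbitrary β), Sum.inl_ne_inr⟩
  have k2 : (2 : ℝ) ≤ Fintype.card (α ⊕ β) := by exact_mod_cast Fintype.one_lt_card
  obtain ⟨k0⟩ : Nonempty (α ⊕ β) := inferInstance
  set e : Ix α β → ℝ := fun l => 1 - if l = some k0 then (Fintype.card (α ⊕ β) : ℝ) else 0 with he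
  have e0 : ∀ l, e l ≠ 0 := fun l => by
    simp only [he]
    split_ifs
    · linarith
    · norm_num
  have h1 : Mm (sformM fun l => (e l)⁻¹) * Matrix.diagonal e = 1 := by
    have : Mm (sformM fun l => (e l)⁻¹) = Matrix.diagonal fun l => (e l)⁻¹ := by
      ext l l'
      simp [Mm, sformM, Matrix.diagonal_apply]
    rw [this, Matrix.diagonal_mul_diagonal, ← Matrix.diagonal_one]
    congr 1
    funext l
    exact inv_mul_cancel₀ (e0 l)
  have h2 : Bm qh (sformM fun l => (e l)⁻¹) = 0 := by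
    ext q l
    cases l <;> simp [Bm, sformM]
  obtain ⟨Mi, a1, a2, a3, -⟩ := act_inv qh c 1 one_ne_zero _ (sform_sym _) _ h1
  refine hk _ (sym3_act _ _ (sform_sym _)) Mi a1 ?_ fun x => ?_
  · rw [a2]
    simp [he]
  · rw [a3, h2, h]
    simp [cut, hε.le]

theorem sform_lin {ι : Type} [Fintype ι] [DecidableEq ι] (f : (ι → ℝ) →ₗ[ℝ] ℝ) (v : ι → ℝ) :
    f v ^ 2 = ∑ x, ∑ y, f (Pi.single x 1) * f (Pi.single y 1) * (v x * v y) := by
  have : f v = ∑ x, v x * f (Pi.single x 1) := by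
    conv_lhs => rw [← Finset.univ_sum_single v, map_sum]
    refine Finset.sum_congr rfl fun x _ => ?_
    rw [← smul_eq_mul, ← map_smul, ← Pi.single_smul, smul_eq_mul, mul_one]
  rw [this, sq, Finset.sum_mul_sum]
  exact Finset.sum_congr rfl fun x _ => Finset.sum_congr rfl fun y _ => by ring

end

theorem exists_goodH {α β Q : Type} [Fintype α] [Fintype β] [DecidableEq α] [DecidableEq β]
    [Fintype Q] [Nonempty α] [Nonempty β] (qh : Q → α → β → ℝ) (π : Q × (α ⊕ β) → ℝ) (ε : ℝ)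
    (hε : 0 < ε) (hk : KeyP qh π ε) : ∃ h A, GoodH qh π h A := by
  classical
  obtain ⟨t, Z, t0, Z0, t1, Z1, dec⟩ := exists_tZ (sformR qh) π (sform_ne qh π ε hε hk)
  set h : Q × (α ⊕ β) → Q × (α ⊕ β) → ℝ := fun x y =>
    ε⁻¹ ^ 2 * ∑ z, Z (Pi.single x 1) z * Z (Pi.single y 1) z -
      t (Pi.single x 1) * t (Pi.single y 1) with hh
  have hq : ∀ v : Q × (α ⊕ β) → ℝ, Hq h v = ε⁻¹ ^ 2 * ∑ z, Z v z ^ 2 - t v ^ 2 := fun v => by
    have e1 : ∀ z, Z v z ^ 2 = ∑ x, ∑ y, Z (Pi.single x 1) z * Z (Pi.single y 1) z * (v x * v y) :=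
      fun z => sform_lin ((LinearMap.proj z).comp Z) v
    simp only [e1, sform_lin t v, Hq, hh, smul_eq_mul, sub_mul, Finset.sum_sub_distrib]
    congr 1
    rw [Finset.sum_comm (s := Finset.univ) (f := fun z x => ∑ y, Z (Pi.single x 1) z *
      Z (Pi.single y 1) z * (v x * v y)), Finset.mul_sum]
    refine Finset.sum_congr rfl fun x _ => ?_
    rw [Finset.sum_comm, Finset.mul_sum]
    refine Finset.sum_congr rfl fun y _ => ?_
    rw [mul_assoc, Finset.sum_mul]
  refine ⟨h, ∑ x, ∑ y, |h x y|, Finset.sum_nonneg fun _ _ => Finset.sum_nonneg fun _ _ =>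
    abs_nonneg _, fun v => ?_, fun v c => ?_, ?_, fun m hm Mi h1 h2 => ?_⟩
  · rw [Hq, Finset.sum_mul]
    refine (Finset.abs_sum_le_sum_abs _ _).trans (Finset.sum_le_sum fun x _ => ?_)
    rw [Finset.sum_mul]
    refine (Finset.abs_sum_le_sum_abs _ _).trans (Finset.sum_le_sum fun y _ => ?_)
    rw [smul_eq_mul, abs_mul]
    refine mul_le_mul_of_nonneg_left ?_ (abs_nonneg _)
    have s := fun x => Finset.single_le_sum (f := fun x => v x ^ 2) (fun _ _ => sq_nonneg _)
      (Finset.mem_univ x)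
    rw [abs_le]
    constructor <;> nlinarith [s x, s y, sq_nonneg (v x + v y), sq_nonneg (v x - v y)]
  · rw [hq, hq, map_add, map_add, show Z (rr qh c) = 0 from Z0 c, show t (rr qh c) = 0 from t0 c,
      add_zero, add_zero]
  · rw [hq, Z1, t1]
    simp
  · by_contra hn
    set v := cut (Bm qh m * Mi) with hv
    rw [hq, not_le, sub_neg] at hn
    have s0 : 0 ≤ ∑ z, Z v z ^ 2 := Finset.sum_nonneg fun _ _ => sq_nonneg _
    have tv : t v ≠ 0 := fun h0 => by
      rw [h0] at hn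
      nlinarith [mul_nonneg (sq_nonneg ε⁻¹) s0]
    obtain ⟨c, hc⟩ := dec v
    obtain ⟨Mi', a1, a2, a3, -⟩ := act_inv qh (-(t v)⁻¹ • c) (t v)⁻¹ (inv_ne_zero tv) m hm Mi h1
    refine hk _ (sym3_act _ _ hm) Mi' a1 (by rw [a2, h2, mul_zero]) fun x => ?_
    have e1 : rr qh (-(t v)⁻¹ • c) = -(t v)⁻¹ • sformR qh c := map_smul (sformR qh) _ c
    have e2 := congrFun hc x
    simp only [Pi.add_apply, Pi.smul_apply, smul_eq_mul] at e2
    have e3 : ((t v)⁻¹ • v + rr qh (-(t v)⁻¹ • c)) x - π x = Z v x / t v := by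
      rw [e1]
      simp only [Pi.add_apply, Pi.smul_apply, smul_eq_mul]
      field_simp
      linarith
    rw [a3, ← hv, e3]
    refine abs_le_of_sq_le_sq' ?_ hε.le |> abs_le.2
    have s := Finset.single_le_sum (f := fun x => Z v x ^ 2) (fun _ _ => sq_nonneg _)
      (Finset.mem_univ x)
    rw [inv_pow, inv_mul_lt_iff₀ (by positivity)] at hn
    rw [div_pow, div_le_iff₀ (by positivity)]
    exact s.trans hn.le

end Vale.Agent.P256
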