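import Mathlib
import Vale.Agent.P256.SExt

/-! P256 task S16: the pseudo-moment functional.

`exists_fun0`: `xt l = monomial (ex l) 1` with `ex none = 0`, `ex (some k) = single k 1`.  If
`ex (iA a) + ex (iA a') + ex (iB b) + ex (iB b')` agree for two tuples then `{a, a'}` and `{b, b'}` agree as
unordered pairs (evaluate at `inl i`, `inr j`), so `R` agrees.  Define `L0` on the basis of monomials
(`basisMonomials.constr`, or `Finsupp.linearCombination`) by choice.
`exists_fun`: `R a a' b b' = ∑ s, ψ s a b * ψ s a' b' + η * δ`, symmetric by `PT`.  `L = L0 + N • (ΓA + ΓB)`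
with `ΓA f = Γ (homogeneousComponent 4 (kB f))`, `kB = aeval (Sum.elim (X ∘ inl) 0)` killing the `b`
variables (`kB` preserves `totalDegree ≤ 2`), `Γ` from `exists_grid 2`; `ΓA, ΓB` vanish on the products
`xt (iA a) * xt (iA a') * xt (iB b) * xt (iB b')`.  `ΓA (f*f) = Γ (h*h)`, `h = homogeneousComponent 2 (kB f)`
(`hc_mul_self`).  If both vanish, `f` has no monomial `a a'` or `b b'`, so
`f = ∑ a b, C (y a b) * xt (iA a) * xt (iB b)` and `L0 (f*f) = ∑ s, (∑ y ψ)^2 + η ∑ y^2 > 0`.  `finsler`. -/

namespace Vale.Agent.P256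

open MvPolynomial

variable {S α β : Type} [Fintype S] [Fintype α] [Fintype β] [DecidableEq α] [DecidableEq β]

section Aux

variable {K : Type} [Fintype K] [DecidableEq K]

/-- The exponent of `xt l`. -/
noncomputable def funEx (l : Option K) : K →₀ ℕ := l.elim 0 fun k => Finsupp.single k 1

omit [Fintype K] [DecidableEq K] in
theorem fun_xt (l : Option K) : (xt l : MvPolynomial K ℝ) = monomial (funEx l) 1 := by
  rcases l with _ | k <;> rfl

omit [Fintype K] in
theorem fun_ex_apply (l : Option K) (k : K) : funEx l k = if l = some k then 1 else 0 := by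
  rcases l with _ | k'
  · simp [funEx]
  · simp [funEx, Finsupp.single_apply]

omit [Fintype K] in
theorem fun_pair (a a' c c' : Option K)
    (h : ∀ i : K, ((if a = some i then 1 else 0) + if a' = some i then 1 else 0 : ℕ) =
      (if c = some i then 1 else 0) + if c' = some i then 1 else 0) :
    (a = c ∧ a' = c') ∨ (a = c' ∧ a' = c) := by
  have h' : ∀ o : Option K, o ≠ none →
      ((if a = o then 1 else 0) + if a' = o then 1 else 0 : ℕ) =
        (if c = o then 1 else 0) + if c' = o then 1 else 0 := fun o ho => by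
    obtain ⟨i, rfl⟩ := Option.ne_none_iff_exists'.1 ho
    exact h i
  have h1 := h' a
  have h2 := h' a'
  have h3 := h' c
  have h4 := h' c'
  clear h h'
  by_cases e1 : a = none <;> by_cases e2 : a' = none <;> by_cases e3 : c = none <;>
    by_cases e4 : c' = none <;> grind

omit [Fintype K] [DecidableEq K] in
theorem fun_one {d : K →₀ ℕ} (h : d.degree ≤ 1) : ∃ l, d = funEx l := by
  rcases Nat.le_one_iff_eq_zero_or_eq_one.1 h with h | h
  · exact ⟨none, (Finsupp.degree_eq_zero_iff d).1 h⟩
  · obtain ⟨k, hk⟩ := (Set.ext_iff.1 Finsupp.range_single_one d).2 h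
    exact ⟨some k, hk.symm⟩

omit [Fintype K] [DecidableEq K] in
theorem fun_two {d : K →₀ ℕ} (h : d.degree ≤ 2) : ∃ l l', d = funEx l + funEx l' := by
  by_cases h1 : d.degree ≤ 1
  · obtain ⟨l, hl⟩ := fun_one h1
    exact ⟨l, none, hl.trans (add_zero _).symm⟩
  · obtain ⟨g, hg, h2⟩ := Finsupp.exists_le_degree_eq d 1 (by omega)
    obtain ⟨g', rfl⟩ := le_iff_exists_add.1 hg
    rw [map_add] at h
    obtain ⟨l, hl⟩ := fun_one h2.le
    obtain ⟨l', hl'⟩ := fun_one (d := g') (by omega)
    exact ⟨l, l', by rw [hl, hl']⟩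

omit [Fintype K] [DecidableEq K] in
theorem fun_kill {σ : Type} {e : σ → K} (he : Function.Injective e) (p : MvPolynomial K ℝ) :
    (killCompl he p).totalDegree ≤ p.totalDegree := by
  refine Finset.sup_le fun s hs => ?_
  rw [mem_support_iff, coeff_killCompl, ← mem_support_iff] at hs
  exact (Finsupp.degree_mapDomain e s).symm.le.trans (le_totalDegree hs)

omit [Fintype K] [DecidableEq K] in
theorem fun_side {σ : Type} [Fintype σ] [DecidableEq σ] {e : σ → K} (he : Function.Injective e) :
    ∃ G : MvPolynomial K ℝ →ₗ[ℝ] ℝ, (∀ f, f.totalDegree ≤ 2 → 0 ≤ G (f * f)) ∧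
      (∀ f, f.totalDegree ≤ 2 → G (f * f) = 0 → ∀ i i',
        coeff (funEx (some (e i)) + funEx (some (e i'))) f = 0) ∧
      ∀ x y u v : Option K, (∀ i, u ≠ some (e i)) → (∀ i, v ≠ some (e i)) →
        G (xt x * xt y * xt u * xt v) = 0 := by
  obtain ⟨Γ, h1, h2⟩ := exists_grid (K := σ) 2
  have k : ∀ f : MvPolynomial K ℝ, f.totalDegree ≤ 2 →
      (Γ ∘ₗ homogeneousComponent (2 * 2) ∘ₗ (killCompl he).toLinearMap) (f * f) =
        Γ (homogeneousComponent 2 (killCompl he f) * homogeneousComponent 2 (killCompl he f)) :=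
    fun f hf => by
      rw [← hc_mul_self 2 _ ((fun_kill he f).trans hf), ← map_mul]
      rfl
  have d1 : ∀ x : Option K, (killCompl he (xt x : MvPolynomial K ℝ)).totalDegree ≤ 1 := fun x =>
    (fun_kill he _).trans (by rcases x with _ | k <;> simp [xt])
  have d0 : ∀ u : Option K, (∀ i, u ≠ some (e i)) →
      (killCompl he (xt u : MvPolynomial K ℝ)).totalDegree ≤ 0 := fun u hu => by
    rcases u with _ | k
    · simp [xt]
    · have : k ∉ Set.range e := fun ⟨i, hi⟩ => hu i (by rw [hi])
      simp [xt, killCompl, this]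
  refine ⟨Γ ∘ₗ homogeneousComponent (2 * 2) ∘ₗ (killCompl he).toLinearMap, fun f hf => ?_,
    fun f hf h0 i i' => ?_, fun x y u v hu hv => ?_⟩
  · rw [k f hf]
    exact h2 _
  · rw [k f hf] at h0
    have h3 : homogeneousComponent 2 (killCompl he f) = 0 := by
      by_contra h3
      exact (h1 _ h3 (homogeneousComponent_isHomogeneous 2 _).totalDegree_le).ne' h0
    have h4 := congrArg (coeff (Finsupp.single i 1 + Finsupp.single i' 1)) h3
    rw [coeff_homogeneousComponent, if_pos (by simp), coeff_killCompl, Finsupp.mapDomain_add,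
      Finsupp.mapDomain_single, Finsupp.mapDomain_single] at h4
    exact h4
  · show Γ (homogeneousComponent (2 * 2) (killCompl he (xt x * xt y * xt u * xt v))) = 0
    rw [homogeneousComponent_eq_zero, map_zero]
    rw [map_mul, map_mul, map_mul]
    have a1 := totalDegree_mul (killCompl he (xt x : MvPolynomial K ℝ)) (killCompl he (xt y))
    have a2 := totalDegree_mul (killCompl he (xt x : MvPolynomial K ℝ) * killCompl he (xt y))
      (killCompl he (xt u))
    have a3 := totalDegree_mul (killCompl he (xt x : MvPolynomial K ℝ) * killCompl he (xt y) *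
      killCompl he (xt u)) (killCompl he (xt v))
    have := d1 x
    have := d1 y
    have := d0 u hu
    have := d0 v hv
    omega

end Aux

theorem exists_fun0 (R : Option α → Option α → Option β → Option β → ℝ)
    (hA : ∀ a a' b b', R a a' b b' = R a' a b b') (hB : ∀ a a' b b', R a a' b b' = R a a' b' b) :
    ∃ L : MvPolynomial (α ⊕ β) ℝ →ₗ[ℝ] ℝ, ∀ a a' b b',
      L (xt (iA a) * xt (iA a') * xt (iB b) * xt (iB b')) = R a a' b b' := by
  classical
  let E : Option α × Option α × Option β × Option β → (α ⊕ β →₀ ℕ) := fun t =>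
    funEx (iA t.1) + funEx (iA t.2.1) + funEx (iB t.2.2.1) + funEx (iB t.2.2.2)
  have hE : ∀ t t', E t = E t' →
      R t.1 t.2.1 t.2.2.1 t.2.2.2 = R t'.1 t'.2.1 t'.2.2.1 t'.2.2.2 := by
    rintro ⟨a, a', b, b'⟩ ⟨c, c', d, d'⟩ h
    have e1 : ∀ (a : Option α) i, (iA a : Ix α β) = some (Sum.inl i) ↔ a = some i := fun a i => by
      rcases a with _ | a <;> simp [iA]
    have e2 : ∀ (a : Option α) j, ¬ (iA a : Ix α β) = some (Sum.inr j) := fun a j => by
      rcases a with _ | a <;> simp [iA]
    have e3 : ∀ (b : Option β) j, (iB b : Ix α β) = some (Sum.inr j) ↔ b = some j := fun b j => by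
      rcases b with _ | b <;> simp [iB]
    have e4 : ∀ (b : Option β) i, ¬ (iB b : Ix α β) = some (Sum.inl i) := fun b i => by
      rcases b with _ | b <;> simp [iB]
    have h1 := fun_pair a a' c c' fun i => by
      simpa only [E, Finsupp.add_apply, fun_ex_apply, e1, e4, if_false, add_zero]
        using DFunLike.congr_fun h (Sum.inl i)
    have h2 := fun_pair b b' d d' fun j => by
      simpa only [E, Finsupp.add_apply, fun_ex_apply, e2, e3, if_false, add_zero, zero_add]
        using DFunLike.congr_fun h (Sum.inr j)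
    show R a a' b b' = R c c' d d'
    rcases h1 with ⟨rfl, rfl⟩ | ⟨rfl, rfl⟩ <;> rcases h2 with ⟨rfl, rfl⟩ | ⟨rfl, rfl⟩
    · rfl
    · exact hB _ _ _ _
    · exact hA _ _ _ _
    · exact (hA _ _ _ _).trans (hB _ _ _ _)
  refine ⟨(basisMonomials (α ⊕ β) ℝ).constr ℝ fun d => if h : ∃ t, E t = d then
    R h.choose.1 h.choose.2.1 h.choose.2.2.1 h.choose.2.2.2 else 0, fun a a' b b' => ?_⟩
  have e : (xt (iA a) * xt (iA a') * xt (iB b) * xt (iB b') : MvPolynomial (α ⊕ β) ℝ) =
      basisMonomials (α ⊕ β) ℝ (E (a, a', b, b')) := by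
    simp only [fun_xt, monomial_mul, mul_one, coe_basisMonomials, E]
  have h : ∃ t, E t = E (a, a', b, b') := ⟨_, rfl⟩
  rw [e, Module.Basis.constr_basis, dif_pos h]
  exact hE _ _ h.choose_spec

theorem exists_fun {ψ : S → Option α → Option β → ℝ} (hpt : PT ψ) (η : ℝ) (hη : 0 < η) :
    ∃ L : MvPolynomial (α ⊕ β) ℝ →ₗ[ℝ] ℝ, PD L 2 ∧ ∀ a a' b b',
      L (xt (iA a) * xt (iA a') * xt (iB b) * xt (iB b')) =
        ∑ s, ψ s a b * ψ s a' b' + η * (if a = a' ∧ b = b' then 1 else 0) := by
  obtain ⟨L0, hL0⟩ := exists_fun0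
    (fun a a' b b' => ∑ s, ψ s a b * ψ s a' b' + η * (if a = a' ∧ b = b' then 1 else 0))
    (fun a a' b b' => by rw [hpt a a' b b']; simp only [eq_comm (a := a)])
    (fun a a' b b' => by
      rw [hpt a a' b b']
      simp only [eq_comm (a := b), mul_comm (ψ _ a' b)])
  obtain ⟨GA, a1, a2, a3⟩ := fun_side (e := (Sum.inl : α → α ⊕ β)) Sum.inl_injective
  obtain ⟨GB, b1, b2, b3⟩ := fun_side (e := (Sum.inr : β → α ⊕ β)) Sum.inr_injective
  let P : Option α × Option β → MvPolynomial (α ⊕ β) ℝ := fun p => xt (iA p.1) * xt (iB p.2)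
  have key : ∀ f : MvPolynomial (α ⊕ β) ℝ, f ≠ 0 → f.totalDegree ≤ 2 →
      GA (f * f) + GB (f * f) = 0 → 0 < L0 (f * f) := by
    intro f hf hd h0
    have hA := a2 f hd (by linarith [a1 f hd, b1 f hd])
    have hB := b2 f hd (by linarith [a1 f hd, b1 f hd])
    have hs : f ∈ Submodule.span ℝ (Set.range P) := by
      rw [f.as_sum]
      refine Submodule.sum_mem _ fun m hm => ?_
      have e : monomial m (coeff m f) = coeff m f • monomial m (1 : ℝ) := by
        rw [smul_monomial, smul_eq_mul, mul_one]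
      rw [e]
      refine Submodule.smul_mem _ _ (Submodule.subset_span ?_)
      obtain ⟨l, l', rfl⟩ := fun_two (d := m) ((le_totalDegree hm).trans hd)
      have e' : monomial (funEx l + funEx l') (1 : ℝ) = xt l * xt l' := by
        rw [fun_xt, fun_xt, monomial_mul, mul_one]
      rw [e']
      rw [mem_support_iff] at hm
      rcases l with _ | i | j <;> rcases l' with _ | i' | j'
      · exact ⟨(none, none), rfl⟩
      · exact ⟨(some i', none), mul_comm _ _⟩
      · exact ⟨(none, some j'), rfl⟩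
      · exact ⟨(some i, none), rfl⟩
      · exact absurd (hA i i') hm
      · exact ⟨(some i, some j'), rfl⟩
      · exact ⟨(none, some j), mul_comm _ _⟩
      · exact ⟨(some i', some j), mul_comm _ _⟩
      · exact absurd (hB j j') hm
    obtain ⟨y, rfl⟩ := (Submodule.mem_span_range_iff_exists_fun ℝ).1 hs
    have hy : ∃ p, y p ≠ 0 := by
      by_contra h
      push Not at h
      exact hf (by simp [h])
    have e : L0 ((∑ p, y p • P p) * ∑ p, y p • P p) =
        ∑ s, (∑ p, y p * ψ s p.1 p.2) ^ 2 + η * ∑ p, y p ^ 2 := by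
      have e1 : ∀ p q, L0 (y p • P p * y q • P q) =
          ∑ s, y p * ψ s p.1 p.2 * (y q * ψ s q.1 q.2) + η * if p = q then y p ^ 2 else 0 := by
        intro p q
        have e2 : P p * P q = xt (iA p.1) * xt (iA q.1) * xt (iB p.2) * xt (iB q.2) := by
          simp only [P]; ring
        rw [smul_mul_smul_comm, map_smul, e2, hL0, smul_eq_mul, mul_add, Finset.mul_sum]
        refine congrArg₂ (· + ·) (Finset.sum_congr rfl fun s _ => by ring) ?_
        by_cases h : p = q
        · subst h
          simp only [and_self, if_true]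
          ring
        · rw [if_neg h, if_neg fun h' => h (Prod.ext h'.1 h'.2)]
          ring
      rw [Finset.sum_mul_sum]
      simp only [map_sum, e1, Finset.sum_add_distrib]
      refine congrArg₂ (· + ·) ?_ ?_
      · rw [Finset.sum_congr rfl fun p _ => Finset.sum_comm, Finset.sum_comm]
        exact Finset.sum_congr rfl fun s _ => by rw [sq, Finset.sum_mul_sum]
      · simp only [← Finset.mul_sum, Finset.sum_ite_eq, Finset.mem_univ, if_true]
    rw [e]
    obtain ⟨p, hp⟩ := hy
    have := Finset.single_le_sum (f := fun p => y p ^ 2) (fun _ _ => sq_nonneg _)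
      (Finset.mem_univ p)
    have h1 : 0 < ∑ p, y p ^ 2 := lt_of_lt_of_le (by positivity) this
    positivity
  let W := restrictTotalDegree (α ⊕ β) ℝ 2
  let T : (MvPolynomial (α ⊕ β) ℝ →ₗ[ℝ] ℝ) → W →ₗ[ℝ] W →ₗ[ℝ] ℝ := fun L =>
    ((LinearMap.mul ℝ (MvPolynomial (α ⊕ β) ℝ)).compr₂ L).domRestrict₁₂ W W
  have hT : ∀ L (v : W), T L v v = L (v.1 * v.1) := fun _ _ => rfl
  have hW : ∀ v : W, v.1.totalDegree ≤ 2 := fun v => (mem_restrictTotalDegree _ _ _).1 v.2
  obtain ⟨N, hN⟩ := finsler (T L0) (T (GA + GB))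
    (fun v => add_nonneg (a1 _ (hW v)) (b1 _ (hW v)))
    (fun v hv h0 => key v.1 (fun h => hv (Subtype.ext h)) (hW v) h0)
  refine ⟨L0 + N • (GA + GB), fun f hf hd => ?_, fun a a' b b' => ?_⟩
  · exact hN ⟨f, (mem_restrictTotalDegree _ _ _).2 hd⟩ fun h => hf (congrArg Subtype.val h)
  · have c1 := a3 (iA a) (iA a') (iB b) (iB b') (fun i => by rcases b with _ | b <;> simp [iB])
      (fun i => by rcases b' with _ | b <;> simp [iB])
    have c2 := b3 (iB b) (iB b') (iA a) (iA a') (fun i => by rcases a with _ | a <;> simp [iA])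
      (fun i => by rcases a' with _ | a <;> simp [iA])
    have e : (xt (iB b) * xt (iB b') * xt (iA a) * xt (iA a') : MvPolynomial (α ⊕ β) ℝ) =
      xt (iA a) * xt (iA a') * xt (iB b) * xt (iB b') := by ring
    rw [e] at c2
    simp only [LinearMap.add_apply, LinearMap.smul_apply, c1, c2, hL0, add_zero, smul_zero]

end Vale.Agent.P256
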