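import Mathlib
import Vale.Agent.P256.SLin

/-! P256 task S13: gap in the orders and positivity of the zoomed functional.

`gap_exists`: `U i = U ⊓ {u | ∀ d ≤ 2^(i+1), homogeneousComponent d u = 0}` decreases; among
`i = 0 .. r+1` two consecutive ones have the same `finrank`, hence are equal.
`gap_pos`: write `u_d = homogeneousComponent d u`, `v = ∑ d ≤ D, ε^d • u_d`.  Then
`Lam L D ε (u*u) = ∑_{d+e ≤ 2D} ε^(d+e) L (u_d * u_e) = L (v*v) + 2 ∑_{e > D, d+e ≤ 2D} ε^(d+e) L (u_d u_e)`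
(`homogeneousComponent n (u*u) = ∑ antidiagonal`).  Let `‖·‖` be the sup norm of the coefficient vector
on the finite set of monomials of degree `≤ 2D`.  (i) `L (v*v) ≥ c ‖v‖^2` on degree `≤ D` (compactness, or
`finsler`), (ii) `|L (f*g)| ≤ C ‖f‖ ‖g‖` on degree `≤ 2D`, (iii) `ε^d ‖u_d‖ ≤ ‖v‖` for `d ≤ D`, (iv) by the gap
and `lin_bound`, `‖u_e‖ ≤ C' max_{d ≤ D} ‖u_d‖ ≤ C' ε^(-D) ‖v‖` for `e ≤ 2D`, `ε ≤ 1`.  So the second sum is
`≤ C'' ε ‖v‖^2`. -/

namespace Vale.Agent.P256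

open MvPolynomial

variable {K : Type} [Fintype K] [DecidableEq K]

theorem sgap_coeff_sum (S : Finset ℕ) (f : MvPolynomial K ℝ) (m : K →₀ ℕ) :
    coeff m (∑ d ∈ S, homogeneousComponent d f) = if m.degree ∈ S then coeff m f else 0 := by
  rw [coeff_sum]
  simp only [coeff_homogeneousComponent]
  rw [Finset.sum_ite_eq]

theorem sgap_sub_monomial (ε : ℝ) (s : K →₀ ℕ) (a : ℝ) :
    sub (0 : K → ℝ) ε (monomial s a) = ε ^ s.degree • monomial s a := by
  unfold sub
  rw [aeval_monomial, monomial_eq]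
  simp only [Pi.zero_apply, map_zero, zero_add, mul_pow]
  rw [Finsupp.prod_mul]
  have h1 : (s.prod fun _ n => (C ε : MvPolynomial K ℝ) ^ n) = C (ε ^ s.degree) := by
    rw [Finsupp.prod, Finset.prod_pow_eq_pow_sum, Finsupp.degree_apply, map_pow]
  rw [h1, smul_eq_C_mul, algebraMap_eq]
  ring

theorem sgap_coeff_sub (ε : ℝ) (f : MvPolynomial K ℝ) (m : K →₀ ℕ) :
    coeff m (sub (0 : K → ℝ) ε f) = ε ^ m.degree * coeff m f := by
  induction f using MvPolynomial.induction_on' with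
  | monomial s a =>
    rw [sgap_sub_monomial, coeff_smul, coeff_monomial]
    split_ifs with h
    · rw [h, smul_eq_mul]
    · simp
  | add p q hp hq => rw [map_add, coeff_add, hp, hq, coeff_add, mul_add]

theorem sgap_hc_sub (ε : ℝ) (f : MvPolynomial K ℝ) (d : ℕ) :
    homogeneousComponent d (sub (0 : K → ℝ) ε f) = ε ^ d • homogeneousComponent d f := by
  ext m
  rw [coeff_smul, coeff_homogeneousComponent, coeff_homogeneousComponent, sgap_coeff_sub]
  split_ifs with h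
  · rw [h, smul_eq_mul]
  · simp

theorem sgap_Lam_apply (L : MvPolynomial K ℝ →ₗ[ℝ] ℝ) (D : ℕ) (ε : ℝ) (f : MvPolynomial K ℝ) :
    Lam L D ε f = ∑ d ∈ Finset.range (2 * D + 1), ε ^ d * L (homogeneousComponent d f) := by
  unfold Lam
  rw [LinearMap.sum_apply]
  rfl

theorem sgap_Lam_sub (L : MvPolynomial K ℝ →ₗ[ℝ] ℝ) (D : ℕ) (ε : ℝ) (f : MvPolynomial K ℝ) :
    Lam L D ε f = Lam L D 1 (sub 0 ε f) := by
  rw [sgap_Lam_apply, sgap_Lam_apply]
  refine Finset.sum_congr rfl fun d _ => ?_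
  rw [sgap_hc_sub, map_smul, one_pow, one_mul, smul_eq_mul]

theorem sgap_Lam_one (L : MvPolynomial K ℝ →ₗ[ℝ] ℝ) (D : ℕ) (f : MvPolynomial K ℝ) :
    Lam L D 1 f = L (∑ d ∈ Finset.range (2 * D + 1), homogeneousComponent d f) := by
  rw [sgap_Lam_apply, map_sum]
  simp only [one_pow, one_mul]

theorem sgap_Lam_low (L : MvPolynomial K ℝ →ₗ[ℝ] ℝ) (D : ℕ) (f : MvPolynomial K ℝ)
    (hf : f.totalDegree ≤ 2 * D) : Lam L D 1 f = L f := by
  rw [sgap_Lam_one]
  congr 1
  ext m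
  rw [sgap_coeff_sum]
  split_ifs with h
  · rfl
  · refine (coeff_eq_zero_of_totalDegree_lt ?_).symm
    rw [Finset.mem_range, Finsupp.degree_apply] at h
    omega

theorem sgap_Lam_high (L : MvPolynomial K ℝ →ₗ[ℝ] ℝ) (D : ℕ) (f g : MvPolynomial K ℝ) (a b : ℕ)
    (hab : 2 * D + 1 ≤ a + b) (hf : ∀ m : K →₀ ℕ, m.degree < a → coeff m f = 0)
    (hg : ∀ m : K →₀ ℕ, m.degree < b → coeff m g = 0) : Lam L D 1 (f * g) = 0 := by
  rw [sgap_Lam_one]
  have h0 : (∑ d ∈ Finset.range (2 * D + 1), homogeneousComponent d (f * g)) = 0 := by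
    ext m
    rw [sgap_coeff_sum, coeff_zero]
    split_ifs with h
    · rw [coeff_mul]
      refine Finset.sum_eq_zero fun x hx => ?_
      rw [Finset.HasAntidiagonal.mem_antidiagonal] at hx
      have h1 : x.1.degree + x.2.degree = m.degree := by rw [← map_add, hx]
      rw [Finset.mem_range] at h
      by_cases h2 : x.1.degree < a
      · rw [hf _ h2, zero_mul]
      · rw [hg _ (by omega), mul_zero]
    · rfl
  rw [h0, map_zero]

theorem sgap_factor {U A B : Type} [AddCommGroup U] [Module ℝ U] [AddCommGroup A] [Module ℝ A]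
    [AddCommGroup B] [Module ℝ B] (f : U →ₗ[ℝ] A) (g : U →ₗ[ℝ] B) (h : ∀ u, f u = 0 → g u = 0) :
    ∃ k : A →ₗ[ℝ] B, ∀ u, k (f u) = g u := by
  obtain ⟨s, hs⟩ := f.rangeRestrict.exists_rightInverse_of_surjective f.range_rangeRestrict
  obtain ⟨k, hk⟩ := (g ∘ₗ s).exists_extend
  refine ⟨k, fun u => ?_⟩
  have h1 : k (f u) = g (s (f.rangeRestrict u)) := by
    have := LinearMap.congr_fun hk (f.rangeRestrict u)
    simpa using this
  have h2 : f (s (f.rangeRestrict u)) = f u := by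
    have := congrArg Subtype.val (LinearMap.congr_fun hs (f.rangeRestrict u))
    simpa using this
  have h3 := h (s (f.rangeRestrict u) - u) (by rw [map_sub, h2, sub_self])
  rw [map_sub, sub_eq_zero] at h3
  rw [h1, h3]

theorem sgap_dom {V : Type} [AddCommGroup V] [Module ℝ V] [Module.Finite ℝ V]
    (B0 B1 : V →ₗ[ℝ] V →ₗ[ℝ] ℝ) (h1 : ∀ v, v ≠ 0 → 0 < B1 v v) :
    ∃ N : ℝ, 0 ≤ N ∧ ∀ v, 0 ≤ B0 v v + N * B1 v v := by
  have h2 : ∀ v, 0 ≤ B1 v v := fun v => by
    by_cases hv : v = 0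
    · simp [hv]
    · exact (h1 v hv).le
  obtain ⟨N, hN⟩ := finsler B0 B1 h2 fun v hv h0 => absurd h0 (h1 v hv).ne'
  refine ⟨max N 0, le_max_right _ _, fun v => ?_⟩
  by_cases hv : v = 0
  · simp [hv]
  · have h3 := hN v hv
    have h4 := mul_le_mul_of_nonneg_right (le_max_left N 0) (h2 v)
    linarith

theorem gap_exists (U : Submodule ℝ (MvPolynomial K ℝ)) [Module.Finite ℝ U] (r : ℕ)
    (hr : Module.finrank ℝ U ≤ r) :
    ∃ D : ℕ, 2 ≤ D ∧ D ≤ 2 ^ (r + 1) ∧ ∀ u ∈ U, (∀ d ≤ D, homogeneousComponent d u = 0) →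
      ∀ d ≤ 2 * D, homogeneousComponent d u = 0 := by
  let W : ℕ → Submodule ℝ (MvPolynomial K ℝ) := fun n =>
    U ⊓ ⨅ d : {d : ℕ // d ≤ n}, LinearMap.ker (homogeneousComponent d.1)
  have hW : ∀ n u, u ∈ W n ↔ u ∈ U ∧ ∀ d ≤ n, homogeneousComponent d u = 0 := by
    intro n u
    simp only [W, Submodule.mem_inf, Submodule.mem_iInf, LinearMap.mem_ker, Subtype.forall]
  have hle : ∀ n, W n ≤ U := fun n => inf_le_left
  have hfin : ∀ n, Module.Finite ℝ (W n) := fun n => Submodule.finiteDimensional_of_le (hle n)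
  have hanti : ∀ n, W (2 * n) ≤ W n := by
    intro n u hu
    rw [hW] at hu ⊢
    exact ⟨hu.1, fun d hd => hu.2 d (by omega)⟩
  by_contra hcon
  have hstep : ∀ i ≤ r, Module.finrank ℝ (W (2 ^ (i + 1 + 1))) < Module.finrank ℝ (W (2 ^ (i + 1))) := by
    intro i hi
    have h2 : 2 ^ (i + 1 + 1) = 2 * 2 ^ (i + 1) := by ring
    rw [h2]
    haveI := hfin (2 ^ (i + 1))
    refine Submodule.finrank_lt_finrank_of_lt (lt_of_le_of_ne (hanti _) fun heq => hcon ?_)
    refine ⟨2 ^ (i + 1), ?_, Nat.pow_le_pow_right (by norm_num) (by omega), fun u hu h0 => ?_⟩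
    · calc 2 = 2 ^ 1 := by norm_num
        _ ≤ 2 ^ (i + 1) := Nat.pow_le_pow_right (by norm_num) (by omega)
    · have h3 : u ∈ W (2 ^ (i + 1)) := (hW _ _).2 ⟨hu, h0⟩
      rw [← heq] at h3
      exact ((hW _ _).1 h3).2
  have hind : ∀ i ≤ r + 1, Module.finrank ℝ (W (2 ^ (i + 1))) + i ≤ r := by
    intro i
    induction i with
    | zero => intro _; exact (Submodule.finrank_mono (hle _)).trans hr
    | succ i ih =>
      intro hi
      have h1 := ih (by omega)
      have h2 := hstep i (by omega)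
      omega
  have := hind (r + 1) le_rfl
  omega

theorem gap_pos (U : Submodule ℝ (MvPolynomial K ℝ)) (D : ℕ)
    (hgap : ∀ u ∈ U, (∀ d ≤ D, homogeneousComponent d u = 0) →
      ∀ d ≤ 2 * D, homogeneousComponent d u = 0)
    (L : MvPolynomial K ℝ →ₗ[ℝ] ℝ) (hL : PD L D) :
    ∃ ε : ℝ, 0 < ε ∧ ∀ u ∈ U, 0 ≤ Lam L D ε (u * u) := by
  let tr : ℕ → MvPolynomial K ℝ →ₗ[ℝ] MvPolynomial K ℝ := fun n =>
    ∑ d ∈ Finset.range (n + 1), homogeneousComponent d
  have htr : ∀ n f m, coeff m (tr n f) = if m.degree ≤ n then coeff m f else 0 := by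
    intro n f m
    simp only [tr, LinearMap.sum_apply]
    rw [sgap_coeff_sum]
    simp only [Finset.mem_range, Nat.lt_succ_iff]
  have hhc : ∀ n d f, d ≤ n → homogeneousComponent d (tr n f) = homogeneousComponent d f := by
    intro n d f hd
    ext m
    rw [coeff_homogeneousComponent, coeff_homogeneousComponent, htr]
    split_ifs with h1 h2
    · rfl
    · omega
    · rfl
  obtain ⟨k, hk⟩ := sgap_factor (tr D ∘ₗ U.subtype) (tr (2 * D) ∘ₗ U.subtype) (by
    intro u hu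
    have h0 : ∀ d ≤ D, homogeneousComponent d (u : MvPolynomial K ℝ) = 0 := by
      intro d hd
      rw [← hhc D d _ hd]
      have : tr D (u : MvPolynomial K ℝ) = 0 := hu
      rw [this, map_zero]
    have h1 := hgap u u.2 h0
    change tr (2 * D) (u : MvPolynomial K ℝ) = 0
    simp only [tr, LinearMap.sum_apply]
    exact Finset.sum_eq_zero fun d hd => h1 d (Nat.lt_succ_iff.1 (Finset.mem_range.1 hd)))
  have hk' : ∀ u ∈ U, k (tr D u) = tr (2 * D) u := fun u hu => hk ⟨u, hu⟩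
  let P := restrictTotalDegree K ℝ D
  let B1 : P →ₗ[ℝ] P →ₗ[ℝ] ℝ :=
    ((LinearMap.mul ℝ (MvPolynomial K ℝ)).compr₂ L).compl₁₂ P.subtype P.subtype
  let B0 : ℕ × ℕ → P →ₗ[ℝ] P →ₗ[ℝ] ℝ := fun j =>
    ((LinearMap.mul ℝ (MvPolynomial K ℝ)).compr₂ (Lam L D 1)).compl₁₂ P.subtype
      (homogeneousComponent j.1 ∘ₗ k ∘ₗ homogeneousComponent j.2 ∘ₗ P.subtype)
  have hB1 : ∀ v : P, v ≠ 0 → 0 < B1 v v := fun v hv =>
    hL v (fun h => hv (Subtype.ext h)) ((mem_restrictTotalDegree _ _ _).1 v.2)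
  choose N hN0 hN using fun j => sgap_dom (B0 j) B1 hB1
  let J := Finset.Ioc D (2 * D) ×ˢ Finset.range (D + 1)
  have hS : 0 ≤ ∑ j ∈ J, N j := Finset.sum_nonneg fun j _ => hN0 j
  obtain ⟨ε, hε, hε1, hεS⟩ : ∃ ε : ℝ, 0 < ε ∧ ε ≤ 1 ∧ 2 * (ε * ∑ j ∈ J, N j) ≤ 1 := by
    refine ⟨1 / (2 * (∑ j ∈ J, N j) + 1), by positivity, ?_, ?_⟩
    · rw [div_le_one (by positivity)]; linarith
    · rw [div_mul_eq_mul_div, ← mul_div_assoc, div_le_one (by positivity)]; linarith
  refine ⟨ε, hε, fun u hu => ?_⟩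
  rw [sgap_Lam_sub, map_mul]
  set s := sub (0 : K → ℝ) ε u with hs
  set v := tr D s with hv
  have hvP : v.totalDegree ≤ D := by
    rw [totalDegree, Finset.sup_le_iff]
    intro m hm
    rw [mem_support_iff, hv, htr] at hm
    by_contra h
    exact hm (if_neg h)
  let vP : P := ⟨v, (mem_restrictTotalDegree _ _ _).2 hvP⟩
  have hvd : ∀ d ≤ D, homogeneousComponent d u = (ε ^ d)⁻¹ • homogeneousComponent d v := by
    intro d hd
    rw [hv, hhc D d _ hd, hs, sgap_hc_sub, smul_smul, inv_mul_cancel₀ (by positivity), one_smul]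
  set w := ∑ e ∈ Finset.Ioc D (2 * D), homogeneousComponent e s with hw
  have hw2 : w = ∑ j ∈ J, (ε ^ j.1 * (ε ^ j.2)⁻¹) •
      homogeneousComponent j.1 (k (homogeneousComponent j.2 v)) := by
    rw [hw, Finset.sum_product]
    refine Finset.sum_congr rfl fun e he => ?_
    have h1 : tr D u = ∑ d ∈ Finset.range (D + 1), (ε ^ d)⁻¹ • homogeneousComponent d v := by
      simp only [tr, LinearMap.sum_apply]
      exact Finset.sum_congr rfl fun d hd => hvd d (Nat.lt_succ_iff.1 (Finset.mem_range.1 hd))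
    rw [hs, sgap_hc_sub, ← hhc (2 * D) e u (Finset.mem_Ioc.1 he).2, ← hk' u hu, h1, map_sum,
      map_sum, Finset.smul_sum]
    refine Finset.sum_congr rfl fun d _ => ?_
    rw [map_smul, map_smul, smul_smul]
  have hr1 : ∀ m : K →₀ ℕ, m.degree < D + 1 → coeff m (s - v) = 0 := by
    intro m hm
    rw [coeff_sub, hv, htr, if_pos (by omega), sub_self]
  have hr2 : ∀ m : K →₀ ℕ, m.degree < 2 * D + 1 → coeff m (s - v - w) = 0 := by
    intro m hm
    rw [coeff_sub, coeff_sub, hv, htr, hw, sgap_coeff_sum]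
    simp only [Finset.mem_Ioc]
    split_ifs with h1 h2 h3
    · omega
    · ring
    · ring
    · omega
  have hsplit : s * s = v * v + (2 : ℝ) • (v * w) + (2 : ℝ) • (v * (s - v - w))
      + (s - v) * (s - v) := by
    rw [two_smul, two_smul]; ring
  have hA : Lam L D 1 (v * v) = B1 vP vP :=
    sgap_Lam_low L D _ ((totalDegree_mul _ _).trans (by omega))
  have hB : Lam L D 1 (v * w) = ∑ j ∈ J, (ε ^ j.1 * (ε ^ j.2)⁻¹) * B0 j vP vP := by
    rw [hw2, Finset.mul_sum, map_sum]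
    refine Finset.sum_congr rfl fun j _ => ?_
    rw [mul_smul_comm, map_smul, smul_eq_mul]
    rfl
  have hpos : 0 ≤ B1 vP vP := by
    by_cases h : vP = 0
    · simp [h]
    · exact (hB1 vP h).le
  have hC : -((ε * ∑ j ∈ J, N j) * B1 vP vP) ≤ Lam L D 1 (v * w) := by
    rw [hB, Finset.mul_sum, Finset.sum_mul, ← Finset.sum_neg_distrib]
    refine Finset.sum_le_sum fun j hj => ?_
    obtain ⟨hj1, hj2⟩ := Finset.mem_product.1 hj
    rw [Finset.mem_Ioc] at hj1
    rw [Finset.mem_range] at hj2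
    have h1 : 0 ≤ ε ^ j.1 * (ε ^ j.2)⁻¹ := by positivity
    have h2 : ε ^ j.1 * (ε ^ j.2)⁻¹ ≤ ε := by
      rw [← div_eq_mul_inv, div_le_iff₀ (by positivity), ← pow_succ']
      exact pow_le_pow_of_le_one hε.le hε1 (by omega)
    have h3 := mul_nonneg h1 (hN j vP)
    have h4 := mul_le_mul_of_nonneg_right h2 (mul_nonneg (hN0 j) hpos)
    nlinarith
  rw [hsplit, map_add, map_add, map_add, map_smul, map_smul, hA,
    sgap_Lam_high L D v (s - v - w) 0 (2 * D + 1) (by omega) (fun m hm => absurd hm (by omega)) hr2,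
    sgap_Lam_high L D (s - v) (s - v) (D + 1) (D + 1) (by omega) hr1 hr1]
  have h5 := mul_le_mul_of_nonneg_right hεS hpos
  simp only [smul_eq_mul]
  nlinarith

theorem Lam_eq (L : MvPolynomial K ℝ →ₗ[ℝ] ℝ) (D : ℕ) (ε : ℝ) (f : MvPolynomial K ℝ)
    (hf : f.totalDegree ≤ 2 * D) : Lam L D ε f = L (sub 0 ε f) := by
  rw [sgap_Lam_sub]
  refine sgap_Lam_low L D _ ((totalDegree_le_of_support_subset fun m hm => ?_).trans hf)
  rw [mem_support_iff] at hm ⊢
  rw [sgap_coeff_sub] at hm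
  exact right_ne_zero_of_mul hm

end Vale.Agent.P256
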