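import Mathlib
import Vale.Agent.P256.SDefs

/-! P256 task S01: Lagrange interpolation (`lag`) and the scalar lemma (`scal`).

`lag`: work over `ℂ` with `W.map`, which splits; all roots are real and simple (derivative nonzero),
so the root finset has `natDegree W` elements and `W = C lc * Lagrange.nodal`.
`Lagrange.eq_interpolate_of_eval_eq` / `Lagrange.eval_interpolate_not_at_node` and
`Lagrange.nodalWeight_eq_eval_derivative_nodal` give `Q z / W z = ∑ Q t / (W' t * (z - t))`, and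
`(1 / (z - t)).im * z.im ≤ 0`.

`scal`: apply `lag` to `D = ∏ (X + C μ)`, `π μ = ∏ over S.erase μ`, `E = ∑ c μ • π μ`, `W = D * E`,
`Qp = ∑ ∑ g μ ν • π μ * π ν - A • (∑ b μ • π μ) * E`.  With `N = S.card`: `natDegree W = 2N - 1`
(leading coefficient `∑ c > 0`), `natDegree Qp ≤ 2N - 2`.  Off the poles `E = D * ε`, with
`ε z = ∑ c μ / (z + μ)`, and `(ε z).im * z.im < 0` for non-real `z`, so roots are real.  At `t = -μ`:
`W' = π μ * (c μ * π μ) > 0` and `Qp = (π μ)^2 * (g μ μ - A * b μ * c μ) ≤ 0`.  At a root of `E` that is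
not a pole: `W' = D * E' = D^2 * ε' < 0` (`ε' = -∑ c/(t+μ)^2`; e.g. `D * E' - D' * E = -∑ c μ (π μ)^2`
as polynomials) and `Qp = D^2 * η ≥ 0` by `hkey`. -/

namespace Vale.Agent.P256

open Polynomial

theorem lag (W Qp : Polynomial ℝ) (hdeg : Qp.degree < W.degree)
    (hreal : ∀ z : ℂ, Polynomial.aeval z W = 0 → z.im = 0)
    (hsimple : ∀ t : ℝ, W.eval t = 0 →
      W.derivative.eval t ≠ 0 ∧ Qp.eval t * W.derivative.eval t ≤ 0)
    (z : ℂ) (hz : z.im ≠ 0) :
    0 ≤ (Polynomial.aeval z Qp / Polynomial.aeval z W).im * z.im := by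
  classical
  have W0 : W ≠ 0 := ne_zero_of_degree_gt hdeg
  set V := W.map (algebraMap ℝ ℂ) with hV
  have V0 : V ≠ 0 := Polynomial.map_ne_zero W0
  have ev : ∀ (p : ℝ[X]) (t : ℝ), (p.map (algebraMap ℝ ℂ)).eval (t : ℂ) = ((p.eval t : ℝ) : ℂ) :=
    fun p t => eval_map_apply (algebraMap ℝ ℂ) t
  have rt : ∀ r ∈ V.roots, ∃ t : ℝ, r = t ∧ W.eval t = 0 := fun r hr => by
    have h1 : V.eval r = 0 := (mem_roots V0).1 hr
    have h2 : r = (r.re : ℝ) :=
      Complex.ext (by simp) (by simpa using hreal r (by rwa [← eval_map_algebraMap]))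
    refine ⟨r.re, h2, ?_⟩
    rw [h2, ev] at h1
    exact_mod_cast h1
  have nd : V.roots.Nodup := Multiset.nodup_iff_count_le_one.2 fun r => by
    rw [count_roots]
    by_contra h
    obtain ⟨h1, h2⟩ := (one_lt_rootMultiplicity_iff_isRoot V0).1 (not_le.1 h)
    obtain ⟨t, rfl, ht⟩ := rt r ((mem_roots V0).2 h1)
    rw [IsRoot, hV, derivative_map, ev] at h2
    exact (hsimple t ht).1 (by exact_mod_cast h2)
  set s : Finset ℂ := ⟨V.roots, nd⟩ with hs
  have sp := IsAlgClosed.splits V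
  have e1 : V = C V.leadingCoeff * Lagrange.nodal s id := sp.eq_prod_roots
  have l0 : V.leadingCoeff ≠ 0 := leadingCoeff_ne_zero.2 V0
  have hd : (Qp.map (algebraMap ℝ ℂ)).degree < s.card := by
    have : V.degree = s.card := by
      rw [e1, degree_C_mul l0, Lagrange.degree_nodal]
    rw [← this, hV, degree_map, degree_map]
    exact hdeg
  have hx : ∀ r ∈ s, z ≠ id r := fun r hr h => by
    obtain ⟨t, rfl, -⟩ := rt r hr
    exact hz (by rw [h]; simp)
  have e2 := Lagrange.eval_interpolate_not_at_node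
    (fun r => (Qp.map (algebraMap ℝ ℂ)).eval (id r)) hx
  rw [← Lagrange.eq_interpolate (Set.injOn_id _) hd] at e2
  have n0 := Lagrange.eval_nodal_not_at_node hx
  have e3 : aeval z Qp / aeval z W = ∑ r ∈ s, V.leadingCoeff⁻¹ * (Lagrange.nodalWeight s id r *
      (z - id r)⁻¹ * (Qp.map (algebraMap ℝ ℂ)).eval (id r)) := by
    rw [← eval_map_algebraMap, ← eval_map_algebraMap, e2, ← hV, ← Finset.mul_sum]
    conv_lhs => rw [e1, eval_mul, eval_C]
    field_simp
  rw [e3, Complex.im_sum, Finset.sum_mul]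
  refine Finset.sum_nonneg fun r hr => ?_
  obtain ⟨t, rfl, ht⟩ := rt r hr
  obtain ⟨k1, k2⟩ := hsimple t ht
  have e4 : ((W.derivative.eval t : ℝ) : ℂ) =
      V.leadingCoeff * (derivative (Lagrange.nodal s id)).eval (t : ℂ) := by
    rw [← ev, ← derivative_map, ← hV]
    conv_lhs => rw [e1, derivative_C_mul, eval_mul, eval_C]
  have e5 : V.leadingCoeff⁻¹ * (Lagrange.nodalWeight s id (t : ℂ) * (z - id (t : ℂ))⁻¹ *
      (Qp.map (algebraMap ℝ ℂ)).eval (id (t : ℂ))) =
      ((Qp.eval t / W.derivative.eval t : ℝ) : ℂ) * (z - t)⁻¹ := by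
    rw [Lagrange.nodalWeight_eq_eval_derivative_nodal hr, id, ev, Complex.ofReal_div, e4,
      div_eq_mul_inv, mul_inv]
    ring
  rw [e5, Complex.im_ofReal_mul, Complex.inv_im, Complex.sub_im, Complex.ofReal_im, sub_zero]
  have k3 : Qp.eval t / W.derivative.eval t ≤ 0 := by
    rw [div_nonpos_iff]
    rcases lt_or_gt_of_ne k1 with h | h
    · exact Or.inl ⟨by nlinarith, h.le⟩
    · exact Or.inr ⟨by nlinarith, h.le⟩
  have k4 : -z.im / Complex.normSq (z - t) * z.im ≤ 0 := by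
    rw [div_mul_eq_mul_div]
    exact div_nonpos_of_nonpos_of_nonneg (by nlinarith [sq_nonneg z.im]) (Complex.normSq_nonneg _)
  rw [mul_assoc]
  exact mul_nonneg_of_nonpos_of_nonpos k3 k4

/-- product over all poles -/
noncomputable def slagD (S : Finset ℝ) : ℝ[X] := ∏ μ ∈ S, (X + C μ)

/-- weighted sum of the cofactors -/
noncomputable def slagE (S : Finset ℝ) (c : ℝ → ℝ) : ℝ[X] := ∑ μ ∈ S, C (c μ) * slagD (S.erase μ)

theorem slag_mul {S : Finset ℝ} {μ : ℝ} (h : μ ∈ S) : slagD S = (X + C μ) * slagD (S.erase μ) :=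
  (Finset.mul_prod_erase S (fun ν => X + C ν) h).symm

theorem slag_monic (S : Finset ℝ) : (slagD S).Monic :=
  monic_prod_of_monic _ _ fun μ _ => monic_X_add_C μ

theorem slag_deg (S : Finset ℝ) : (slagD S).natDegree = S.card := by
  rw [slagD, natDegree_prod_of_monic _ _ fun μ _ => monic_X_add_C μ]
  simp

theorem slag_degE (S : Finset ℝ) (c : ℝ → ℝ) : (slagE S c).natDegree ≤ S.card - 1 :=
  natDegree_sum_le_of_forall_le _ _ fun μ h => (natDegree_C_mul_le _ _).trans (by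
    rw [slag_deg, Finset.card_erase_of_mem h])

theorem slag_zero {K : Type} [Field K] [Algebra ℝ K] {S : Finset ℝ} {z : K} :
    aeval z (slagD S) = 0 ↔ ∃ μ ∈ S, z + algebraMap ℝ K μ = 0 := by
  simp [slagD, map_prod, Finset.prod_eq_zero_iff]

theorem slag_pi {K : Type} [Field K] [Algebra ℝ K] {S : Finset ℝ} {z : K}
    (hz : ∀ μ ∈ S, z + algebraMap ℝ K μ ≠ 0) {μ : ℝ} (h : μ ∈ S) :
    aeval z (slagD (S.erase μ)) = aeval z (slagD S) / (z + algebraMap ℝ K μ) := by
  rw [slag_mul h, map_mul, map_add, aeval_X, aeval_C, mul_div_cancel_left₀ _ (hz μ h)]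

theorem slag_E {K : Type} [Field K] [Algebra ℝ K] {S : Finset ℝ} {z : K}
    (hz : ∀ μ ∈ S, z + algebraMap ℝ K μ ≠ 0) (c : ℝ → ℝ) : aeval z (slagE S c) =
      aeval z (slagD S) * ∑ μ ∈ S, algebraMap ℝ K (c μ) / (z + algebraMap ℝ K μ) := by
  rw [slagE, map_sum, Finset.mul_sum]
  refine Finset.sum_congr rfl fun μ h => ?_
  rw [map_mul, aeval_C, slag_pi hz h]
  ring

theorem slag_G {K : Type} [Field K] [Algebra ℝ K] {S : Finset ℝ} {z : K}
    (hz : ∀ μ ∈ S, z + algebraMap ℝ K μ ≠ 0) (g : ℝ → ℝ → ℝ) :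
    aeval z (∑ μ ∈ S, slagD (S.erase μ) * slagE S (g μ)) = aeval z (slagD S) ^ 2 *
      ∑ μ ∈ S, ∑ ν ∈ S, algebraMap ℝ K (g μ ν) /
        ((z + algebraMap ℝ K μ) * (z + algebraMap ℝ K ν)) := by
  rw [map_sum, Finset.mul_sum]
  refine Finset.sum_congr rfl fun μ h => ?_
  rw [map_mul, slag_pi hz h, slag_E hz, Finset.mul_sum, Finset.mul_sum, Finset.mul_sum]
  refine Finset.sum_congr rfl fun ν _ => ?_
  rw [← div_div]
  ring

theorem slag_pole {S : Finset ℝ} {μ ν : ℝ} (hμ : μ ∈ S) (h : ν ≠ μ) :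
    (slagD (S.erase ν)).eval (-μ) = 0 := by
  rw [slag_mul (Finset.mem_erase.2 ⟨h.symm, hμ⟩)]
  simp

theorem slag_poleE {S : Finset ℝ} {μ : ℝ} (hμ : μ ∈ S) (c : ℝ → ℝ) :
    (slagE S c).eval (-μ) = c μ * (slagD (S.erase μ)).eval (-μ) := by
  rw [slagE, eval_finsetSum, Finset.sum_eq_single μ (fun ν _ h => by
    rw [eval_mul, slag_pole hμ h, mul_zero]) fun h => (h hμ).elim, eval_mul, eval_C]

theorem slag_wr (S : Finset ℝ) (c : ℝ → ℝ) :
    slagD S * derivative (slagE S c) - derivative (slagD S) * slagE S c =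
      -∑ μ ∈ S, C (c μ) * slagD (S.erase μ) ^ 2 := by
  rw [slagE, derivative_sum, Finset.mul_sum, Finset.mul_sum, ← Finset.sum_sub_distrib,
    ← Finset.sum_neg_distrib]
  refine Finset.sum_congr rfl fun μ h => ?_
  rw [slag_mul h, derivative_C_mul, derivative_mul, derivative_X_add_C]
  ring

theorem scal (S : Finset ℝ) (c b : ℝ → ℝ) (g : ℝ → ℝ → ℝ) (A : ℝ) (hS : S.Nonempty)
    (hc : ∀ μ ∈ S, 0 < c μ) (hg : ∀ μ ∈ S, g μ μ ≤ A * b μ * c μ)
    (hkey : ∀ t : ℝ, (∀ μ ∈ S, t + μ ≠ 0) → ∑ μ ∈ S, c μ / (t + μ) = 0 →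
      0 ≤ ∑ μ ∈ S, ∑ ν ∈ S, g μ ν / ((t + μ) * (t + ν)))
    (z : ℂ) (hz : z.im ≠ 0) :
    0 ≤ ((∑ μ ∈ S, ∑ ν ∈ S, (g μ ν : ℂ) / ((z + μ) * (z + ν))) / (∑ μ ∈ S, (c μ : ℂ) / (z + μ))
      - A * ∑ μ ∈ S, (b μ : ℂ) / (z + μ)).im * z.im := by
  have np : ∀ w : ℂ, w.im ≠ 0 → ∀ μ ∈ S, w + algebraMap ℝ ℂ μ ≠ 0 := fun w hw μ _ h =>
    hw (by simpa using congrArg Complex.im h)
  have e0 : ∀ w : ℂ, w.im ≠ 0 → ∑ μ ∈ S, algebraMap ℝ ℂ (c μ) / (w + algebraMap ℝ ℂ μ) ≠ 0 := by
    intro w hw h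
    have h1 : 0 < ∑ μ ∈ S, c μ / Complex.normSq (w + algebraMap ℝ ℂ μ) :=
      Finset.sum_pos (fun μ hμ => div_pos (hc μ hμ) (Complex.normSq_pos.2 (np w hw μ hμ))) hS
    have h2 := congrArg Complex.im h
    rw [Complex.im_sum, Finset.sum_congr rfl (g := fun μ =>
      -w.im * (c μ / Complex.normSq (w + algebraMap ℝ ℂ μ))) fun μ _ => by
        rw [div_eq_mul_inv, Complex.coe_algebraMap, Complex.im_ofReal_mul, Complex.inv_im]
        simp only [Complex.add_im, Complex.ofReal_im, add_zero]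
        ring, ← Finset.mul_sum] at h2
    exact mul_ne_zero (neg_ne_zero.2 hw) h1.ne' h2
  have D0 : ∀ w : ℂ, w.im ≠ 0 → aeval w (slagD S) ≠ 0 := fun w hw h => by
    obtain ⟨μ, h1, h2⟩ := slag_zero.1 h
    exact np w hw μ h1 h2
  have cp := Finset.card_pos.2 hS
  have key := lag (slagD S * slagE S c)
    (∑ μ ∈ S, slagD (S.erase μ) * slagE S (g μ) - C A * (slagE S b * slagE S c)) ?_ ?_ ?_ z hz
  · rw [map_sub, slag_G (np z hz), map_mul, map_mul, map_mul, slag_E (np z hz), slag_E (np z hz),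
      aeval_C] at key
    have h1 := e0 z hz
    have h2 := D0 z hz
    simp only [Complex.coe_algebraMap] at key h1
    convert key using 3
    field_simp
  · have c1 : (slagE S c).coeff (S.card - 1) ≠ 0 := by
      rw [slagE, finsetSum_coeff]
      refine (Finset.sum_pos (fun μ h => ?_) hS).ne'
      rw [coeff_C_mul, ← Finset.card_erase_of_mem h, ← slag_deg, (slag_monic _).coeff_natDegree,
        mul_one]
      exact hc μ h
    have c2 : (slagE S c).natDegree = S.card - 1 :=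
      natDegree_eq_of_le_of_coeff_ne_zero (slag_degE S c) c1
    have c3 : slagE S c ≠ 0 := fun h => c1 (by rw [h, coeff_zero])
    refine degree_lt_degree ?_
    rw [(slag_monic S).natDegree_mul' c3, c2, slag_deg]
    refine lt_of_le_of_lt (natDegree_sub_le_of_le (n := S.card - 1 + (S.card - 1))
      (m := S.card - 1 + (S.card - 1)) (natDegree_sum_le_of_forall_le _ _ fun μ h => ?_) ?_)
      (by omega)
    · refine natDegree_mul_le.trans (add_le_add ?_ (slag_degE _ _))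
      rw [slag_deg, Finset.card_erase_of_mem h]
    · exact (natDegree_C_mul_le _ _).trans
        (natDegree_mul_le.trans (add_le_add (slag_degE _ _) (slag_degE _ _)))
  · intro w hw
    by_contra h
    rw [map_mul, slag_E (np w h)] at hw
    exact mul_ne_zero (D0 w h) (mul_ne_zero (D0 w h) (e0 w h)) hw
  · intro t ht
    by_cases hp : ∃ μ ∈ S, t + μ = 0
    · obtain ⟨μ, hμ, h⟩ := hp
      obtain rfl : t = -μ := eq_neg_of_add_eq_zero_left h
      have p0 : (slagD (S.erase μ)).eval (-μ) ≠ 0 := fun h0 => by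
        obtain ⟨ν, h1, h2⟩ := (slag_zero (K := ℝ)).1 (by rwa [coe_aeval_eq_eval])
        exact (Finset.mem_erase.1 h1).1 (by simpa [neg_add_eq_zero, eq_comm] using h2)
      have d1 : (derivative (slagD S * slagE S c)).eval (-μ) =
          c μ * (slagD (S.erase μ)).eval (-μ) ^ 2 := by
        rw [derivative_mul, eval_add, eval_mul, eval_mul, slag_poleE hμ, slag_mul hμ,
          derivative_mul, derivative_X_add_C]
        simp
        ring
      have d2 : 0 < c μ * (slagD (S.erase μ)).eval (-μ) ^ 2 := mul_pos (hc μ hμ) (by positivity)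
      rw [d1]
      refine ⟨d2.ne', mul_nonpos_of_nonpos_of_nonneg ?_ d2.le⟩
      rw [eval_sub, eval_finsetSum, Finset.sum_eq_single μ (fun ν _ h => by
        rw [eval_mul, slag_pole hμ h, zero_mul]) fun h => (h hμ).elim]
      simp only [eval_mul, eval_C, slag_poleE hμ]
      nlinarith [mul_le_mul_of_nonneg_right (hg μ hμ) (sq_nonneg ((slagD (S.erase μ)).eval (-μ)))]
    · push Not at hp
      have hp' : ∀ μ ∈ S, t + algebraMap ℝ ℝ μ ≠ 0 := hp
      have D1 : (slagD S).eval t ≠ 0 := fun h0 => by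
        obtain ⟨ν, h1, h2⟩ := (slag_zero (K := ℝ)).1 (by rwa [coe_aeval_eq_eval])
        exact hp' ν h1 h2
      have E1 : (slagE S c).eval t = 0 := (mul_eq_zero.1 (eval_mul.symm.trans ht)).resolve_left D1
      have E2 := slag_E hp' c
      have G2 := slag_G hp' g
      simp only [coe_aeval_eq_eval, Algebra.algebraMap_self, RingHom.id_apply] at E2 G2
      have k := hkey t hp ((mul_eq_zero.1 (E2.symm.trans E1)).resolve_left D1)
      have w := congrArg (eval t) (slag_wr S c)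
      have d2 : 0 < ∑ μ ∈ S, c μ * (slagD (S.erase μ)).eval t ^ 2 := by
        exact Finset.sum_pos (fun μ h => mul_pos (hc μ h) (sq_pos_of_ne_zero fun h0 =>
          D1 (by rw [slag_mul h, eval_mul, h0, mul_zero]))) hS
      have d1 : (derivative (slagD S * slagE S c)).eval t =
          -∑ μ ∈ S, c μ * (slagD (S.erase μ)).eval t ^ 2 := by
        simp only [eval_sub, eval_mul, E1, mul_zero, sub_zero, eval_neg, eval_finsetSum, eval_C,
          eval_pow] at w
        rw [derivative_mul, eval_add, eval_mul, eval_mul, E1, mul_zero, zero_add, w]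
      rw [d1]
      refine ⟨neg_ne_zero.2 d2.ne', mul_nonpos_of_nonneg_of_nonpos ?_ (neg_nonpos.2 d2.le)⟩
      rw [eval_sub, G2, eval_mul, eval_mul, E1, mul_zero, mul_zero, sub_zero]
      exact mul_nonneg (sq_nonneg _) k

end Vale.Agent.P256
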