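import Mathlib
import Vale.Agent.P256.SLag
import Vale.Agent.P256.SBasic

/-! P256 task S03: hyperbolicity at matrix level.

Spectral theorem `M = U diag(λ) Uᵀ` (`Matrix.IsHermitian.spectral_theorem`, columns `ξ j`).  For
non-real `z`, `Mi = U diag(1/(λ j + z)) Uᵀ` inverts `M + z`, so by `pM_of_inv` (over `ℂ`)
`pM = det^2 * ((w + z - A β) ε + η)` where `ε = ∑ c j/(z+λ j)`, `c j = ∑ l, (ξ j (some l))^2`,
`β = ∑ b j/(z+λ j)`, `b j = |B ξ j|^2`, `cut (B Mi) = ∑ v j/(z+λ j)`, `v j (q,l) = (B ξ j) q * ξ j (some l)`.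
Let `J' = {j | c j > 0}` (nonempty since `∑ c j = card K > 0`; `v j = 0` off `J'`).  Group `J'` by the
value of `λ`: `S = image λ J'`, `c μ, b μ, v μ` are fibre sums, `g μ ν = ∑ x y, h x y * v μ x * v ν y`;
`g μ μ ≤ A ∑ (v μ)^2 ≤ A * b μ * c μ` by Cauchy-Schwarz.  Apply `scal`.  Its hypothesis at a real `t`:
if `j0 ∉ J'` then `ξ j0 = ± e_none` (at most one such `j0`), so `single none none 1 = ξ j0 ξ j0ᵀ` and
`M + t + δ E = U diag(λ + t + δ [j = j0]) Uᵀ` is invertible for `δ = 1 - t - λ j0`; if there is no such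
`j0` take `δ = 0`.  Finally `(w + z - Aβ + η/ε).im * z.im ≥ z.im^2 > 0` (the terms `j ∉ J'` of
`-Aβ` have the good sign), `ε ≠ 0` since `ε.im * z.im < 0`, and `det ≠ 0`. -/

namespace Vale.Agent.P256

open Matrix

section
variable {ι F : Type} [Fintype ι] [DecidableEq ι] [CommRing F] [Algebra ℝ F]

/-- The matrix with eigenvectors the columns of `U` and eigenvalues `d`. -/
noncomputable def hsp (U : Matrix ι ι ℝ) (d : ι → F) : Matrix ι ι F :=
  U.map (algebraMap ℝ F) * diagonal d * (U.map (algebraMap ℝ F))ᵀ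

theorem hsp_apply (U : Matrix ι ι ℝ) (d : ι → F) (a b : ι) :
    hsp U d a b = ∑ j, (U a j * U b j) • d j := by
  rw [hsp, mul_apply]
  refine Finset.sum_congr rfl fun j _ => ?_
  rw [mul_diagonal, transpose_apply, map_apply, map_apply, Algebra.smul_def, map_mul]
  ring

theorem hsp_mul {U : Matrix ι ι ℝ} (hU : Uᵀ * U = 1) (d d' : ι → F) :
    hsp U d * hsp U d' = hsp U fun j => d j * d' j := by
  have e : (U.map (algebraMap ℝ F))ᵀ * U.map (algebraMap ℝ F) = 1 := by
    rw [← transpose_map, ← Matrix.map_mul, hU, Matrix.map_one _ (map_zero _) (map_one _)]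
  simp only [hsp, Matrix.mul_assoc]
  rw [← Matrix.mul_assoc (U.map (algebraMap ℝ F))ᵀ, e, Matrix.one_mul,
    ← Matrix.mul_assoc (diagonal d), diagonal_mul_diagonal]

theorem hsp_const {U : Matrix ι ι ℝ} (hU : Uᵀ * U = 1) (z : F) :
    hsp U (fun _ => z) = z • (1 : Matrix ι ι F) := by
  ext a b
  have hU' : U * Uᵀ = 1 := mul_eq_one_comm.1 hU
  have e := congrFun (congrFun hU' a) b
  simp only [mul_apply, transpose_apply] at e
  rw [hsp_apply, ← Finset.sum_smul, e, Matrix.smul_apply, one_apply, one_apply]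
  split_ifs <;> simp

theorem hsp_add (U : Matrix ι ι ℝ) (d d' : ι → F) :
    hsp U d + hsp U d' = hsp U fun j => d j + d' j := by
  ext a b
  simp only [Matrix.add_apply, hsp_apply, smul_add, Finset.sum_add_distrib]

theorem hsp_map (U : Matrix ι ι ℝ) (d : ι → ℝ) :
    (hsp U d).map (algebraMap ℝ F) = hsp U fun j => algebraMap ℝ F (d j) := by
  ext a b
  simp only [map_apply, hsp_apply, map_sum, Algebra.smul_def, map_mul, Algebra.algebraMap_self,
    RingHom.id_apply]

theorem hsp_B {Q : Type} (B : Matrix Q ι ℝ) (U : Matrix ι ι ℝ) (d : ι → F) (q : Q) (a : ι) :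
    (B.map (algebraMap ℝ F) * hsp U d) q a = ∑ j, ((B * U) q j * U a j) • d j := by
  simp only [mul_apply, hsp_apply, Finset.mul_sum, Finset.sum_mul, Finset.sum_smul, map_apply]
  rw [Finset.sum_comm]
  refine Finset.sum_congr rfl fun j _ => Finset.sum_congr rfl fun k _ => ?_
  rw [← Algebra.smul_def, smul_smul, mul_assoc]

theorem hsp_trace {Q : Type} [Fintype Q] (B : Matrix Q ι ℝ) (U : Matrix ι ι ℝ) (d : ι → F) :
    (B.map (algebraMap ℝ F) * hsp U d * (B.map (algebraMap ℝ F))ᵀ).trace =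
      ∑ j, (∑ q, (B * U) q j ^ 2) • d j := by
  simp only [trace, diag_apply, Finset.sum_smul]
  rw [Finset.sum_comm]
  refine Finset.sum_congr rfl fun q _ => ?_
  rw [mul_apply]
  simp only [hsp_B, Finset.sum_mul, transpose_apply, map_apply]
  rw [Finset.sum_comm]
  refine Finset.sum_congr rfl fun j _ => ?_
  rw [sq]
  nth_rw 3 [mul_apply]
  rw [Finset.mul_sum, Finset.sum_smul]
  refine Finset.sum_congr rfl fun a _ => ?_
  simp only [Algebra.smul_def, map_mul]
  ring

theorem hsp_exists {M : Matrix ι ι ℝ} (hM : M.IsSymm) :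
    ∃ (U : Matrix ι ι ℝ) (l : ι → ℝ), Uᵀ * U = 1 ∧ M = hsp U l := by
  have hH : M.IsHermitian := by
    rw [IsHermitian, conjTranspose_eq_transpose_of_trivial]
    exact hM
  refine ⟨hH.eigenvectorUnitary, hH.eigenvalues, ?_, ?_⟩
  · rw [← conjTranspose_eq_transpose_of_trivial]
    exact Unitary.coe_star_mul_self hH.eigenvectorUnitary
  · refine hH.spectral_theorem.trans ?_
    rw [Unitary.conjStarAlgAut_apply, hsp, star_eq_conjTranspose,
      conjTranspose_eq_transpose_of_trivial]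
    rfl

/-- Fibre sums. -/
noncomputable def hfib (J : Finset ι) (l a : ι → ℝ) (μ : ℝ) : ℝ :=
  ∑ j ∈ J.filter fun j => l j = μ, a j

theorem hfib_sum (J : Finset ι) (l a : ι → ℝ) (f : ℝ → F) :
    ∑ j ∈ J, a j • f (l j) = ∑ μ ∈ J.image l, hfib J l a μ • f μ := by
  rw [← Finset.sum_fiberwise_of_maps_to (g := l) fun j hj => Finset.mem_image_of_mem l hj]
  refine Finset.sum_congr rfl fun μ _ => ?_
  rw [hfib, Finset.sum_smul]
  exact Finset.sum_congr rfl fun j hj => by rw [(Finset.mem_filter.1 hj).2]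

theorem hfib_all {J : Finset ι} (l : ι → ℝ) {a : ι → ℝ} (ha : ∀ j, j ∉ J → a j = 0) {d : ι → F}
    {f : ℝ → F} (hd : ∀ j ∈ J, d j = f (l j)) :
    ∑ j, a j • d j = ∑ μ ∈ J.image l, hfib J l a μ • f μ := by
  rw [← hfib_sum, ← Finset.sum_subset J.subset_univ fun j _ hj => by rw [ha j hj, zero_smul]]
  exact Finset.sum_congr rfl fun j hj => by rw [hd j hj]

end

theorem hyp_Hq {K Q F : Type} [Fintype K] [Fintype Q] [CommRing F] [Algebra ℝ F]
    (h : Q × K → Q × K → ℝ) (S : Finset ℝ) (v : ℝ → Q × K → ℝ) (f : ℝ → F) :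
    Hq h (fun x => ∑ μ ∈ S, v μ x • f μ) =
      ∑ μ ∈ S, ∑ ν ∈ S, (∑ x, ∑ y, h x y • (v μ x * v ν y)) • (f μ * f ν) := by
  simp only [Hq, Finset.sum_mul_sum, Finset.smul_sum, Finset.sum_smul]
  simp only [Finset.sum_comm (s := Finset.univ) (t := S)]
  refine Finset.sum_congr rfl fun μ _ => Finset.sum_congr rfl fun ν _ =>
    Finset.sum_congr rfl fun x _ => Finset.sum_congr rfl fun y _ => ?_
  rw [smul_mul_smul_comm, smul_smul, smul_eq_mul]

theorem hyp_im {z : ℂ} (hz : z.im ≠ 0) (μ : ℝ) : ((z + μ)⁻¹).im * z.im < 0 := by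
  have h0 : z + μ ≠ 0 := fun h => hz (by simpa using congrArg Complex.im h)
  have h1 := Complex.normSq_pos.2 h0
  rw [Complex.inv_im, Complex.add_im, Complex.ofReal_im, add_zero, div_mul_eq_mul_div, neg_mul]
  exact div_neg_of_neg_of_pos (neg_lt_zero.2 (mul_self_pos.2 hz)) h1

theorem hyp_shift {K : Type} [Fintype K] [DecidableEq K] {U : Matrix (Option K) (Option K) ℝ}
    (hU : Uᵀ * U = 1) (l : Option K → ℝ) {J : Finset (Option K)}
    (hJ : ∀ j, j ∉ J → ∀ k, U (some k) j = 0) (t : ℝ) (ht : ∀ j ∈ J, t + l j ≠ 0) :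
    ∃ (δ : ℝ) (d : Option K → ℝ), hsp U l + t • (1 : Matrix (Option K) (Option K) ℝ) +
      δ • Matrix.single none none (1 : ℝ) = hsp U d ∧ (∀ j, d j ≠ 0) ∧ ∀ j ∈ J, d j = t + l j := by
  rw [← hsp_const hU, hsp_add]
  by_cases hj : ∃ j0, j0 ∉ J
  swap
  · push Not at hj
    exact ⟨0, _, by rw [zero_smul, add_zero], fun j => add_comm t _ ▸ ht j (hj j),
      fun j _ => add_comm _ _⟩
  obtain ⟨j0, h0⟩ := hj
  have e : ∀ j, U none j0 * U none j = if j0 = j then 1 else 0 := fun j => by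
    have := congrFun (congrFun hU j0) j
    simpa [mul_apply, Fintype.sum_option, hJ j0 h0, one_apply] using this
  have e1 : ∀ j, j ∉ J → j = j0 := fun j hj => by
    by_contra hne
    have a1 := e j
    have a2 := e j0
    have a3 := congrFun (congrFun hU j) j
    simp only [mul_apply, Fintype.sum_option, hJ j hj, transpose_apply, mul_zero,
      Finset.sum_const_zero, add_zero, one_apply_eq] at a3
    rw [if_neg (Ne.symm hne)] at a1
    rw [if_pos rfl] at a2
    rcases mul_eq_zero.1 a1 with a | a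
    · simp [a] at a2
    · simp [a] at a3
  have e2 : (1 - t - l j0) • Matrix.single none none (1 : ℝ) =
      hsp U fun j => if j = j0 then 1 - t - l j0 else 0 := by
    ext a b
    have a2 := e j0
    rw [if_pos rfl] at a2
    rw [hsp_apply]
    rcases a with _ | a <;> rcases b with _ | b <;> simp [hJ j0 h0, a2]
  refine ⟨1 - t - l j0, _, by rw [e2, hsp_add], fun j => ?_, fun j hj => ?_⟩
  · split_ifs with h
    · rw [h]
      linarith
    · rw [add_zero, add_comm]
      exact ht j (by_contra fun hj => h (e1 j hj))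
  · rw [if_neg (fun h : j = j0 => h0 (h ▸ hj)), add_zero, add_comm]

theorem hyp_core {K Q : Type} [Fintype K] [DecidableEq K] [Fintype Q] [Nonempty K]
    (h : Q × K → Q × K → ℝ) (A : ℝ) (hA0 : 0 ≤ A)
    (hA : ∀ v : Q × K → ℝ, |Hq h v| ≤ A * ∑ x, v x ^ 2)
    (M : Matrix (Option K) (Option K) ℝ) (hM : M.IsSymm) (B : Matrix Q (Option K) ℝ) (w : ℝ)
    (hkey : ∀ (t δ : ℝ) (Mi : Matrix (Option K) (Option K) ℝ),
      (M + t • (1 : Matrix (Option K) (Option K) ℝ) + δ • Matrix.single none none (1 : ℝ)) * Mi = 1 →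
        ∑ l, Mi (some l) (some l) = 0 → 0 ≤ Hq h (cut (B * Mi)))
    (z : ℂ) (hz : z.im ≠ 0) :
    pM h A (M.map (algebraMap ℝ ℂ) + z • (1 : Matrix (Option K) (Option K) ℂ))
      (B.map (algebraMap ℝ ℂ)) (algebraMap ℝ ℂ w + z) ≠ 0 := by
  obtain ⟨U, l, hU, rfl⟩ := hsp_exists hM
  set c : Option K → ℝ := fun j => ∑ k, U (some k) j * U (some k) j with hc
  set b : Option K → ℝ := fun j => ∑ q, (B * U) q j ^ 2 with hb
  set J := Finset.univ.filter fun j => 0 < c j with hJ
  have c0 : ∀ j, 0 ≤ c j := fun j => Finset.sum_nonneg fun k _ => mul_self_nonneg _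
  have c1 : ∀ j, j ∉ J → c j = 0 := fun j hj => le_antisymm (not_lt.1 (by simpa [hJ] using hj)) (c0 j)
  have c2 : ∀ j, j ∉ J → ∀ k, U (some k) j = 0 := fun j hj k => mul_self_eq_zero.1
    ((Finset.sum_eq_zero_iff_of_nonneg fun k _ => mul_self_nonneg _).1 (c1 j hj) k (Finset.mem_univ k))
  set v : ℝ → Q × K → ℝ := fun μ x => hfib J l (fun j => (B * U) x.1 j * U (some x.2) j) μ with hv
  have key : ∀ (F : Type) [CommRing F] [Algebra ℝ F] (d : Option K → F) (f : ℝ → F),
      (∀ j ∈ J, d j = f (l j)) →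
      ∑ k, hsp U d (some k) (some k) = ∑ μ ∈ J.image l, hfib J l c μ • f μ ∧
      Hq h (cut (B.map (algebraMap ℝ F) * hsp U d)) = ∑ μ ∈ J.image l, ∑ ν ∈ J.image l,
        (∑ x, ∑ y, h x y • (v μ x * v ν y)) • (f μ * f ν) := fun F _ _ d f hd => by
    constructor
    · rw [← hfib_all l c1 hd]
      simp only [hsp_apply, hc, Finset.sum_smul]
      exact Finset.sum_comm
    · rw [← hyp_Hq]
      congr 1
      funext x
      exact (hsp_B _ _ _ _ _).trans (hfib_all l (fun j hj => by rw [c2 j hj, mul_zero]) hd)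
  have hS : (J.image l).Nonempty := by
    refine Finset.Nonempty.image (Finset.nonempty_iff_ne_empty.2 fun h0 => ?_) _
    obtain ⟨k⟩ := ‹Nonempty K›
    have hU' : U * Uᵀ = 1 := mul_eq_one_comm.1 hU
    have e := congrFun (congrFun hU' (some k)) (some k)
    simp [mul_apply, c2 _ (h0 ▸ Finset.notMem_empty _) k] at e
  have cp : ∀ μ ∈ J.image l, 0 < hfib J l c μ := fun μ hμ => by
    obtain ⟨j, hj, rfl⟩ := Finset.mem_image.1 hμ
    exact Finset.sum_pos' (fun j _ => c0 j)
      ⟨j, Finset.mem_filter.2 ⟨hj, rfl⟩, (Finset.mem_filter.1 hj).2⟩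
  have main := scal (J.image l) (hfib J l c) (hfib J l b)
    (fun μ ν => ∑ x, ∑ y, h x y • (v μ x * v ν y)) A hS cp (fun μ _ => by
      refine ((le_abs_self _).trans (hA (v μ))).trans ?_
      rw [mul_assoc]
      refine mul_le_mul_of_nonneg_left ?_ hA0
      simp only [hfib, hb, hc]
      rw [Finset.sum_comm, Finset.sum_comm (t := (Finset.univ : Finset K)), Finset.sum_mul_sum,
        Fintype.sum_prod_type]
      refine Finset.sum_le_sum fun q _ => Finset.sum_le_sum fun k _ => ?_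
      simp only [← sq]
      exact Finset.sum_mul_sq_le_sq_mul_sq _ _ _)
    (fun t ht h0 => by
      obtain ⟨δ, d, e1, e2, e3⟩ := hyp_shift hU l c2 t fun j hj =>
        ht _ (Finset.mem_image_of_mem l hj)
      obtain ⟨k1, k2⟩ := key ℝ (fun j => (d j)⁻¹) (fun μ => (t + μ)⁻¹) fun j hj => by rw [e3 j hj]
      have := hkey t δ (hsp U fun j => (d j)⁻¹) (by
        rw [e1, hsp_mul hU, ← one_smul ℝ (1 : Matrix (Option K) (Option K) ℝ), ← hsp_const hU]
        exact congrArg _ (funext fun j => mul_inv_cancel₀ (e2 j))) (k1.trans h0)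
      refine this.trans_eq (k2.trans ?_)
      simp only [smul_eq_mul, div_eq_mul_inv, mul_inv]) z hz
  obtain ⟨k1, k2⟩ := key ℂ (fun j => (z + l j)⁻¹) (fun μ => (z + μ)⁻¹) fun j hj => rfl
  have hi : ((hsp U l).map (algebraMap ℝ ℂ) + z • (1 : Matrix (Option K) (Option K) ℂ)) *
      hsp U (fun j => (z + l j)⁻¹) = 1 := by
    rw [hsp_map, ← hsp_const hU, hsp_add, hsp_mul hU,
      ← one_smul ℂ (1 : Matrix (Option K) (Option K) ℂ), ← hsp_const hU]
    refine congrArg _ (funext fun j => ?_)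
    rw [add_comm]
    exact mul_inv_cancel₀ fun h => hz (by simpa using congrArg Complex.im h)
  rw [pM_of_inv h A _ _ hi, k1, k2, hsp_trace, ← Finset.sum_add_sum_compl J,
    hfib_sum J l b fun μ => (z + μ)⁻¹]
  refine mul_ne_zero (pow_ne_zero _ (isUnit_det_of_right_inverse hi).ne_zero) fun h0 => ?_
  simp only [div_eq_mul_inv _ (z + _), div_eq_mul_inv _ ((z + _) * _), mul_inv,
    ← Complex.real_smul] at main
  have r1 : (∑ j ∈ Jᶜ, b j • (z + l j)⁻¹).im * z.im ≤ 0 := by
    rw [Complex.im_sum, Finset.sum_mul]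
    refine Finset.sum_nonpos fun j _ => ?_
    rw [Complex.smul_im, smul_eq_mul, mul_assoc]
    exact mul_nonpos_of_nonneg_of_nonpos (Finset.sum_nonneg fun _ _ => sq_nonneg _) (hyp_im hz _).le
  have r2 : (∑ μ ∈ J.image l, hfib J l c μ • (z + μ)⁻¹).im * z.im < 0 := by
    rw [Complex.im_sum, Finset.sum_mul]
    refine Finset.sum_neg (fun μ hμ => ?_) hS
    rw [Complex.smul_im, smul_eq_mul, mul_assoc]
    exact mul_neg_of_pos_of_neg (cp μ hμ) (hyp_im hz _)
  have r3 : ∑ μ ∈ J.image l, hfib J l c μ • (z + μ)⁻¹ ≠ 0 := fun h => by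
    rw [h, Complex.zero_im, zero_mul] at r2
    exact r2.false
  rw [eq_neg_of_add_eq_zero_right h0, neg_div, mul_div_cancel_right₀ _ r3] at main
  have r4 := mul_self_pos.2 hz
  simp only [Complex.sub_im, Complex.neg_im, Complex.add_im, Complex.smul_im, smul_eq_mul,
    Complex.coe_algebraMap, Complex.ofReal_im] at main
  nlinarith [mul_nonneg hA0 (neg_nonneg.2 r1)]

end Vale.Agent.P256
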