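import Mathlib
import Vale.Agent.P256.SBlk
import Vale.Agent.P256.SFin

/-! P256 task S10: the key lemma.

Let `M = Mm m`, `Pi = Bm * Mi`, so `Bm = Pi * M`.  Put `E x = cut Pi x - piL f x`, `|E| ≤ ε`.  For every
`l'`: `∑ a b, m (iA a) (iB b) l' * f q a b = κ0 q * M none l' + ∑ l, E (q, l) * M (some l) l'` with
`κ0 q = Pi q none + f q none none` (split the sums over `Option`, use `Sym3`).  Write
`M none (iA a) = μ * u a` with `Unit1 u a0` (divide by the largest entry; if the row vanishes take `u` a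
basis vector, `μ = 0`), likewise `ν, v, b0`.  Let `δA` be the max over `l, a` of
`|M l (iA a) - M l (iA a0) / u a0 * u a|`, likewise `δB`, `δ = max δA δB`, `k = card (α ⊕ β)`.  Then the
hypotheses of `key_blocks` hold with `η = k * ε * δ` (absorb `∑ l, E (q,l) * M (some l) (iA a0) / u a0`
into `κ`).  From the blocks (each row of `M` restricted to `iA` is `s * ML + (multiple of u) + O(Cη)`,
blocks 1 and 2; for `iB` blocks 3 and 4): `δ ≤ 2 (|s| R + C η)`, so for `4 C k ε ≤ 1`: `δ ≤ 4 R |s|` and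
`C η ≤ 4 C k R ε |s|`.  Choose `ε` so small that `key_final` applies (`Blocks` is monotone in `η`). -/

namespace Vale.Agent.P256

open Matrix

theorem ky_row {A : Type} {u w n : A → ℝ} {a0 : A} (hu : Unit1 u a0) {s t R η : ℝ}
    (hR : ∀ a, |n a| ≤ R) (h : ∀ a, |w a - s * n a - t * u a| ≤ η) (a : A) :
    |w a - w a0 * u a0 * u a| ≤ 2 * (|s| * R + η) := by
  have k : ∀ a, |w a - t * u a| ≤ |s| * R + η := fun a => by
    have k1 := abs_le.1 (h a)
    have k2 := abs_le.1 (fin_mul le_rfl (hR a) : |s * n a| ≤ |s| * R)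
    rw [abs_le]
    constructor <;> linarith [k1.1, k1.2, k2.1, k2.2]
  have k1 := abs_le.1 (k a)
  have k2 := abs_le.1 (rg_mul (hu.1 a) (rg_mul (hu.1 a0) (k a0)))
  rw [mul_sub (u a0), mul_left_comm (u a0), hu.sq] at k2
  rw [abs_le]
  constructor <;> linarith [k1.1, k1.2, k2.1, k2.2]

theorem ky_abs {A K : Type} [Fintype K] {u : A → ℝ} {a0 : A} {E : K → ℝ} {W : K → A → ℝ}
    {ε δ κ : ℝ} (hE : ∀ k, |E k| ≤ ε) (hδ : 0 ≤ δ) (hW : ∀ k a, |W k a - W k a0 * u a0 * u a| ≤ δ)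
    (a : A) : |κ * u a + ∑ k, E k * W k a - (κ + ∑ k, E k * (W k a0 * u a0)) * u a| ≤
      Fintype.card K * ε * δ := by
  refine le_of_eq_of_le (congrArg _ ?_) (rg_sum E _ (fun k => hW k a) hδ ?_)
  · simp only [add_mul, Finset.sum_mul, mul_sub, Finset.sum_sub_distrib, mul_assoc]
    ring
  · exact (Finset.sum_le_card_nsmul _ _ _ fun k _ => hE k).trans_eq (nsmul_eq_mul _ _)

theorem ky_sum {α β Q : Type} [Fintype α] [Fintype β] [DecidableEq α] [DecidableEq β] [Fintype Q]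
    (f : Q → Option α → Option β → ℝ) {m : Ix α β → Ix α β → Ix α β → ℝ} (hm : Sym3 m)
    {Mi : Matrix (Ix α β) (Ix α β) ℝ} (h1 : Mm m * Mi = 1) (q : Q) (l : Ix α β) :
    ∑ a, ∑ b, m (iA a) (iB b) l * f q a b =
      ((Bm (top f) m * Mi) q none + f q none none) * Mm m none l +
        ∑ k, (cut (Bm (top f) m * Mi) (q, k) - piL f (q, k)) * Mm m (some k) l := by
  have e : Bm (top f) m q l = ∑ k, (Bm (top f) m * Mi) q k * Mm m k l := by
    rw [← mul_apply, Matrix.mul_assoc, mul_eq_one_comm.1 h1, Matrix.mul_one]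
  rw [Fintype.sum_option] at e
  simp only [cut, sub_mul, Finset.sum_sub_distrib, add_mul]
  rw [add_right_comm, ← add_sub_assoc, ← e]
  simp only [Fintype.sum_option, Fintype.sum_sum_type, piL, Bm, Mm, top, of_apply, iA, iB,
    Option.map_none, Option.map_some, smul_eq_mul, Finset.sum_add_distrib, neg_mul,
    Finset.sum_neg_distrib, hm.1 (some _) none, mul_comm (m _ _ _)]
  ring

theorem key_main {S α β Q : Type} [Fintype S] [Fintype α] [Fintype β] [DecidableEq α]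
    [DecidableEq β] [Fintype Q] [Nonempty α] [Nonempty β] {ψ : S → Option α → Option β → ℝ}
    (hψ : Good ψ) {f : Q → Option α → Option β → ℝ} (hf : Fam ψ f) :
    ∃ ε : ℝ, 0 < ε ∧ KeyP (top f) (piL f) ε := by
  obtain ⟨C, hC, H⟩ := key_blocks hψ hf
  obtain ⟨ε1, hε1, H1⟩ := key_final _ (ML_posDef hψ)
  obtain ⟨R, hR⟩ := (Set.finite_range fun p : Ix α β × Ix α β => |ML ψ p.1 p.2|).bddAbove
  have hR' : ∀ l l', |ML ψ l l'| ≤ R := fun l l' => hR ⟨(l, l'), rfl⟩
  have R0 : 0 ≤ R := (abs_nonneg _).trans (hR' none none)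
  obtain ⟨n, hn⟩ : ∃ n : ℝ, n = Fintype.card (α ⊕ β) := ⟨_, rfl⟩
  have n0 : 0 ≤ n := hn ▸ Nat.cast_nonneg _
  obtain ⟨ε, hε, e1, e2⟩ : ∃ ε : ℝ, 0 < ε ∧ 4 * (C * n * ε) ≤ 1 ∧ 4 * R * (C * n * ε) ≤ ε1 := by
    have k : 0 < 4 * (C * n) * (R + 1) + 1 := by positivity
    have k1 := min_le_left 1 ε1
    have k2 := min_le_right 1 ε1
    have k3 : 0 < min 1 ε1 := by positivity
    have k4 : 0 ≤ C * n := by positivity
    refine ⟨min 1 ε1 / (4 * (C * n) * (R + 1) + 1), by positivity, ?_, ?_⟩ <;>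
      rw [← mul_div_assoc, ← mul_div_assoc, div_le_iff₀ k]
    · nlinarith [mul_nonneg k4 R0]
    · nlinarith [mul_nonneg k4 R0]
  refine ⟨ε, hε, fun m hm Mi h1 h0 hE => ?_⟩
  have hM : (Mm m).IsSymm := IsSymm.ext fun i j => hm.2 _ _ _
  have hN : ∀ l l', ML ψ l l' = ML ψ l' l := fun l l' =>
    Finset.sum_congr rfl fun _ _ => mul_comm _ _
  obtain ⟨u, a0, μ, hu, hμ, -⟩ := exists_unit (fun a => Mm m none (iA a)) none
  obtain ⟨v, b0, ν, hv, hν, -⟩ := exists_unit (fun b => Mm m none (iB b)) none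
  obtain ⟨F, hF⟩ : ∃ F : Ix α β × (Option α ⊕ Option β) → ℝ, F = fun p => p.2.elim
    (fun a => |Mm m p.1 (iA a) - Mm m p.1 (iA a0) * u a0 * u a|)
    fun b => |Mm m p.1 (iB b) - Mm m p.1 (iB b0) * v b0 * v b| := ⟨_, rfl⟩
  obtain ⟨p, hp⟩ := Finite.exists_max F
  have hA : ∀ l a, |Mm m l (iA a) - Mm m l (iA a0) * u a0 * u a| ≤ F p := fun l a =>
    le_of_eq_of_le (by rw [hF]; rfl) (hp (l, .inl a))
  have hB : ∀ l b, |Mm m l (iB b) - Mm m l (iB b0) * v b0 * v b| ≤ F p := fun l b =>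
    le_of_eq_of_le (by rw [hF]; rfl) (hp (l, .inr b))
  have δ0 : 0 ≤ F p := (abs_nonneg _).trans (hA none none)
  obtain ⟨s, γ', γ, b1, b2, b3, b4⟩ := H m hm u a0 v b0 hu hv _ _ (n * ε * F p) (by positivity)
    (fun q a => by
      simp only [fun a' b => (hm.1 (iA a) a' b).trans (hm.2 _ _ _)]
      rw [ky_sum f hm h1, hμ, ← mul_assoc, hn]
      exact ky_abs (W := fun k a => Mm m (some k) (iA a)) (fun k => hE (q, k)) δ0
        (fun k => hA _) a)
    fun q b => by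
      simp only [hm.2 _ (iB b)]
      rw [Finset.sum_comm, ky_sum f hm h1, hν, ← mul_assoc, hn]
      exact ky_abs (W := fun k b => Mm m (some k) (iB b)) (fun k => hE (q, k)) δ0
        (fun k => hB _) b
  have hδ : F p ≤ 2 * (|s| * R + C * (n * ε * F p)) := by
    generalize C * (n * ε * F p) = η at *
    obtain ⟨l, a | b⟩ := p
    · rw [hF]
      rcases ix_cases l with ⟨a', rfl⟩ | ⟨b', rfl⟩
      · exact ky_row hu (fun a => hR' _ _) (b1 a') a
      · refine ky_row hu (fun a => hR' (iB b') (iA a)) (t := u none * γ b')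
          (w := fun a => Mm m (iB b') (iA a)) (fun a => ?_) a
        rw [hM.apply, hN, mul_right_comm]
        exact b2 a b'
    · rw [hF]
      rcases ix_cases l with ⟨a', rfl⟩ | ⟨b', rfl⟩
      · exact ky_row hv (fun a => hR' _ _) (b3 a') b
      · exact ky_row hv (fun a => hR' _ _) (b4 b') b
  have hη : C * (n * ε * F p) ≤ ε1 * |s| := by
    have k1 : F p ≤ 4 * R * |s| := by nlinarith [mul_le_mul_of_nonneg_right e1 δ0]
    have k2 := mul_le_mul_of_nonneg_left k1 (by positivity : 0 ≤ C * n * ε)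
    nlinarith [mul_le_mul_of_nonneg_right e2 (abs_nonneg s)]
  exact H1 _ Mi hM h1 h0 u a0 v b0 hu hv μ ν hμ hν s γ' γ ⟨fun _ _ => (b1 _ _).trans hη,
    fun _ _ => (b2 _ _).trans hη, fun _ _ => (b3 _ _).trans hη, fun _ _ => (b4 _ _).trans hη⟩

end Vale.Agent.P256
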