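import Mathlib
import Vale.Agent.P256.SDefs

/-! P256 task S12: Taylor homomorphism of `ℝ`.

`exists_tau`: `F` = subfield (or `Subring`/`Subalgebra ℚ`) of `ℝ` generated by `F0`, countable.  Choose `c`
algebraically independent over `F` (ℝ is uncountable; see `exists_transc_fam` in
`Vale/Agent/P002/Der.lean`, or a transcendence basis of `ℝ` over `F`, which is infinite).  Then copy
`der_lift` from `Vale/Agent/P002/Der.lean` (formal smoothness) and apply it to `R = MvPolynomial K F`,
`ι = aeval c` (injective), `φ = mk ∘ (r ↦ C r, X k ↦ C (c k) + X k)`, `π` = constant coefficient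
(`Ideal.Quotient.lift`), whose kernel is nilpotent.
`low_of_mem`: induction on `N` (or `Submodule.pow_induction_on_left`), or
`MvPolynomial.mem_pow_idealOfVars_iff` if available. -/

namespace Vale.Agent.P256

open MvPolynomial

theorem stau_lift {R Ω B : Type} [CommRing R] [IsDomain R] [Field Ω] [CharZero Ω] [CommRing B]
    (ι : R →+* Ω) (hι : Function.Injective ι) (φ : R →+* B) (π : B →+* Ω)
    (hπ : Function.Surjective π) (hn : IsNilpotent (RingHom.ker π)) (h : ∀ a, π (φ a) = ι a) :
    ∃ L : Ω →+* B, ∀ a, L (ι a) = φ a := by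
  let := ι.toAlgebra
  let := φ.toAlgebra
  have : FaithfulSMul R Ω := (faithfulSMul_iff_algebraMap_injective R Ω).2 hι
  let : Algebra (FractionRing R) Ω := FractionRing.liftAlgebra R Ω
  have := FractionRing.isScalarTower_liftAlgebra R Ω
  have : CharZero (FractionRing R) := (algebraMap (FractionRing R) Ω).charZero
  have h1 : Algebra.FormallySmooth R (FractionRing R) := .of_isLocalization (nonZeroDivisors R)
  obtain ⟨s, hs⟩ := exists_isTranscendenceBasis (FractionRing R) Ω
  have := hs.isAlgebraic_field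
  have h2 : Algebra.FormallySmooth (FractionRing R) Ω :=
    .of_algebraicIndependent_of_isSeparable hs.1
  have h3 : Algebra.FormallySmooth R Ω := .comp R (FractionRing R) Ω
  let g : B →ₐ[R] Ω := ⟨π, h⟩
  exact ⟨(Algebra.FormallySmooth.liftOfSurjective (AlgHom.id R Ω) g hπ hn).toRingHom,
    (Algebra.FormallySmooth.liftOfSurjective (AlgHom.id R Ω) g hπ hn).commutes⟩

theorem stau_count {O Ω σ : Type} [CommRing O] [Countable O] [CommRing Ω] [Algebra O Ω] [Finite σ]
    (y : σ → Ω) : Countable (Algebra.adjoin O (Set.range y)) := by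
  rw [← Cardinal.mk_le_aleph0_iff]
  refine (Algebra.cardinalMk_adjoin_le O _).trans (max_le (max_le ?_ ?_) le_rfl)
  · exact Cardinal.mk_le_aleph0
  · exact Cardinal.le_aleph0_iff_set_countable.2 (Set.countable_range y)

theorem stau_ind {O K : Type} [CommRing O] [Countable O] [Algebra O ℝ] [FaithfulSMul O ℝ]
    [Fintype K] : ∃ c : K → ℝ, AlgebraicIndependent O c := by
  have : Nontrivial O := (algebraMap O ℝ).domain_nontrivial
  obtain ⟨s, hs⟩ := exists_isTranscendenceBasis O ℝ
  have hi : Infinite s := by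
    by_contra hf
    have : Finite s := not_infinite_iff_finite.1 hf
    have := stau_count (O := O) ((↑) : s → ℝ)
    have h1 := hs.isAlgebraic
    refine Set.not_countable_univ (α := ℝ)
      ((Algebraic.countable (Algebra.adjoin O (Set.range ((↑) : s → ℝ))) ℝ).mono fun x _ => ?_)
    exact h1.isAlgebraic x
  let e : K ↪ s := (Fintype.equivFin K).toEmbedding.trans
    (Fin.valEmbedding.trans (Infinite.natEmbedding s))
  exact ⟨_, hs.1.comp e e.injective⟩

theorem stau_ker {K : Type} (f : MvPolynomial K ℝ) : f ∈ mI K ↔ constantCoeff f = 0 := by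
  have h := mem_pow_idealOfVars_iff' 1 f
  rw [pow_one] at h
  refine h.trans ⟨fun h1 => h1 0 (by simp), fun h1 x hx => ?_⟩
  have : x = 0 := (Finsupp.degree_eq_zero_iff x).1 (Nat.lt_one_iff.1 hx)
  rw [this]
  exact h1

theorem exists_tau {K : Type} [Fintype K] [DecidableEq K] (F0 : Finset ℝ) (N : ℕ) :
    ∃ (c : K → ℝ) (τ : ℝ →+* MvPolynomial K ℝ ⧸ mI K ^ (N + 1)),
      (∀ r ∈ F0, τ r = Ideal.Quotient.mk _ (C r)) ∧
        ∀ k, τ (c k) = Ideal.Quotient.mk _ (C (c k) + X k) := by
  let F := Algebra.adjoin ℚ (Set.range ((↑) : F0 → ℝ))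
  have : Countable F := stau_count _
  obtain ⟨c, hc⟩ := stau_ind (O := F) (K := K)
  let φ : MvPolynomial K F →+* MvPolynomial K ℝ :=
    eval₂Hom (C.comp (algebraMap F ℝ)) fun k => C (c k) + X k
  let π : (MvPolynomial K ℝ ⧸ mI K ^ (N + 1)) →+* ℝ :=
    Ideal.Quotient.lift _ constantCoeff fun f hf =>
      (stau_ker f).1 (Ideal.pow_le_self N.succ_ne_zero hf)
  have hπ : ∀ f, π (Ideal.Quotient.mk _ f) = constantCoeff f := fun _ => rfl
  have hk : RingHom.ker π ≤ (mI K).map (Ideal.Quotient.mk _) := fun x hx => by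
    obtain ⟨f, rfl⟩ := Ideal.Quotient.mk_surjective x
    exact Ideal.mem_map_of_mem _ ((stau_ker f).2 hx)
  have hn : IsNilpotent (RingHom.ker π) := ⟨N + 1, by
    rw [Ideal.zero_eq_bot, eq_bot_iff]
    refine (Ideal.pow_right_mono hk _).trans ?_
    rw [← Ideal.map_pow, Ideal.map_quotient_self]⟩
  have he : (constantCoeff : MvPolynomial K ℝ →+* ℝ).comp φ =
      (aeval c : MvPolynomial K F →ₐ[F] ℝ).toRingHom := by
    refine ringHom_ext (fun r => ?_) fun k => ?_
    · simp [φ]
    · simp [φ]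
  obtain ⟨L, hL⟩ := stau_lift (aeval c : MvPolynomial K F →ₐ[F] ℝ).toRingHom hc
    ((Ideal.Quotient.mk _).comp φ) π (fun r => ⟨Ideal.Quotient.mk _ (C r), by simp [hπ]⟩) hn
    fun a => DFunLike.congr_fun he a
  refine ⟨c, L, fun r hr => ?_, fun k => ?_⟩
  · have h1 := hL (C ⟨r, Algebra.subset_adjoin ⟨⟨r, hr⟩, rfl⟩⟩)
    simpa [φ] using h1
  · have h1 := hL (X k)
    simpa [φ] using h1

theorem low_of_mem {K : Type} [Fintype K] [DecidableEq K] (N : ℕ) (f : MvPolynomial K ℝ)
    (hf : f ∈ mI K ^ N) (d : ℕ) (hd : d < N) : homogeneousComponent d f = 0 := by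
  have h := (mem_pow_idealOfVars_iff' N f).1 hf
  ext m
  rw [coeff_homogeneousComponent, coeff_zero]
  split_ifs with e
  · exact h m (e ▸ hd)
  · rfl

end Vale.Agent.P256
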