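import Mathlib
import Vale.Agent.P256.STau
import Vale.Agent.P256.SGap
import Vale.Agent.P256.SExt

/-! P256 task S15: a shadow that contains a polynomial image contains its pseudo-moments.

Let the shadow be given by `N, a, A₀, A, B`.  `F0` = all entries of `A₀, A i, B j` and all coefficients of
the `g i`.  `r = N * N`, `exists_tau F0 (2 * 2^(r+1))` gives `c, τ`.  From `hδ c` get `u` and write the psd
matrix as `Nm * Nmᵀ` (e.g. `CFC.sqrt`, or `Matrix.posSemidef_iff_eq_conjTranspose_mul_self`,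
`CStarAlgebra.nonneg_iff_eq_star_mul_self`).  Choose representatives `ρ x` with `mk (ρ x) = τ x`.
`τ (eval c (g i)) = mk (sub c 1 (g i))` (expand `g i` as a sum of monomials; coefficients are in `F0`).
Applying `τ` entrywise: `C (A₀ p q) + ∑ i, sub c 1 (g i) * C (A i p q) + ∑ j, ρ (u j) * C (B j p q)
- ∑ t, ρ (Nm p t) * ρ (Nm q t) ∈ mI K ^ (..)`.  `U` = span of the `ρ (Nm p t)`; `gap_exists`, `ext_pd`,
`gap_pos`; `Lam L' D ε` kills the ideal (`low_of_mem`), sends `1` to `1` and `sub c 1 (g i)` to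
`L (sub c ε (g i))` (`Lam_eq`, `sub 0 ε ∘ sub c 1 = sub c ε`, `totalDegree (sub c ε f) ≤ totalDegree f`).
For a vector `y`: `yᵀ (..) y = ∑ t, Lam ((∑ p, y p • ρ (Nm p t))^2) ≥ 0`; the witness is
`u' j = Lam L' D ε (ρ (u j))`. -/

namespace Vale.Agent.P256

open MvPolynomial

theorem sub_deg {K : Type} [Fintype K] [DecidableEq K] (c : K → ℝ) (ε : ℝ)
    (f : MvPolynomial K ℝ) : (sub c ε f).totalDegree ≤ f.totalDegree := by
  conv_lhs => rw [f.as_sum, map_sum]
  refine totalDegree_finsetSum_le fun m hm => ?_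
  refine le_trans ?_ (le_totalDegree hm)
  rw [sub, aeval_monomial]
  refine (totalDegree_mul _ _).trans ?_
  rw [algebraMap_eq, totalDegree_C, zero_add, Finsupp.prod, Finsupp.sum]
  refine (totalDegree_finsetProd _ _).trans (Finset.sum_le_sum fun k _ => ?_)
  refine (totalDegree_pow _ _).trans ?_
  have : (C (c k) + C ε * X k : MvPolynomial K ℝ).totalDegree ≤ 1 := by
    refine (totalDegree_add _ _).trans (max_le (by simp) ((totalDegree_mul _ _).trans ?_))
    simp [totalDegree_X]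
  exact (Nat.mul_le_mul_left _ this).trans (by simp)

theorem sub_sub {K : Type} [Fintype K] [DecidableEq K] (c : K → ℝ) (ε : ℝ)
    (f : MvPolynomial K ℝ) : sub 0 ε (sub c 1 f) = sub c ε f := by
  have : (sub 0 ε).comp (sub c 1) = sub c ε := by
    refine algHom_ext fun k => ?_
    simp [sub]
  exact DFunLike.congr_fun this f

theorem hom_agree {K T : Type} [CommRing T] (φ φ' : MvPolynomial K ℝ →+* T)
    (hX : ∀ k, φ (X k) = φ' (X k)) (g : MvPolynomial K ℝ)
    (hC : ∀ m ∈ g.support, φ (C (coeff m g)) = φ' (C (coeff m g))) : φ g = φ' g := by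
  rw [g.as_sum, map_sum, map_sum]
  refine Finset.sum_congr rfl fun m hm => ?_
  simp only [monomial_eq, map_mul, hC m hm, Finsupp.prod, map_prod, map_pow, hX]

open scoped MatrixOrder in
theorem psd_fact {N : ℕ} (M : Matrix (Fin N) (Fin N) ℝ) (hM : M.PosSemidef) :
    ∃ B : Matrix (Fin N) (Fin N) ℝ, ∀ p q, M p q = ∑ t, B t p * B t q := by
  obtain ⟨B, rfl⟩ := CStarAlgebra.nonneg_iff_eq_star_mul_self.mp hM.nonneg
  exact ⟨B, fun p q => by simp [Matrix.mul_apply]⟩

theorem shadow_mem {K : Type} [Fintype K] [DecidableEq K] {n : ℕ} (S : Set (Fin n → ℝ))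
    (hS : IsShadow S) (g : Fin n → MvPolynomial K ℝ) (hg : ∀ i, (g i).totalDegree ≤ 4)
    (hδ : ∀ c : K → ℝ, (fun i => eval c (g i)) ∈ S) (L : MvPolynomial K ℝ →ₗ[ℝ] ℝ)
    (hL1 : L 1 = 1) (hL : PD L 2) :
    ∃ (c : K → ℝ) (ε : ℝ), 0 < ε ∧ (fun i => L (sub c ε (g i))) ∈ S := by
  classical
  obtain ⟨N, a, A₀, A, B, hA₀, hA, hB, rfl⟩ := hS
  let F0 : Finset ℝ := (Finset.univ.image fun x : Fin N × Fin N => A₀ x.1 x.2) ∪
    (Finset.univ.image fun x : Fin n × Fin N × Fin N => A x.1 x.2.1 x.2.2) ∪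
    (Finset.univ.image fun x : Fin a × Fin N × Fin N => B x.1 x.2.1 x.2.2) ∪
    Finset.univ.biUnion fun i => (g i).support.image fun m => coeff m (g i)
  obtain ⟨c, τ, hτ, hτc⟩ := exists_tau (K := K) F0 (2 * 2 ^ (N * N + 1))
  have t0 : ∀ p q, τ (A₀ p q) = Ideal.Quotient.mk _ (C (A₀ p q)) := fun p q =>
    hτ _ (by
      simp only [F0, Finset.mem_union, Finset.mem_image]
      exact Or.inl (Or.inl (Or.inl ⟨(p, q), Finset.mem_univ _, rfl⟩)))
  have t1 : ∀ i p q, τ (A i p q) = Ideal.Quotient.mk _ (C (A i p q)) := fun i p q =>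
    hτ _ (by
      simp only [F0, Finset.mem_union, Finset.mem_image]
      exact Or.inl (Or.inl (Or.inr ⟨(i, p, q), Finset.mem_univ _, rfl⟩)))
  have t2 : ∀ j p q, τ (B j p q) = Ideal.Quotient.mk _ (C (B j p q)) := fun j p q =>
    hτ _ (by
      simp only [F0, Finset.mem_union, Finset.mem_image]
      exact Or.inl (Or.inr ⟨(j, p, q), Finset.mem_univ _, rfl⟩))
  have t3 : ∀ i, τ (eval c (g i)) = Ideal.Quotient.mk _ (sub c 1 (g i)) := fun i => by
    refine hom_agree (τ.comp (eval c)) ((Ideal.Quotient.mk _).comp (sub c 1).toRingHom)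
      (fun k => by simp [hτc, sub]) (g i) fun m hm => ?_
    have := hτ (coeff m (g i)) (by
      simp only [F0, Finset.mem_union, Finset.mem_biUnion, Finset.mem_image]
      exact Or.inr ⟨i, Finset.mem_univ _, m, hm, rfl⟩)
    simpa [sub] using this
  obtain ⟨u, hu⟩ := hδ c
  obtain ⟨Nm, hNm⟩ := psd_fact _ hu
  choose ρ hρ using fun x : ℝ => Ideal.Quotient.mk_surjective (τ x)
  have hmem : ∀ p q, C (A₀ p q) + ∑ i, sub c 1 (g i) * C (A i p q) + ∑ j, ρ (u j) * C (B j p q)
      - ∑ t, ρ (Nm t p) * ρ (Nm t q) ∈ mI K ^ (2 * 2 ^ (N * N + 1) + 1) := fun p q => by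
    rw [← Ideal.Quotient.eq]
    have := congrArg τ (hNm p q)
    simp only [Matrix.add_apply, Matrix.sum_apply, Matrix.smul_apply, smul_eq_mul, map_add,
      map_sum, map_mul, t0, t1, t2, t3] at this
    simp only [map_add, map_sum, map_mul, hρ]
    exact this
  let U : Submodule ℝ (MvPolynomial K ℝ) :=
    Submodule.span ℝ (Set.range fun x : Fin N × Fin N => ρ (Nm x.1 x.2))
  have : Module.Finite ℝ U := Module.Finite.span_of_finite ℝ (Set.finite_range _)
  have hU : Module.finrank ℝ U ≤ N * N := by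
    have := finrank_range_le_card (R := ℝ) fun x : Fin N × Fin N => ρ (Nm x.1 x.2)
    rwa [Fintype.card_prod, Fintype.card_fin] at this
  obtain ⟨D, hD2, hD, hgap⟩ := gap_exists U _ hU
  obtain ⟨L', hL', hLL⟩ := ext_pd L hL D
  obtain ⟨ε, hε, hpos⟩ := gap_pos U D hgap L' hL'
  have hkill : ∀ f ∈ mI K ^ (2 * 2 ^ (N * N + 1) + 1), Lam L' D ε f = 0 := fun f hf => by
    simp only [Lam, LinearMap.sum_apply, LinearMap.smul_apply, LinearMap.comp_apply]
    refine Finset.sum_eq_zero fun d hd => ?_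
    rw [low_of_mem _ f hf d (by have := Finset.mem_range.1 hd; omega), map_zero, smul_zero]
  have h1 : Lam L' D ε 1 = 1 := by
    rw [Lam_eq _ _ _ _ (by simp), map_one, hLL _ (by simp), hL1]
  have hgi : ∀ i, Lam L' D ε (sub c 1 (g i)) = L (sub c ε (g i)) := fun i => by
    rw [Lam_eq _ _ _ _ (((sub_deg _ _ _).trans (hg i)).trans (by omega)), sub_sub,
      hLL _ ((sub_deg _ _ _).trans (hg i))]
  have hC : ∀ (f : MvPolynomial K ℝ) (r : ℝ), Lam L' D ε (f * C r) = Lam L' D ε f * r :=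
    fun f r => by rw [mul_comm f, ← smul_eq_C_mul, map_smul, smul_eq_mul, mul_comm]
  have hent : ∀ p q, (A₀ + ∑ i, L (sub c ε (g i)) • A i + ∑ j, Lam L' D ε (ρ (u j)) • B j) p q =
      ∑ t, Lam L' D ε (ρ (Nm t p) * ρ (Nm t q)) := fun p q => by
    have := hkill _ (hmem p q)
    have h0 : Lam L' D ε (C (A₀ p q)) = A₀ p q := by
      have := hC 1 (A₀ p q)
      rwa [one_mul, h1, one_mul] at this
    simp only [map_sub, map_add, map_sum, hC, hgi, h0, sub_eq_zero] at this
    simp only [Matrix.add_apply, Matrix.sum_apply, Matrix.smul_apply, smul_eq_mul]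
    exact this
  refine ⟨c, ε, hε, fun j => Lam L' D ε (ρ (u j)), ?_⟩
  refine Matrix.PosSemidef.of_dotProduct_mulVec_nonneg ?_ fun y => ?_
  · ext p q
    simp only [Matrix.conjTranspose_apply, star_trivial, hent, mul_comm]
  · have : star y ⬝ᵥ (A₀ + ∑ i, L (sub c ε (g i)) • A i +
        ∑ j, Lam L' D ε (ρ (u j)) • B j).mulVec y =
        ∑ t, Lam L' D ε ((∑ p, y p • ρ (Nm t p)) * ∑ q, y q • ρ (Nm t q)) := by
      simp only [Finset.sum_mul_sum, map_sum, smul_mul_smul_comm, map_smul, smul_eq_mul]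
      simp only [dotProduct, Matrix.mulVec, hent, star_trivial, Finset.mul_sum, Finset.sum_mul]
      conv_rhs => rw [Finset.sum_comm]
      refine Finset.sum_congr rfl fun p _ => ?_
      conv_rhs => rw [Finset.sum_comm]
      refine Finset.sum_congr rfl fun q _ => Finset.sum_congr rfl fun t _ => by ring
    rw [this]
    refine Finset.sum_nonneg fun t _ => hpos _ (Submodule.sum_mem _ fun p _ =>
      Submodule.smul_mem _ _ (Submodule.subset_span ⟨(t, p), rfl⟩))

end Vale.Agent.P256
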