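import Mathlib
import Vale.Agent.P256.SFun
import Vale.Agent.P256.SBasic
import Vale.Agent.P256.SBlk

/-! P256 task S17: the polynomial is negative at the pseudo-moment point.

Let `P0 q none = - f q none none`, `P0 q (some l) = piL f (q, l)`, `B0 = P0 * ML ψ`,
`w0 = A * trace (P0 * ML ψ * P0ᵀ)`.  From `hf.1`: `∑ i j, top f q i j * ψ s (some i) (some j) =
∑ l, P0 q l * Vv ψ l s`.  For `L` from `exists_fun` with parameter `η` and `x v = L (gV v)` (symmetric,
`mom_of_sym`): `Mm = ML ψ + η • 1`, `Bm = B0`, `x none = w0 + η * A * ∑ (top f)^2` (write each product of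
`xt`'s in the form `xt (iA a) * xt (iA a') * xt (iB b) * xt (iB b')`, `xt none = 1`, use `PT`).  At `η = 0`,
`pM_of_inv` with `Mi = (ML ψ)⁻¹` (`ML_posDef`) gives `det^2 * Hq h (piL f) < 0`; `pM` is continuous in
`η` (`Continuous.matrix_det`, `Continuous.matrix_adjugate`), so it is negative for a small `η > 0`.
Finally rescale `L` by `(L 1)⁻¹ > 0` (`pV_smul`). -/

namespace Vale.Agent.P256

open MvPolynomial Matrix

section
variable {S α β Q : Type} [Fintype S] [Fintype α] [Fintype β] [DecidableEq α] [DecidableEq β]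
  [Fintype Q]

/-- First component of an index. -/
def negA : Ix α β → Option α
  | some (Sum.inl i) => some i
  | _ => none

/-- Second component of an index. -/
def negB : Ix α β → Option β
  | some (Sum.inr j) => some j
  | _ => none

/-- The regression matrix. -/
def negP (f : Q → Option α → Option β → ℝ) : Matrix Q (Ix α β) ℝ :=
  Matrix.of fun q l => l.elim (-f q none none) fun k => piL f (q, k)

theorem neg_xt (l : Ix α β) : xt l = xt (iA (negA l)) * xt (iB (negB l) : Ix α β) := by
  rcases l with _ | i | j <;> simp [negA, negB, iA, iB, xt]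

theorem neg_V (ψ : S → Option α → Option β → ℝ) (l : Ix α β) (s : S) :
    Vv ψ l s = ψ s (negA l) (negB l) := by
  rcases l with _ | i | j <;> rfl

theorem neg_iff (l l' : Ix α β) : negA l = negA l' ∧ negB l = negB l' ↔ l = l' := by
  rcases l with _ | i | j <;> rcases l' with _ | i' | j' <;> simp [negA, negB]

theorem neg_ne (i : α) (j : β) (l : Ix α β) : ¬(some i = negA l ∧ some j = negB l) := by
  rcases l with _ | i | j <;> simp [negA, negB]

theorem neg_T {ψ : S → Option α → Option β → ℝ} {f : Q → Option α → Option β → ℝ} (hf : Fam ψ f)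
    (q : Q) (s : S) :
    ∑ i, ∑ j, top f q i j * ψ s (some i) (some j) = (negP f * Matrix.of (Vv ψ)) q s := by
  have := hf.1 s q
  simp only [Fintype.sum_option, Finset.sum_add_distrib] at this
  simp only [mul_apply, Fintype.sum_option, Fintype.sum_sum_type, negP, of_apply, Option.elim, piL,
    Vv, top, neg_mul, Finset.sum_neg_distrib, mul_comm (f q _ _)]
  linarith

theorem neg_exp (L : MvPolynomial (α ⊕ β) ℝ →ₗ[ℝ] ℝ) (qh : Q → α → β → ℝ) (q : Q)
    (p : MvPolynomial (α ⊕ β) ℝ) :
    L (qP qh q * p) = ∑ i, ∑ j, qh q i j * L (xt (iA (some i)) * xt (iB (some j)) * p) := by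
  simp only [qP, Finset.sum_mul, map_sum, C_mul', smul_mul_assoc, map_smul, smul_eq_mul]
  rfl

end

theorem exists_neg {S α β Q : Type} [Fintype S] [Fintype α] [Fintype β] [DecidableEq α]
    [DecidableEq β] [Fintype Q] {ψ : S → Option α → Option β → ℝ} (hψ : Good ψ)
    {f : Q → Option α → Option β → ℝ} (hf : Fam ψ f) (h : Q × (α ⊕ β) → Q × (α ⊕ β) → ℝ) (A : ℝ)
    (hneg : Hq h (piL f) < 0) :
    ∃ L : MvPolynomial (α ⊕ β) ℝ →ₗ[ℝ] ℝ, L 1 = 1 ∧ PD L 2 ∧
      pV h A (top f) (fun v => L (gV A (top f) v)) < 0 := by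
  have hV : ML ψ = Matrix.of (Vv ψ) * (Matrix.of (Vv ψ))ᵀ := rfl
  let W : ℝ → ℝ := fun η => A * ∑ q, ∑ i, ∑ j, top f q i j * ∑ i', ∑ j', top f q i' j' *
    (∑ s, ψ s (some i') (some j') * ψ s (some i) (some j) +
      η * (if some i' = some i ∧ some j' = some j then 1 else 0))
  have W0 : W 0 = A • (negP f * ML ψ * (negP f)ᵀ).trace := by
    rw [hV, ← Matrix.mul_assoc, Matrix.mul_assoc, ← transpose_mul, smul_eq_mul]
    simp only [W, zero_mul, add_zero, trace, diag_apply]
    refine congrArg _ (Finset.sum_congr rfl fun q _ => ?_)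
    rw [mul_apply]
    simp only [transpose_apply, ← neg_T hf, Finset.mul_sum, Finset.sum_mul]
    simp only [Finset.sum_comm (s := (Finset.univ : Finset S))]
    refine Finset.sum_congr rfl fun i _ => Finset.sum_congr rfl fun j _ =>
      Finset.sum_congr rfl fun i' _ => Finset.sum_congr rfl fun j' _ =>
        Finset.sum_congr rfl fun s _ => by ring
  have hu : IsUnit (ML ψ).det := (ML_posDef hψ).det_pos.ne'.isUnit
  have hc : Continuous fun η : ℝ => pM h A (ML ψ + η • 1) (negP f * ML ψ) (W η) := by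
    have h1 : Continuous fun η : ℝ => ML ψ + η • (1 : Matrix (Ix α β) (Ix α β) ℝ) := by fun_prop
    have h2 := h1.matrix_adjugate
    have h3 := h1.matrix_det
    simp only [pM, eP, Hq, cut, W]
    fun_prop
  have h0 : pM h A (ML ψ + (0 : ℝ) • 1) (negP f * ML ψ) (W 0) < 0 := by
    rw [zero_smul, add_zero, pM_of_inv h A _ _ (mul_nonsing_inv _ hu), W0,
      mul_nonsing_inv_cancel_right _ _ hu, transpose_mul, ← Matrix.mul_assoc, (show (ML ψ)ᵀ = ML ψ by rw [hV, transpose_mul, transpose_transpose]),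
      sub_self, zero_mul, zero_add]
    exact mul_neg_of_pos_of_neg (pow_pos (ML_posDef hψ).det_pos 2) hneg
  obtain ⟨η, h1, hη⟩ := ((((hc.tendsto 0).eventually (gt_mem_nhds h0)).filter_mono
    nhdsWithin_le_nhds).and (self_mem_nhdsWithin (s := Set.Ioi (0 : ℝ)))).exists
  obtain ⟨L, hL, hL2⟩ := exists_fun hψ.pt η hη
  have hL3 : ∀ a b a' b', L (xt (iA a) * xt (iB b) * (xt (iA a') * xt (iB b'))) =
      ∑ s, ψ s a b * ψ s a' b' + η * (if a = a' ∧ b = b' then 1 else 0) := fun a b a' b' => by
    rw [← hL2, mul_mul_mul_comm, ← mul_assoc]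
  have hm : mom (fun v => L (gV A (top f) v)) = fun a b c => L (xt a * xt b * xt c) :=
    mom_of_sym _ ⟨fun a b c => congrArg L (by simp only [gV]; ring),
      fun a b c => congrArg L (by simp only [gV]; ring)⟩
  have e1 : Mm (fun a b c : Ix α β => L (xt a * xt b * xt c)) = ML ψ + η • 1 := by
    ext l l'
    rw [Mm, of_apply, (show xt none = 1 from rfl), one_mul, neg_xt l, neg_xt l', hL3]
    simp only [neg_iff, ← neg_V, Matrix.add_apply, Matrix.smul_apply, one_apply, smul_eq_mul]
    rfl
  have e2 : Bm (top f) (fun a b c : Ix α β => L (xt a * xt b * xt c)) = negP f * ML ψ := by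
    ext q l
    rw [hV, ← Matrix.mul_assoc, mul_apply, Bm, of_apply, neg_xt l]
    simp only [← neg_T hf, Finset.sum_mul]
    simp only [Finset.sum_comm (s := (Finset.univ : Finset S))]
    refine Finset.sum_congr rfl fun i _ => Finset.sum_congr rfl fun j _ => ?_
    refine (congrArg _ (hL3 (some i) (some j) _ _)).trans ?_
    simp only [if_neg (neg_ne i j l), mul_zero, add_zero, smul_eq_mul, Finset.mul_sum, mul_assoc,
      transpose_apply, of_apply, neg_V]
  have e3 : L (gV A (top f) none) = W η := by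
    simp only [gV, C_mul', map_smul, map_sum, smul_eq_mul, W]
    refine congrArg _ (Finset.sum_congr rfl fun q _ => ?_)
    rw [neg_exp]
    simp only [mul_comm _ (qP (top f) q), neg_exp, hL3]
  have h2 : pV h A (top f) (fun v => L (gV A (top f) v)) < 0 := by
    rw [pV, hm, e1, e2, e3]
    exact h1
  have h3 : 0 < L 1 := by simpa using hL 1 one_ne_zero (by simp)
  refine ⟨(L 1)⁻¹ • L, inv_mul_cancel₀ h3.ne', fun g g1 g2 => mul_pos (inv_pos.2 h3) (hL g g1 g2), ?_⟩
  exact (pV_smul h A (top f) (L 1)⁻¹ _).trans_lt (mul_neg_of_pos_of_neg (by positivity) h2)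

end Vale.Agent.P256
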