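import Mathlib
import Vale.Agent.P256.SHyp
import Vale.Agent.P256.SDelta
import Vale.Agent.P256.STrans
import Vale.Agent.P256.SKey
import Vale.Agent.P256.SForm
import Vale.Agent.P256.SNS
import Vale.Agent.P256.SNeg
import Vale.Agent.P256.SEx

/-! P256 (helper2): assembly. -/

namespace Vale.Agent.P256

open MvPolynomial Matrix

theorem not_shadow_of_good {S α β : Type} [Fintype S] [Fintype α] [Fintype β] [DecidableEq α]
    [DecidableEq β] [Nonempty α] [Nonempty β] {ψ : S → Option α → Option β → ℝ} (hψ : Good ψ) :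
    ∃ (n : ℕ) (p : MvPolynomial (Fin n) ℝ) (e : Fin n → ℝ),
      IsHyperbolic p e ∧ ¬ IsShadow (hypCone p e) := by
  classical
  obtain ⟨f, hf⟩ := exists_fam ψ
  obtain ⟨ε, hε, hk⟩ := key_main hψ hf
  obtain ⟨h, A, hH⟩ := exists_goodH _ _ ε hε hk
  let E := Fintype.equivFin (Vr α β)
  let p : MvPolynomial (Fin (Fintype.card (Vr α β))) ℝ := pV h A (top f) fun v => X (E v)
  let e : Fin (Fintype.card (Vr α β)) → ℝ := fun i => eV (E.symm i)
  have haev : ∀ {R : Type} [CommRing R] [Algebra ℝ R] (x : Fin (Fintype.card (Vr α β)) → R),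
      aeval x p = pV h A (top f) fun v => x (E v) := by
    intro R _ _ x
    rw [map_pV]
    simp only [aeval_X]
  have hev : ∀ x : Fin (Fintype.card (Vr α β)) → ℝ,
      eval x p = pV h A (top f) fun v => x (E v) := fun x => by
    rw [← haev x, aeval_eq_eval]
  have hsm : ∀ (t : ℝ) (x : Fin (Fintype.card (Vr α β)) → ℝ),
      eval (t • x) p = t ^ (2 * Fintype.card (α ⊕ β) + 2) * eval x p := fun t x => by
    rw [hev, hev, ← pV_smul]
    rfl
  have he : 0 < eval e p := by
    rw [hev]
    simp only [e, Equiv.symm_apply_apply]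
    rw [show (fun v : Vr α β => eV v) = eV from rfl, pV_eV]
    exact_mod_cast Fintype.card_pos
  refine ⟨_, p, e, ⟨⟨_, isHomogeneous_of_eval p _ hsm⟩, he, fun x z hz => ?_⟩, fun hS => ?_⟩
  · by_contra hz'
    rw [haev] at hz
    have h1 := pV_add_eV h A (top f) (fun v => -x (E v)) z
    have h2 : (fun v : Vr α β => z * (e (E v) : ℂ) - (x (E v) : ℂ)) =
        fun v => algebraMap ℝ ℂ (-x (E v)) + z * algebraMap ℝ ℂ (eV v) := by
      funext v
      simp only [e, Equiv.symm_apply_apply, Complex.coe_algebraMap, Complex.ofReal_neg]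
      ring
    rw [h2, h1] at hz
    have hs := sym3_mom (R := ℝ) fun v : Vr α β => -x (E v)
    refine hyp_core h A hH.nonneg hH.bound _ ?_ _ _ ?_ z hz' hz
    · ext l l'
      exact (hs.2 none l l').symm
    · intro t δ Mi hMi htr
      obtain ⟨m', hm', hM, hB⟩ := exists_shift (top f) _ hs t δ
      rw [← hB]
      exact hH.key m' hm' Mi (hM ▸ hMi) htr
  · obtain ⟨L, hL1, hL, hneg⟩ := exists_neg hψ hf h A hH.neg
    have hx : ∀ l : Ix α β, (xt l).totalDegree ≤ 1 := by
      rintro (_ | k)
      · simp [xt]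
      · simp [xt, totalDegree_X]
    have hq : ∀ q, (qP (top f) q).totalDegree ≤ 2 := fun q => by
      refine totalDegree_finsetSum_le fun i _ => totalDegree_finsetSum_le fun j _ => ?_
      refine (totalDegree_mul _ _).trans ?_
      refine (Nat.add_le_add_right (totalDegree_mul _ _) _).trans ?_
      simp [totalDegree_X]
    have hg : ∀ v : Vr α β, (gV A (top f) v).totalDegree ≤ 4 := by
      rintro (_ | ⟨a, b, c⟩)
      · refine (totalDegree_mul _ _).trans ?_
        rw [totalDegree_C, zero_add]
        refine totalDegree_finsetSum_le fun q _ => (totalDegree_mul _ _).trans ?_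
        have := hq q
        omega
      · refine (totalDegree_mul _ _).trans ?_
        refine (Nat.add_le_add_right (totalDegree_mul _ _) _).trans ?_
        have := hx a
        have := hx b
        have := hx c
        omega
    obtain ⟨c, η, hη, hmem⟩ := shadow_mem _ hS (fun i => gV A (top f) (E.symm i))
      (fun i => hg _) (fun c => mem_of_ne p _ hsm e _ fun s hs => by
        rw [hev]
        have := pV_delta h A hH.nonneg hH.bound (top f) c s hs
        simp only [e, Pi.add_apply, Pi.smul_apply, Equiv.symm_apply_apply, smul_eq_mul]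
        exact this.ne') L hL1 hL
    have h1 := nonneg_of_mem p _ hsm e he _ hmem
    rw [hev] at h1
    simp only [Equiv.symm_apply_apply] at h1
    exact absurd (pV_sub_neg h A (top f) hH.inv L hL hneg c η hη.ne') (not_lt.2 h1)

theorem proj_lax_false : ∃ (n : ℕ) (p : MvPolynomial (Fin n) ℝ) (e : Fin n → ℝ),
    IsHyperbolic p e ∧ ¬ IsShadow (hypCone p e) :=
  not_shadow_of_good good_ex

end Vale.Agent.P256
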